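import Vale.Agent.P159.T1.H532.Bes
import Vale.Agent.P159.H353.ProdSum

/-!
# Second moment of the currents conditioned on a subgroup

`Gw J n = ∏ e, wI (J e) (n e)` on `E → ℤ`. For every subgroup `Γ` of `E → ℤ` and every `η : E → ℝ`
`∑ γ ∈ Γ, (∑ e, η e γ e) ^ 2 Gw J γ ≤ (∑ e, J e η e ^ 2) ∑ γ ∈ Γ, Gw J γ`.
-/

open Filter Topology

namespace Vale.Agent.P159.T1.H532

open Vale.Agent.P159 Vale.Agent.P159.H353

/-! ### Positive definiteness of the sum over the translates of a subgroup -/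

section General

universe u

variable {A : Type u} [AddCommGroup A]

/-- representatives and elements of the subgroup -/
noncomputable def cosetEquiv (Γ : AddSubgroup A) : (A ⧸ Γ) × Γ ≃ A :=
  Equiv.ofBijective (fun p : (A ⧸ Γ) × Γ => Quotient.out p.1 + (p.2 : A)) (by
    constructor
    · rintro ⟨q, s⟩ ⟨q', s'⟩ h
      have h0 : Quotient.out q + (s : A) = Quotient.out q' + (s' : A) := h
      have h1 : ((Quotient.out q + (s : A) : A) : A ⧸ Γ) = ((Quotient.out q' + (s' : A) : A) : A ⧸ Γ) :=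
        congrArg _ h0
      have e : ∀ (r : A ⧸ Γ) (u : Γ), ((Quotient.out r + (u : A) : A) : A ⧸ Γ) = r := by
        intro r u
        rw [QuotientAddGroup.mk_add_of_mem _ u.2]
        exact QuotientAddGroup.out_eq' r
      rw [e, e] at h1
      subst h1
      have h2 : (s : A) = s' := add_left_cancel h0
      rw [Subtype.ext h2]
    · intro l
      have h1 : ((Quotient.out (l : A ⧸ Γ) : A) : A ⧸ Γ) = (l : A ⧸ Γ) :=
        QuotientAddGroup.out_eq' _
      have h2 : -(Quotient.out (l : A ⧸ Γ)) + l ∈ Γ := QuotientAddGroup.eq.1 h1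
      exact ⟨((l : A ⧸ Γ), ⟨_, h2⟩), by simp⟩)

theorem exists_equiv (Γ : AddSubgroup A) : ∃ (Q : Type u) (r : Q → A) (e : Q × Γ ≃ A),
    ∀ (q : Q) (s : Γ), e (q, s) = r q + (s : A) :=
  ⟨A ⧸ Γ, Quotient.out, cosetEquiv Γ, fun _ _ => rfl⟩

theorem corr_comm (Γ : AddSubgroup A) {K : A → ℝ} (hK : Summable K) :
    (Summable fun p : A × Γ => K p.1 * K (p.1 + (p.2 : A))) ∧
    ∑' γ : Γ, ∑' l : A, K l * K (l + (γ : A)) = ∑' l : A, K l * ∑' γ : Γ, K (l + (γ : A)) := by
  have h2 : Summable fun p : A × A => K p.1 * K p.2 :=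
    summable_mul_of_summable_norm hK.norm hK.norm
  have hinj : Function.Injective fun p : A × Γ => (p.1, p.1 + (p.2 : A)) := by
    rintro ⟨l, g⟩ ⟨l', g'⟩ h
    have h3 : l = l' := (Prod.mk.inj h).1
    have h4 : l + (g : A) = l' + (g' : A) := (Prod.mk.inj h).2
    subst h3
    rw [Subtype.ext (add_left_cancel h4)]
  have h3 : Summable fun p : A × Γ => K p.1 * K (p.1 + (p.2 : A)) := h2.comp_injective hinj
  refine ⟨h3, ?_⟩
  have h4 := h3.tsum_comm (f := fun (l : A) (γ : Γ) => K l * K (l + (γ : A)))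
  rw [h4]
  exact tsum_congr fun l => tsum_mul_left

theorem corr_nonneg (Γ : AddSubgroup A) {K : A → ℝ} (hK : Summable K) :
    0 ≤ ∑' γ : Γ, ∑' l : A, K l * K (l + (γ : A)) := by
  obtain ⟨h3, h4⟩ := corr_comm Γ hK
  rw [h4]
  obtain ⟨S, hS⟩ : ∃ S : A → ℝ, ∀ l, S l = ∑' γ : Γ, K (l + (γ : A)) := ⟨_, fun _ => rfl⟩
  simp only [← hS]
  have hSinv : ∀ (l : A) (s : Γ), S (l + (s : A)) = S l := by
    intro l s
    rw [hS, hS, ← (Equiv.addLeft s).tsum_eq (fun γ : Γ => K (l + (γ : A)))]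
    refine tsum_congr fun γ => ?_
    rw [Equiv.coe_addLeft, AddSubgroup.coe_add, add_assoc]
  have h5 : Summable fun l : A => K l * S l := by
    refine h3.prod.congr fun l => ?_
    rw [hS]
    exact tsum_mul_left (f := fun γ : Γ => K (l + (γ : A))) (a := K l)
  obtain ⟨Q, r, e, he⟩ := exists_equiv Γ
  rw [← e.tsum_eq (fun l => K l * S l)]
  have h6 : Summable fun p : Q × Γ => K (e p) * S (e p) := e.summable_iff.2 h5
  rw [h6.tsum_prod]
  refine tsum_nonneg fun q => ?_
  have h7 : ∀ s : Γ, K (e (q, s)) * S (e (q, s)) = K (r q + (s : A)) * S (r q) := by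
    intro s
    rw [he, hSinv]
  rw [tsum_congr h7, tsum_mul_right, ← hS]
  exact mul_self_nonneg _

/-- the sum over a translate of the subgroup -/
noncomputable def Fs (Γ : AddSubgroup A) (G : A → ℝ) (m : A) : ℝ := ∑' γ : Γ, G ((γ : A) + m)

theorem hasSum_Fs (Γ : AddSubgroup A) {G : A → ℝ} (hG : Summable G) (m : A) :
    HasSum (fun γ : Γ => G ((γ : A) + m)) (Fs Γ G m) := by
  refine Summable.hasSum (hG.comp_injective (i := fun γ : Γ => (γ : A) + m) ?_)
  intro a b h
  exact Subtype.ext (add_right_cancel h)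

theorem corr_eq {G G' : A → ℝ} (heven : ∀ l, G' (-l) = G' l)
    (hG : ∀ n, HasSum (fun m => G' m * G' (n - m)) (G n)) (a b γ : A) :
    HasSum (fun l => G' (l + a) * G' (l + γ + b)) (G (γ + (b - a))) := by
  have h := hG (γ + (b - a))
  set e : A ≃ A := (Equiv.addRight a).trans (Equiv.neg A) with he
  have h1 := e.hasSum_iff.2 h
  have h2 : (fun m => G' m * G' (γ + (b - a) - m)) ∘ e = fun l => G' (l + a) * G' (l + γ + b) := by
    funext l
    show G' (-(l + a)) * G' (γ + (b - a) - -(l + a)) = G' (l + a) * G' (l + γ + b)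
    rw [heven, show γ + (b - a) - -(l + a) = l + γ + b by abel]
  rwa [h2] at h1

/-- **positive definiteness** of the sums over the translates of a subgroup -/
theorem posdef (Γ : AddSubgroup A) {G G' : A → ℝ} (hs : Summable G) (hs' : Summable G')
    (heven : ∀ l, G' (-l) = G' l)
    (hG : ∀ n, HasSum (fun m => G' m * G' (n - m)) (G n)) {ι : Type*} [Fintype ι] (c : ι → ℝ)
    (a : ι → A) : 0 ≤ ∑ i, ∑ j, c i * c j * Fs Γ G (a j - a i) := by
  have hK : Summable fun l : A => ∑ i, c i * G' (l + a i) :=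
    summable_sum fun i _ => ((Equiv.addRight (a i)).summable_iff.2 hs').mul_left (c i)
  have h1 : ∀ γ : Γ, HasSum (fun l : A => (∑ i, c i * G' (l + a i)) *
      ∑ i, c i * G' (l + (γ : A) + a i)) (∑ i, ∑ j, c i * c j * G ((γ : A) + (a j - a i))) := by
    intro γ
    have h2 : HasSum (fun l : A => ∑ i, ∑ j, c i * c j * (G' (l + a i) * G' (l + (γ : A) + a j)))
        (∑ i, ∑ j, c i * c j * G ((γ : A) + (a j - a i))) :=
      hasSum_sum fun i _ => hasSum_sum fun j _ => (corr_eq heven hG (a i) (a j) γ).mul_left _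
    have h3 : (fun l : A => (∑ i, c i * G' (l + a i)) * ∑ i, c i * G' (l + (γ : A) + a i)) =
        fun l : A => ∑ i, ∑ j, c i * c j * (G' (l + a i) * G' (l + (γ : A) + a j)) := by
      funext l
      rw [Finset.sum_mul_sum]
      refine Finset.sum_congr rfl fun i _ => Finset.sum_congr rfl fun j _ => ?_
      ring
    rw [h3]
    exact h2
  have h3 : HasSum (fun γ : Γ => ∑ i, ∑ j, c i * c j * G ((γ : A) + (a j - a i)))
      (∑ i, ∑ j, c i * c j * Fs Γ G (a j - a i)) :=
    hasSum_sum fun i _ => hasSum_sum fun j _ => (hasSum_Fs Γ hs (a j - a i)).mul_left _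
  rw [← h3.tsum_eq]
  have h4 := corr_nonneg Γ hK
  refine h4.trans (le_of_eq (tsum_congr fun γ => ?_))
  exact (h1 γ).tsum_eq

theorem Fs_add_neg_le (Γ : AddSubgroup A) {G G' : A → ℝ} (hs : Summable G) (hs' : Summable G')
    (heven : ∀ l, G' (-l) = G' l)
    (hG : ∀ n, HasSum (fun m => G' m * G' (n - m)) (G n)) (m : A) :
    Fs Γ G m + Fs Γ G (-m) ≤ 2 * Fs Γ G 0 := by
  have h := posdef Γ hs hs' heven hG (ι := Bool) (fun x => if x then 1 else -1)
    (fun x => if x then m else 0)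
  simp only [Fintype.sum_bool, if_true, Bool.false_eq_true, if_false, sub_self, sub_zero,
    zero_sub, neg_zero] at h
  linarith

end General

/-! ### The product weights -/

section Prod

variable {E : Type} [Fintype E]

/-- product weight -/
noncomputable def Gw (J : E → ℝ) (n : E → ℤ) : ℝ := ∏ e, wI (J e) (n e)

theorem Gw_nonneg {J : E → ℝ} (hJ : ∀ e, 0 ≤ J e) (n : E → ℤ) : 0 ≤ Gw J n :=
  Finset.prod_nonneg fun e _ => wI_nonneg (hJ e) _

theorem Gw_neg (J : E → ℝ) (n : E → ℤ) : Gw J (-n) = Gw J n := by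
  unfold Gw
  simp only [Pi.neg_apply, wI_neg]

theorem prod_real {a : E → ℤ → ℝ} (ha : ∀ e, Summable (a e)) :
    HasSum (fun n : E → ℤ => ∏ e, a e (n e)) (∏ e, ∑' k, a e k) := by
  have h := prod_tsum_all ℤ E (fun e n => ((a e n : ℝ) : ℂ)) (fun e => by
    simpa only [Complex.norm_real] using (ha e).norm)
  have hs : Summable fun n : E → ℤ => ∏ e, a e (n e) := by
    rw [← summable_norm_iff]
    refine h.1.congr fun n => ?_
    rw [← Complex.ofReal_prod, Complex.norm_real]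
  have h2 := h.2
  have h3 : ((∑' n : E → ℤ, ∏ e, a e (n e) : ℝ) : ℂ) = ((∏ e, ∑' k, a e k : ℝ) : ℂ) := by
    rw [Complex.ofReal_tsum]
    push_cast
    simpa using h2
  rw [← Complex.ofReal_injective h3]
  exact hs.hasSum

theorem summable_Gw {J : E → ℝ} (hJ : ∀ e, 0 ≤ J e) : Summable (Gw J) :=
  (prod_real fun e => summable_wI (hJ e)).summable

theorem Gw_conv {J K : E → ℝ} (hJ : ∀ e, 0 ≤ J e) (hK : ∀ e, 0 ≤ K e) (n : E → ℤ) :
    HasSum (fun m => Gw J m * Gw K (n - m)) (Gw (fun e => J e + K e) n) := by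
  have h := prod_real (a := fun e k => wI (J e) k * wI (K e) (n e - k))
    (fun e => (wI_conv (hJ e) (hK e) (n e)).summable)
  have e1 : (∏ e, ∑' k, wI (J e) k * wI (K e) (n e - k)) = Gw (fun e => J e + K e) n :=
    Finset.prod_congr rfl fun e _ => (wI_conv (hJ e) (hK e) (n e)).tsum_eq
  rw [e1] at h
  simpa only [Gw, ← Finset.prod_mul_distrib, Pi.sub_apply] using h

variable [DecidableEq E]

/-- unit current -/
def dl (e : E) : E → ℤ := Pi.single e 1

theorem Gw_rec {J : E → ℝ} (hJ : ∀ e, 0 ≤ J e) (n : E → ℤ) (e : E) :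
    (n e : ℝ) * Gw J n = J e / 2 * (Gw J (n - dl e) - Gw J (n + dl e)) := by
  have hp : ∀ m : E → ℤ, Gw J m = wI (J e) (m e) * ∏ f ∈ Finset.univ.erase e, wI (J f) (m f) :=
    fun m => (Finset.mul_prod_erase Finset.univ (fun f => wI (J f) (m f)) (Finset.mem_univ e)).symm
  have e1 : ∏ f ∈ Finset.univ.erase e, wI (J f) ((n - dl e) f) =
      ∏ f ∈ Finset.univ.erase e, wI (J f) (n f) := by
    refine Finset.prod_congr rfl fun f hf => ?_
    have : dl e f = 0 := Pi.single_eq_of_ne (Finset.ne_of_mem_erase hf) 1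
    rw [Pi.sub_apply, this, sub_zero]
  have e2 : ∏ f ∈ Finset.univ.erase e, wI (J f) ((n + dl e) f) =
      ∏ f ∈ Finset.univ.erase e, wI (J f) (n f) := by
    refine Finset.prod_congr rfl fun f hf => ?_
    have : dl e f = 0 := Pi.single_eq_of_ne (Finset.ne_of_mem_erase hf) 1
    rw [Pi.add_apply, this, add_zero]
  have e3 : (n - dl e) e = n e - 1 := by
    rw [Pi.sub_apply]; unfold dl; rw [Pi.single_eq_same]
  have e4 : (n + dl e) e = n e + 1 := by
    rw [Pi.add_apply]; unfold dl; rw [Pi.single_eq_same]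
  rw [hp n, hp (n - dl e), hp (n + dl e), e1, e2, e3, e4]
  have h := wI_rec (hJ e) (n e)
  linear_combination (∏ f ∈ Finset.univ.erase e, wI (J f) (n f)) * h

/-- linear form of the currents -/
def Xe (η : E → ℝ) (n : E → ℤ) : ℝ := ∑ e, η e * n e

theorem Xe_sub (η : E → ℝ) (n : E → ℤ) (e : E) : Xe η (n - dl e) = Xe η n - η e := by
  unfold Xe
  have h : ∀ f, η f * (((n - dl e) f : ℤ) : ℝ) = η f * n f - (if f = e then η f else 0) := by
    intro f
    rw [Pi.sub_apply]
    by_cases hf : f = e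
    · subst hf
      rw [if_pos rfl]
      unfold dl
      rw [Pi.single_eq_same]
      push_cast
      ring
    · rw [if_neg hf]
      have : dl e f = 0 := Pi.single_eq_of_ne hf 1
      rw [this]
      simp
  rw [Finset.sum_congr rfl fun f _ => h f, Finset.sum_sub_distrib, Finset.sum_ite_eq' Finset.univ e,
    if_pos (Finset.mem_univ e)]

theorem Xe_add (η : E → ℝ) (n : E → ℤ) (e : E) : Xe η (n + dl e) = Xe η n + η e := by
  have h := Xe_sub η (n + dl e) e
  rw [add_sub_cancel_right] at h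
  linarith

theorem Xe_Gw {J : E → ℝ} (hJ : ∀ e, 0 ≤ J e) (η : E → ℝ) (n : E → ℤ) :
    Xe η n * Gw J n = ∑ e, η e * (J e / 2) * (Gw J (n - dl e) - Gw J (n + dl e)) := by
  unfold Xe
  rw [Finset.sum_mul]
  refine Finset.sum_congr rfl fun e _ => ?_
  have h := Gw_rec hJ n e
  linear_combination η e * h

theorem Xe_sq_Gw {J : E → ℝ} (hJ : ∀ e, 0 ≤ J e) (η : E → ℝ) (n : E → ℤ) :
    Xe η n ^ 2 * Gw J n = ∑ e, ∑ f, η e * (J e / 2) * (η f * (J f / 2)) *
      (Gw J (n - dl e - dl f) - Gw J (n - dl e + dl f) - Gw J (n + dl e - dl f) +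
        Gw J (n + dl e + dl f)) +
      ∑ e, η e ^ 2 * (J e / 2) * (Gw J (n - dl e) + Gw J (n + dl e)) := by
  have h1 := Xe_Gw hJ η n
  have h2 : Xe η n ^ 2 * Gw J n = ∑ e, η e * (J e / 2) * (Xe η n * Gw J (n - dl e) -
      Xe η n * Gw J (n + dl e)) := by
    rw [pow_two, mul_assoc, h1, Finset.mul_sum]
    refine Finset.sum_congr rfl fun e _ => ?_
    ring
  rw [h2, ← Finset.sum_add_distrib]
  refine Finset.sum_congr rfl fun e _ => ?_
  have h3 := Xe_Gw hJ η (n - dl e)
  have h4 := Xe_Gw hJ η (n + dl e)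
  rw [Xe_sub] at h3
  rw [Xe_add] at h4
  have h5 : ∑ f, η e * (J e / 2) * (η f * (J f / 2)) *
      (Gw J (n - dl e - dl f) - Gw J (n - dl e + dl f) - Gw J (n + dl e - dl f) +
        Gw J (n + dl e + dl f)) = η e * (J e / 2) * (∑ f, η f * (J f / 2) *
          (Gw J (n - dl e - dl f) - Gw J (n - dl e + dl f)) - ∑ f, η f * (J f / 2) *
          (Gw J (n + dl e - dl f) - Gw J (n + dl e + dl f))) := by
    rw [← Finset.sum_sub_distrib, Finset.mul_sum]
    refine Finset.sum_congr rfl fun f _ => ?_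
    ring
  rw [h5, ← h3, ← h4]
  ring

/-- **second moment of a linear form of the currents on a subgroup** -/
theorem var_le (Γ : AddSubgroup (E → ℤ)) {J : E → ℝ} (hJ : ∀ e, 0 ≤ J e) (η : E → ℝ) :
    (Summable fun γ : Γ => Xe η γ ^ 2 * Gw J γ) ∧
    ∑' γ : Γ, Xe η γ ^ 2 * Gw J γ ≤ (∑ e, J e * η e ^ 2) * ∑' γ : Γ, Gw J γ := by
  set F := Fs Γ (Gw J) with hF
  have hs := summable_Gw hJ
  have hH := hasSum_Fs Γ hs
  have hhalf : ∀ e, 0 ≤ J e / 2 := fun e => by have := hJ e; linarith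
  have hs' := summable_Gw (J := fun e => J e / 2) hhalf
  have hconv : ∀ n, HasSum (fun m => Gw (fun e => J e / 2) m * Gw (fun e => J e / 2) (n - m))
      (Gw J n) := by
    intro n
    have h := Gw_conv (J := fun e => J e / 2) (K := fun e => J e / 2) hhalf hhalf n
    have e1 : (fun e => J e / 2 + J e / 2) = J := by
      funext e
      ring
    rwa [e1] at h
  have main : HasSum (fun γ : Γ => Xe η γ ^ 2 * Gw J γ)
      (∑ e, ∑ f, η e * (J e / 2) * (η f * (J f / 2)) *
      (F (-dl e - dl f) - F (-dl e + dl f) - F (dl e - dl f) + F (dl e + dl f)) +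
      ∑ e, η e ^ 2 * (J e / 2) * (F (-dl e) + F (dl e))) := by
    have h1 : HasSum (fun γ : Γ => ∑ e, ∑ f, η e * (J e / 2) * (η f * (J f / 2)) *
      (Gw J ((γ : E → ℤ) + (-dl e - dl f)) - Gw J ((γ : E → ℤ) + (-dl e + dl f)) -
        Gw J ((γ : E → ℤ) + (dl e - dl f)) + Gw J ((γ : E → ℤ) + (dl e + dl f))) +
      ∑ e, η e ^ 2 * (J e / 2) * (Gw J ((γ : E → ℤ) + -dl e) + Gw J ((γ : E → ℤ) + dl e)))
      (∑ e, ∑ f, η e * (J e / 2) * (η f * (J f / 2)) *
      (F (-dl e - dl f) - F (-dl e + dl f) - F (dl e - dl f) + F (dl e + dl f)) +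
      ∑ e, η e ^ 2 * (J e / 2) * (F (-dl e) + F (dl e))) := by
      refine HasSum.add (hasSum_sum fun e _ => hasSum_sum fun f _ => ?_)
        (hasSum_sum fun e _ => ?_)
      · exact ((((hH _).sub (hH _)).sub (hH _)).add (hH _)).mul_left _
      · exact ((hH _).add (hH _)).mul_left _
    have h2 : (fun γ : Γ => Xe η γ ^ 2 * Gw J γ) = fun γ : Γ => ∑ e, ∑ f, η e * (J e / 2) *
        (η f * (J f / 2)) *
      (Gw J ((γ : E → ℤ) + (-dl e - dl f)) - Gw J ((γ : E → ℤ) + (-dl e + dl f)) -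
        Gw J ((γ : E → ℤ) + (dl e - dl f)) + Gw J ((γ : E → ℤ) + (dl e + dl f))) +
      ∑ e, η e ^ 2 * (J e / 2) * (Gw J ((γ : E → ℤ) + -dl e) + Gw J ((γ : E → ℤ) + dl e)) := by
      funext γ
      rw [Xe_sq_Gw hJ η γ]
      congr 1
      · refine Finset.sum_congr rfl fun e _ => Finset.sum_congr rfl fun f _ => ?_
        rw [show (γ : E → ℤ) - dl e - dl f = (γ : E → ℤ) + (-dl e - dl f) by abel,
          show (γ : E → ℤ) - dl e + dl f = (γ : E → ℤ) + (-dl e + dl f) by abel,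
          show (γ : E → ℤ) + dl e - dl f = (γ : E → ℤ) + (dl e - dl f) by abel,
          show (γ : E → ℤ) + dl e + dl f = (γ : E → ℤ) + (dl e + dl f) by abel]
    rw [h2]
    exact h1
  refine ⟨main.summable, ?_⟩
  rw [main.tsum_eq]
  have hpd := posdef Γ hs hs' (Gw_neg _) hconv (ι := E × Bool)
    (fun x => (if x.2 then 1 else -1) * (η x.1 * (J x.1 / 2)))
    (fun x => if x.2 then dl x.1 else -dl x.1)
  simp only [Fintype.sum_prod_type, Fintype.sum_bool, if_true, Bool.false_eq_true, if_false]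
    at hpd
  have e1 : ∑ e, ∑ f, η e * (J e / 2) * (η f * (J f / 2)) *
      (F (-dl e - dl f) - F (-dl e + dl f) - F (dl e - dl f) + F (dl e + dl f)) ≤ 0 := by
    rw [← neg_nonneg, ← Finset.sum_neg_distrib]
    refine hpd.trans (le_of_eq (Finset.sum_congr rfl fun e _ => ?_))
    rw [← Finset.sum_neg_distrib, ← Finset.sum_add_distrib]
    refine Finset.sum_congr rfl fun f _ => ?_
    rw [show dl f - dl e = -dl e + dl f by abel, show -dl f - dl e = -dl e - dl f by abel,
      show dl f - -dl e = dl e + dl f by abel, show -dl f - -dl e = dl e - dl f by abel]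
    ring
  have e2 : ∑ e, η e ^ 2 * (J e / 2) * (F (-dl e) + F (dl e)) ≤ (∑ e, J e * η e ^ 2) * F 0 := by
    rw [Finset.sum_mul]
    refine Finset.sum_le_sum fun e _ => ?_
    have h := Fs_add_neg_le Γ hs hs' (Gw_neg _) hconv (dl e)
    have h2 : 0 ≤ η e ^ 2 * (J e / 2) := mul_nonneg (sq_nonneg _) (hhalf e)
    have h3 : F (dl e) + F (-dl e) ≤ 2 * F 0 := h
    nlinarith [mul_le_mul_of_nonneg_left h3 h2]
  have e3 : ∑' γ : Γ, Gw J γ = F 0 := by
    rw [hF]
    unfold Fs
    simp only [add_zero]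
  rw [e3]
  linarith

end Prod

end Vale.Agent.P159.T1.H532
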