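import Vale.Agent.P159.T1.H532.StmtV
import Vale.Agent.P159.T1.H112.QFar

/-!
`StmtV` of the direct route.
-/

set_option autoImplicit false

namespace Vale.Agent.P159.T1.H532

open Vale.Agent.P159.T1.D Vale.Agent.P159.T1.H910

/-- **`StmtV`.** -/
theorem stmtV : StmtV :=
  stmtV_of fun b hb => by
    obtain ⟨C, κ, hC, hκ, h⟩ := H112.far_box (b := b) (c := b / 2) (by linarith) (by linarith)
    exact ⟨C, κ, hC, hκ, fun a L ρ ha hL hρ => h a L ρ (by omega) hL hρ⟩

end Vale.Agent.P159.T1.H532
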