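import Vale.Agent.P159.T1.H532.QFF
import Vale.Agent.P159.T1.H729.V3
import Vale.Agent.P159.T1.D.H226.Lat

/-!
The variance of the heights of the quadrant box is at least the Dirichlet energy.
-/

set_option linter.all false
set_option autoImplicit false

open MeasureTheory Filter Topology
open scoped BigOperators

namespace Vale.Agent.P159.T1.H532

open Vale.Agent.P159 Vale.Agent.P159.H353 Vale.Agent.P159.UJ Vale.Agent.P159.H950
  Vale.Agent.P159.R2.H130 Vale.Agent.P159.T1.H931 Vale.Agent.P159.T1.D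
open Vale.Agent.P159.T1.H729 (AV AV_iff St v3_first)
open Vale.Agent.P159.T1.H407 (fl)
open Vale.Agent.P159.T1.H910 (FF)

/-- the gradient of `φ`, turned -/
noncomputable def gF (φ : ℝ × ℝ → ℝ) (d : Bool) (z : ℝ × ℝ) : ℝ :=
  if d then -(fderiv ℝ φ z (1, 0)) else fderiv ℝ φ z (0, 1)

/-- the divergence free field of `φ` -/
noncomputable def mF (φ : ℝ × ℝ → ℝ) : MF := fun x y d => gF φ d (x, y)

theorem gF_cont {φ : ℝ × ℝ → ℝ} (hφ : ContDiff ℝ 1 φ) (d : Bool) : Continuous (gF φ d) := by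
  have h : Continuous (fderiv ℝ φ) := hφ.continuous_fderiv (by norm_num)
  cases d
  · show Continuous fun z => fderiv ℝ φ z (0, 1)
    exact h.clm_apply continuous_const
  · show Continuous fun z => -(fderiv ℝ φ z (1, 0))
    exact (h.clm_apply continuous_const).neg

theorem gF_supp {φ : ℝ × ℝ → ℝ} {d : Bool} {z : ℝ × ℝ} (h : gF φ d z ≠ 0) : z ∈ tsupport φ := by
  by_contra hz
  apply h
  have h1 : fderiv ℝ φ z = 0 := fderiv_of_notMem_tsupport (𝕜 := ℝ) hz
  unfold gF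
  rw [h1]
  simp

theorem df_mF {φ : ℝ × ℝ → ℝ} (hφ : ContDiff ℝ 2 φ) : DF (mF φ) := by
  have hcd : ContDiff ℝ 1 (fderiv ℝ φ) := hφ.fderiv_right (by norm_num)
  have hcont : Continuous (fderiv ℝ (fderiv ℝ φ)) := hcd.continuous_fderiv (by norm_num)
  have hd : ∀ z, HasFDerivAt (fderiv ℝ φ) (fderiv ℝ (fderiv ℝ φ) z) z :=
    fun z => (hcd.differentiable (by norm_num) z).hasFDerivAt
  have hsym : ∀ z, IsSymmSndFDerivAt ℝ φ z := fun z =>
    hφ.contDiffAt.isSymmSndFDerivAt (by simp)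
  refine ⟨fun d => ?_, fun x y => fderiv ℝ (fderiv ℝ φ) (x, y) (1, 0) (0, 1), ?_,
    fun x y => ?_, fun x y => ?_⟩
  · exact gF_cont (hφ.of_le (by norm_num)) d
  · exact (hcont.clm_apply continuous_const).clm_apply continuous_const
  · have h1 : HasDerivAt (fun x : ℝ => (x, y)) ((1 : ℝ), (0 : ℝ)) x :=
      (hasDerivAt_id x).prodMk (hasDerivAt_const x y)
    have h2 := (hd (x, y)).comp_hasDerivAt x h1
    have h3 := h2.clm_apply (hasDerivAt_const x ((0 : ℝ), (1 : ℝ)))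
    simp only [map_zero, add_zero] at h3
    exact h3
  · have h1 : HasDerivAt (fun y : ℝ => (x, y)) ((0 : ℝ), (1 : ℝ)) y :=
      (hasDerivAt_const y x).prodMk (hasDerivAt_id y)
    have h2 := (hd (x, y)).comp_hasDerivAt y h1
    have h3 := (h2.clm_apply (hasDerivAt_const y ((1 : ℝ), (0 : ℝ)))).neg
    simp only [map_zero, add_zero] at h3
    show HasDerivAt (fun y => mF φ x y true) (-(fderiv ℝ (fderiv ℝ φ) (x, y) (1, 0) (0, 1))) y
    rw [hsym (x, y) (1, 0) (0, 1)]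
    exact h3

theorem cast_atTop : Tendsto (fun n : ℕ => (n : ℝ)) atTop atTop := tendsto_natCast_atTop_atTop

/-- the samples form a nice family -/
theorem nf_smp {φ : ℝ × ℝ → ℝ} (hφ : ContDiff ℝ 1 φ) (hc : HasCompactSupport φ) :
    NF atTop (fun N : ℕ => (N : ℝ)) (fun N e => smp (mF φ) N e.1 e.2 / N) (gF φ) := by
  obtain ⟨R, hR⟩ := hc.isCompact.isBounded.exists_norm_le
  have hsupp : ∀ d p, gF φ d p ≠ 0 → |p.1| ≤ R ∧ |p.2| ≤ R := by
    intro d p hp
    have h1 := hR p (gF_supp hp)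
    rw [Prod.norm_def] at h1
    exact ⟨(le_max_left _ _).trans h1, (le_max_right _ _).trans h1⟩
  have hbd : ∃ M : ℝ, ∀ d p, |gF φ d p| ≤ M := by
    have h1 : ∀ d, ∃ M : ℝ, ∀ p ∈ tsupport φ, |gF φ d p| ≤ M := by
      intro d
      obtain ⟨M, hM⟩ := hc.isCompact.exists_bound_of_continuousOn (gF_cont hφ d).continuousOn
      exact ⟨M, fun p hp => hM p hp⟩
    obtain ⟨M1, h2⟩ := h1 true
    obtain ⟨M2, h3⟩ := h1 false
    refine ⟨max 0 (max M1 M2), fun d p => ?_⟩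
    by_cases hp : p ∈ tsupport φ
    · cases d
      · exact (h3 p hp).trans ((le_max_right _ _).trans (le_max_right _ _))
      · exact (h2 p hp).trans ((le_max_left _ _).trans (le_max_right _ _))
    · have : gF φ d p = 0 := by
        by_contra h
        exact hp (gF_supp h)
      rw [this, abs_zero]
      exact le_max_left _ _
  obtain ⟨M, hM⟩ := hbd
  refine ⟨⟨M, ?_⟩, ⟨R + 1, ?_⟩, ?_⟩
  · filter_upwards [eventually_ge_atTop 1] with N hN e
    have hN0 : (0 : ℝ) < N := by exact_mod_cast hN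
    rw [abs_div, abs_of_pos hN0]
    exact div_le_div_of_nonneg_right (hM _ _) hN0.le
  · filter_upwards [eventually_ge_atTop 1] with N hN e he
    have hN0 : (0 : ℝ) < N := by exact_mod_cast hN
    have hN1 : (1 : ℝ) ≤ N := by exact_mod_cast hN
    have h1 : gF φ e.2 ((((e.1.1 : ℝ) + 1 / 2) / N, ((e.1.2 : ℝ) + 1 / 2) / N)) ≠ 0 := by
      intro h
      apply he
      show gF φ e.2 ((((e.1.1 : ℝ) + 1 / 2) / N, ((e.1.2 : ℝ) + 1 / 2) / N)) / N = 0
      rw [h, zero_div]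
    obtain ⟨h2, h3⟩ := hsupp _ _ h1
    simp only at h2 h3
    rw [abs_div, abs_of_pos hN0, div_le_iff₀ hN0, abs_le] at h2 h3
    constructor
    · rw [abs_le]; constructor <;> nlinarith
    · rw [abs_le]; constructor <;> nlinarith
  · refine Eventually.of_forall fun z u d => ?_
    have h1 := flw_tendsto (l := (atTop : Filter ℕ)) cast_atTop z
      (w := fun _ => (((u.1 : ℝ) + 1 / 2), ((u.2 : ℝ) + 1 / 2)))
      (T := |(u.1 : ℝ) + 1 / 2| + |(u.2 : ℝ) + 1 / 2|) (Eventually.of_forall fun i => by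
        have := abs_nonneg ((u.1 : ℝ) + 1 / 2)
        have := abs_nonneg ((u.2 : ℝ) + 1 / 2)
        constructor <;> simp only <;> linarith)
    have h2 := ((gF_cont hφ d).tendsto z).comp h1
    refine h2.congr' ?_
    filter_upwards [eventually_ge_atTop 1] with N hN
    have hN0 : (N : ℝ) ≠ 0 := by
      have : (0 : ℝ) < N := by exact_mod_cast hN
      exact this.ne'
    rw [mul_div_cancel₀ _ hN0]
    show gF φ d _ = gF φ d _
    refine congrArg (gF φ d) (Prod.ext ?_ ?_)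
    · simp only [Prod.fst_add, Int.cast_add]
      ring
    · simp only [Prod.snd_add, Int.cast_add]
      ring

/-- the function on the faces -/
noncomputable def gn (φ : ℝ × ℝ → ℝ) (n : ℕ) (f : Z2) : ℝ := φ ((f.1 : ℝ) / n, (f.2 : ℝ) / n)

/-- the gradients form a nice family -/
theorem nf_gn {φ : ℝ × ℝ → ℝ} (hφ : ContDiff ℝ 1 φ) (hc : HasCompactSupport φ) :
    NF atTop (fun N : ℕ => (N : ℝ)) (fun N => dr (gn φ N)) (gF φ) := by
  have h := nf_dr (l := (atTop : Filter ℕ)) cast_atTop hφ hc (w := fun _ => (0, 0)) (T := 0)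
    (Eventually.of_forall fun i => by simp)
  simp only [add_zero] at h
  exact h

/-- comparison of the half-bonds with the gradient -/
theorem half_diff {φ : ℝ × ℝ → ℝ} (hφ : ContDiff ℝ 1 φ) (hc : HasCompactSupport φ) (b : ℝ)
    (hb : 0 ≤ b) (R : ℕ) :
    Tendsto (fun N : ℕ => ∑ e : KR (blk 0 (N * R)), b / 2 *
      (((N : ℝ)⁻¹ • twR (blk 0 (N * R)) (smp (mF φ) N) - tb (blk 0 (N * R)) (fb (dr (gn φ N)))) e) ^ 2)
      atTop (𝓝 0) := by
  set X' : ℕ → Bnd → ℝ := fun N e => smp (mF φ) N e.1 e.2 / N with hX'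
  set X : ℕ → Bnd → ℝ := fun N => dr (gn φ N) with hX
  have hT : ∀ u : Z2, Tendsto (fun N : ℕ => ∑ e ∈ SQ (N * R), (X' N e - X N (sh u e)) ^ 2) atTop
      (𝓝 0) := by
    intro u
    refine NF.energy_zero cast_atTop ((nf_smp hφ hc).sub cast_atTop ((nf_gn hφ hc).shift cast_atTop u))
      (Eventually.of_forall fun z d => sub_self _) fun N => SQ (N * R)
  have hsum := ((hT 0).add ((hT (0, 1)).add (hT (1, 0)))).const_mul (b / 2)
  rw [add_zero, add_zero, mul_zero] at hsum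
  refine squeeze_zero (fun N => Finset.sum_nonneg fun e _ => by positivity) (fun N => ?_) hsum
  have h1 := sum_KR (blk 0 (N * R)) (fun c t => b / 2 * (X' N (c, t.1) - X N (hu c t, t.1)) ^ 2)
  have h2 : ∑ e : KR (blk 0 (N * R)), b / 2 *
      (((N : ℝ)⁻¹ • twR (blk 0 (N * R)) (smp (mF φ) N) -
        tb (blk 0 (N * R)) (fb (dr (gn φ N)))) e) ^ 2 =
      ∑ e : KR (blk 0 (N * R)), (fun c t => b / 2 * (X' N (c, t.1) - X N (hu c t, t.1)) ^ 2 :
        ℤ × ℤ → HT → ℝ) e.1 e.2 := by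
    refine Finset.sum_congr rfl fun e _ => ?_
    show b / 2 * ((N : ℝ)⁻¹ * smp (mF φ) N e.1 e.2.1 - dr (gn φ N) (hu e.1 e.2, e.2.1)) ^ 2 =
      b / 2 * (smp (mF φ) N e.1 e.2.1 / (N : ℝ) - dr (gn φ N) (hu e.1 e.2, e.2.1)) ^ 2
    rw [div_eq_inv_mul (smp (mF φ) N e.1 e.2.1)]
  rw [h2, h1, ← Finset.sum_add_distrib, ← Finset.sum_add_distrib]
  have h3 : (blk 0 (N * R) : Finset (ℤ × ℤ)) = bxQ (N * R) := by
    ext c
    rw [mem_blk, mem_bxQ]
    simp only [Prod.fst_zero, Prod.snd_zero, zero_add]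
  unfold SQ
  rw [h3, Finset.sum_product, Finset.mul_sum]
  refine Finset.sum_le_sum fun c _ => ?_
  rw [Fintype.sum_bool]
  have e1 : hu c (false, false) = c := by unfold hu; simp
  have e2 : hu c (true, false) = c := by unfold hu; simp
  have e3 : hu c (false, true) = c + (0, 1) := by unfold hu; ext <;> simp
  have e4 : hu c (true, true) = c + (1, 0) := by unfold hu; ext <;> simp
  simp only [e1, e2, e3, e4, sh, add_zero]
  have p1 := sq_nonneg (X' N (c, true) - X N (c + (0, 1), true))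
  have p2 := sq_nonneg (X' N (c, false) - X N (c + (1, 0), false))
  have : 0 ≤ b / 2 := by linarith
  nlinarith

/-- energy of the samples -/
theorem nR_lim' {φ : ℝ × ℝ → ℝ} (hφ : ContDiff ℝ 1 φ) (hc : HasCompactSupport φ)
    (hp : ∀ z ∈ tsupport φ, 0 < z.1 ∧ 0 < z.2) {a R : ℕ} (haR : a < R)
    (hs : ∀ z ∈ tsupport φ, z.1 ≤ a ∧ z.2 ≤ a) :
    Tendsto (fun N : ℕ => nR (blk 0 (N * R)) (smp (mF φ) N) / (N : ℝ) ^ 2) atTop
      (𝓝 (D.Dir φ)) := by
  have h := (nf_smp hφ hc).energy cast_atTop (S := fun N => SQ (N * R)) ?_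
  · have e : ∫ z, gF φ true z ^ 2 + gF φ false z ^ 2 = D.Dir φ := by
      unfold D.Dir gF
      simp only [if_true, Bool.false_eq_true, if_false, neg_sq]
    rw [e] at h
    refine h.congr fun N => ?_
    have h3 : (blk 0 (N * R) : Finset (ℤ × ℤ)) = bxQ (N * R) := by
      ext c
      rw [mem_blk, mem_bxQ]
      simp only [Prod.fst_zero, Prod.snd_zero, zero_add]
    unfold nR SQ
    rw [h3, Finset.sum_product, Finset.sum_div]
    refine Finset.sum_congr rfl fun c _ => ?_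
    rw [Fintype.sum_bool]
    unfold sq2
    simp only [div_pow]
    ring
  · filter_upwards [eventually_ge_atTop 1] with N hN e he
    have hN0 : (0 : ℝ) < N := by exact_mod_cast hN
    have h1 : gF φ e.2 ((((e.1.1 : ℝ) + 1 / 2) / N, ((e.1.2 : ℝ) + 1 / 2) / N)) ≠ 0 := by
      intro h
      apply he
      show gF φ e.2 ((((e.1.1 : ℝ) + 1 / 2) / N, ((e.1.2 : ℝ) + 1 / 2) / N)) / N = 0
      rw [h, zero_div]
    have h2 := hp _ (gF_supp h1)
    have h3 := hs _ (gF_supp h1)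
    simp only at h2 h3
    rw [mem_SQ, mem_bxQ]
    rw [div_le_iff₀ hN0, div_le_iff₀ hN0] at h3
    have h4 : 0 < (e.1.1 : ℝ) + 1 / 2 := by
      have := mul_pos h2.1 hN0
      rwa [div_mul_cancel₀ _ hN0.ne'] at this
    have h5 : 0 < (e.1.2 : ℝ) + 1 / 2 := by
      have := mul_pos h2.2 hN0
      rwa [div_mul_cancel₀ _ hN0.ne'] at this
    have h6 : (a : ℝ) + 1 ≤ R := by exact_mod_cast haR
    have h7 : (a : ℝ) * N < R * N := by nlinarith
    have a1 : (-1 : ℝ) < e.1.1 := by linarith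
    have a2 : (-1 : ℝ) < e.1.2 := by linarith
    have a3 : (e.1.1 : ℝ) < ((N * R : ℕ) : ℤ) := by push_cast; linarith [h3.1]
    have a4 : (e.1.2 : ℝ) < ((N * R : ℕ) : ℤ) := by push_cast; linarith [h3.2]
    have b1 : (-1 : ℤ) < e.1.1 := by exact_mod_cast a1
    have b2 : (-1 : ℤ) < e.1.2 := by exact_mod_cast a2
    have b3 : e.1.1 < ((N * R : ℕ) : ℤ) := by exact_mod_cast a3
    have b4 : e.1.2 < ((N * R : ℕ) : ℤ) := by exact_mod_cast a4
    exact ⟨by omega, b3, by omega, b4⟩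

/-- the Gaussian bound for the box -/
theorem glb_box {b : ℝ} (hb : 0 < b) {φ : ℝ × ℝ → ℝ} (hφ : ContDiff ℝ 2 φ)
    (hc : HasCompactSupport φ) (hp : ∀ z ∈ tsupport φ, 0 < z.1 ∧ 0 < z.2) {a R : ℕ} (haR : a < R)
    (hs : ∀ z ∈ tsupport φ, z.1 ≤ a ∧ z.2 ≤ a) :
    GLB b (helicity b) (fun N => blk 0 (N * R)) (fun N => QI (N * R)) (smp (mF φ)) := by
  obtain ⟨δ, hδ, hd⟩ : ∃ δ : ℝ, 0 < δ ∧ ∀ z ∈ tsupport φ, δ ≤ z.1 ∧ δ ≤ z.2 := by
    rcases (tsupport φ).eq_empty_or_nonempty with h | h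
    · exact ⟨1, one_pos, fun z hz => by rw [h] at hz; exact absurd hz (Set.notMem_empty z)⟩
    · obtain ⟨z0, hz0, h0⟩ := hc.isCompact.exists_isMinOn h
        (f := fun z : ℝ × ℝ => min z.1 z.2) (by fun_prop)
      refine ⟨min z0.1 z0.2, lt_min (hp z0 hz0).1 (hp z0 hz0).2, fun z hz => ?_⟩
      have h1 : min z0.1 z0.2 ≤ min z.1 z.2 := h0 hz
      exact ⟨h1.trans (min_le_left _ _), h1.trans (min_le_right _ _)⟩
  refine v3_first hb (df_mF hφ) (K := R) hδ
    (fun x y d h => hd _ (gF_supp (z := (x, y)) h)) ?_ ?_ ?_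
  · refine Eventually.of_forall fun N c hc => ?_
    rw [mem_blk] at hc
    rw [mem_bx]
    simp only [Prod.fst_zero, Prod.snd_zero, zero_add] at hc
    have e : R * N = N * R := mul_comm _ _
    rw [e]
    omega
  · refine Eventually.of_forall fun N c h1 h2 h3 => ?_
    rw [mem_blk] at h3
    simp only [Prod.fst_zero, Prod.snd_zero, zero_add] at h3
    rw [AV_iff]
    unfold QI
    simp only [Set.mem_setOf_eq]
    have h4 : ¬ (c.1 < ((N * R : ℕ) : ℤ) ∧ c.2 < ((N * R : ℕ) : ℤ)) := by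
      intro h5
      exact h3 ⟨h1, h5.1, h2, h5.2⟩
    refine ⟨fun _ h5 => h4 ⟨h5.2.1, h5.2.2.2⟩, fun _ h5 => h4 ⟨by omega, h5.2.2.2⟩,
      fun _ h5 => h4 ⟨h5.2.1, by omega⟩, fun _ h5 => h4 ⟨by omega, by omega⟩⟩
  · filter_upwards [eventually_ge_atTop 1] with N hN c d h
    have hN0 : (0 : ℝ) < N := by exact_mod_cast hN
    have h1 : gF φ d ((((c.1 : ℝ) + 1 / 2) / N, ((c.2 : ℝ) + 1 / 2) / N)) ≠ 0 := h
    have h2 := hp _ (gF_supp h1)
    have h3 := hs _ (gF_supp h1)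
    simp only at h2 h3
    rw [mem_blk]
    rw [div_le_iff₀ hN0, div_le_iff₀ hN0] at h3
    have h4 : 0 < (c.1 : ℝ) + 1 / 2 := by
      have := mul_pos h2.1 hN0
      rwa [div_mul_cancel₀ _ hN0.ne'] at this
    have h5 : 0 < (c.2 : ℝ) + 1 / 2 := by
      have := mul_pos h2.2 hN0
      rwa [div_mul_cancel₀ _ hN0.ne'] at this
    have h6 : (a : ℝ) + 1 ≤ R := by exact_mod_cast haR
    have h7 : (a : ℝ) * N < R * N := by nlinarith
    have a1 : (-1 : ℝ) < c.1 := by linarith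
    have a2 : (-1 : ℝ) < c.2 := by linarith
    have a3 : (c.1 : ℝ) < ((N * R : ℕ) : ℤ) := by push_cast; linarith [h3.1]
    have a4 : (c.2 : ℝ) < ((N * R : ℕ) : ℤ) := by push_cast; linarith [h3.2]
    have b1 : (-1 : ℤ) < c.1 := by exact_mod_cast a1
    have b2 : (-1 : ℤ) < c.2 := by exact_mod_cast a2
    have b3 : c.1 < ((N * R : ℕ) : ℤ) := by exact_mod_cast a3
    have b4 : c.2 < ((N * R : ℕ) : ℤ) := by exact_mod_cast a4
    simp only [Prod.fst_zero, Prod.snd_zero, zero_add]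
    exact ⟨by omega, b3, by omega, b4⟩

/-- **The variance of the heights of the quadrant box is at least the Dirichlet energy.** -/
theorem qlim {b : ℝ} (hb : 0 < b) {φ : ℝ × ℝ → ℝ} (hφ : ContDiff ℝ 2 φ)
    (hc : HasCompactSupport φ) (hp : ∀ z ∈ tsupport φ, 0 < z.1 ∧ 0 < z.2) {a R : ℕ} (haR : a < R)
    (hs : ∀ z ∈ tsupport φ, z.1 ≤ a ∧ z.2 ≤ a) {ε : ℝ} (hε : 0 < ε) :
    ∀ᶠ n : ℕ in atTop, (helicity b * D.Dir φ - ε) *
        FF (JQ b (b / 2)) (SQ (n * R)) (bxQ (n * R)) (fun _ => 1) ≤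
      FF (JQ b (b / 2)) (SQ (n * R)) (bxQ (n * R))
        (fun h => (∑ e ∈ SQ (n * R), dr (gn φ n) e * (dh h e : ℝ)) ^ 2) := by
  have hφ1 : ContDiff ℝ 1 φ := hφ.of_le (by norm_num)
  have hl := (glb_box hb hφ hc hp haR hs).liminf hb.le (ε := ε / 8) (by positivity)
  have hE := (nR_lim' hφ1 hc hp haR hs).const_mul (helicity b)
  have hD := half_diff hφ1 hc b hb.le R
  set A := helicity b * D.Dir φ with hA
  obtain ⟨η, hη, hη1⟩ : ∃ η : ℝ, 0 < η ∧ η * |A| ≤ ε / 4 ∧ η ≤ 1 := by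
    refine ⟨min 1 (ε / (4 * (|A| + 1))), by positivity, ?_, min_le_left _ _⟩
    have h1 : min 1 (ε / (4 * (|A| + 1))) * |A| ≤ ε / (4 * (|A| + 1)) * |A| :=
      mul_le_mul_of_nonneg_right (min_le_right _ _) (abs_nonneg _)
    refine h1.trans ?_
    rw [div_mul_eq_mul_div, div_le_iff₀ (by positivity)]
    nlinarith [abs_nonneg A]
  have hD' := hD.const_mul (1 + 1 / η)
  rw [mul_zero] at hD'
  have e1 := hE.eventually (eventually_ge_nhds (b := A - ε / 8) (by linarith))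
  have e2 := hD'.eventually (eventually_le_nhds (b := ε / 8) (by positivity))
  filter_upwards [hl, e1, e2, eventually_ge_atTop 2] with n h1 h2 h3 hn
  have hn0 : (0 : ℝ) < n := by
    have : 0 < n := by omega
    exact_mod_cast this
  have hF1 : 0 ≤ FF (JQ b (b / 2)) (SQ (n * R)) (bxQ (n * R)) (fun _ => 1) := by
    unfold FF
    refine tsum_nonneg fun h => mul_nonneg (Finset.prod_nonneg fun e _ => wI_nonneg ?_ _) zero_le_one
    unfold JQ
    split_ifs <;> linarith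
  refine le_trans (mul_le_mul_of_nonneg_right ?_ hF1) (Qform_le_FF hb.le (dr (gn φ n)) ?_ ?_)
  · -- the quadratic form
    set Q := fun t : KR (blk 0 (n * R)) → ℝ => Qform muInf (fun _ : KR (blk 0 (n * R)) => b / 2)
      (chiI (blk 0 (n * R)) (QI (n * R))) t with hQ
    set t1 := (n : ℝ)⁻¹ • twR (blk 0 (n * R)) (smp (mF φ) n) with ht1
    set t2 := tb (blk 0 (n * R)) (fb (dr (gn φ n))) with ht2
    have q1 : Q t1 = qI b (blk 0 (n * R)) (QI (n * R)) (smp (mF φ) n) / (n : ℝ) ^ 2 := by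
      rw [hQ]
      simp only
      rw [ht1, Qform_smul, inv_pow, ← div_eq_inv_mul]
      rfl
    have q2 : Q t1 ≤ (1 + η) * Q t2 + (1 + 1 / η) * Q (t1 - t2) := by
      have h := Qform_add_le muInf (fun _ : KR (blk 0 (n * R)) => b / 2)
        (chiI (blk 0 (n * R)) (QI (n * R))) G_div2 (half_nonneg' hb.le _) t2 (t1 - t2) hη
      rw [add_sub_cancel] at h
      exact h
    have q3 : Q (t1 - t2) ≤ ∑ e : KR (blk 0 (n * R)), b / 2 * ((t1 - t2) e) ^ 2 :=
      Qform_le muInf _ _ (half_nonneg' hb.le _) _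
    have q4 : (1 + 1 / η) * Q (t1 - t2) ≤ ε / 8 :=
      (mul_le_mul_of_nonneg_left q3 (by positivity)).trans h3
    rw [← q1] at h1
    have q5 : A - 3 * ε / 8 ≤ (1 + η) * Q t2 := by linarith
    show A - ε ≤ Q t2
    by_contra hcon
    push Not at hcon
    have q6 : (1 + η) * Q t2 ≤ (1 + η) * (A - ε) :=
      mul_le_mul_of_nonneg_left hcon.le (by positivity)
    have q7 : η * A ≤ ε / 4 := (mul_le_mul_of_nonneg_left (le_abs_self A) hη.le).trans hη1.1
    nlinarith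
  · intro i
    show gn φ n (D.lf (((i : ℤ), ((n * R : ℕ) : ℤ)), false)) - gn φ n (D.rt (((i : ℤ), ((n * R : ℕ) : ℤ)), false)) = 0
    have z : ∀ k : ℤ, ((n * R : ℕ) : ℤ) - 1 ≤ k → φ (((i : ℤ) : ℝ) / n, (k : ℝ) / n) = 0 := by
      intro k hk
      by_contra h
      have h1 := (hs _ (subset_tsupport φ h)).2
      simp only at h1
      rw [div_le_iff₀ hn0] at h1
      have h2 : (((n * R : ℕ) : ℤ) : ℝ) - 1 ≤ k := by exact_mod_cast hk
      push_cast at h2
      have h6 : (a : ℝ) + 1 ≤ R := by exact_mod_cast haR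
      have h7 : (2 : ℝ) ≤ n := by exact_mod_cast hn
      nlinarith
    unfold gn
    simp only [D.lf, D.rt, Bool.false_eq_true, if_false]
    rw [z _ (by omega), z _ (by omega), sub_zero]
  · intro j
    show gn φ n (D.lf ((((n * R : ℕ) : ℤ), (j : ℤ)), true)) - gn φ n (D.rt ((((n * R : ℕ) : ℤ), (j : ℤ)), true)) = 0
    have z : ∀ k : ℤ, ((n * R : ℕ) : ℤ) - 1 ≤ k → φ ((k : ℝ) / n, ((j : ℤ) : ℝ) / n) = 0 := by
      intro k hk
      by_contra h
      have h1 := (hs _ (subset_tsupport φ h)).1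
      simp only at h1
      rw [div_le_iff₀ hn0] at h1
      have h2 : (((n * R : ℕ) : ℤ) : ℝ) - 1 ≤ k := by exact_mod_cast hk
      push_cast at h2
      have h6 : (a : ℝ) + 1 ≤ R := by exact_mod_cast haR
      have h7 : (2 : ℝ) ≤ n := by exact_mod_cast hn
      nlinarith
    unfold gn
    simp only [D.lf, D.rt, if_true]
    rw [z _ (by omega), z _ (by omega), sub_zero]

end Vale.Agent.P159.T1.H532
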