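import Vale.Agent.P159.T1.H532.RFF
import Vale.Agent.P159.T1.H532.QLim

/-!
The variance of the heights of the rectangle (heights `0` on the left, right and lower sides, free
above) is at least the Dirichlet energy.
-/

set_option linter.all false
set_option autoImplicit false

open MeasureTheory Filter Topology
open scoped BigOperators

namespace Vale.Agent.P159.T1.H532

open Vale.Agent.P159 Vale.Agent.P159.H353 Vale.Agent.P159.UJ Vale.Agent.P159.H950
  Vale.Agent.P159.R2.H130 Vale.Agent.P159.T1.H931 Vale.Agent.P159.T1.D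
open Vale.Agent.P159.T1.H910 (FF)
open Vale.Agent.P159.T1.H910.R (rc mem_rc S1 J1)

/-- comparison of the half-bonds with the gradient, any regions -/
theorem half_diff_R {φ : ℝ × ℝ → ℝ} (hφ : ContDiff ℝ 1 φ) (hc : HasCompactSupport φ) (b : ℝ)
    (hb : 0 ≤ b) (R : ℕ → Finset (ℤ × ℤ)) :
    Tendsto (fun N : ℕ => ∑ e : KR (R N), b / 2 *
      (((N : ℝ)⁻¹ • twR (R N) (smp (mF φ) N) - tb (R N) (fb (dr (gn φ N)))) e) ^ 2)
      atTop (𝓝 0) := by
  set X' : ℕ → Bnd → ℝ := fun N e => smp (mF φ) N e.1 e.2 / N with hX'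
  set X : ℕ → Bnd → ℝ := fun N => dr (gn φ N) with hX
  have hT : ∀ u : Z2, Tendsto (fun N : ℕ => ∑ e ∈ (R N) ×ˢ (Finset.univ : Finset Bool),
      (X' N e - X N (sh u e)) ^ 2) atTop (𝓝 0) := by
    intro u
    refine NF.energy_zero cast_atTop ((nf_smp hφ hc).sub cast_atTop ((nf_gn hφ hc).shift cast_atTop u))
      (Eventually.of_forall fun z d => sub_self _) fun N => (R N) ×ˢ (Finset.univ : Finset Bool)
  have hsum := ((hT 0).add ((hT (0, 1)).add (hT (1, 0)))).const_mul (b / 2)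
  rw [add_zero, add_zero, mul_zero] at hsum
  refine squeeze_zero (fun N => Finset.sum_nonneg fun e _ => by positivity) (fun N => ?_) hsum
  have h1 := sum_KR (R N) (fun c t => b / 2 * (X' N (c, t.1) - X N (hu c t, t.1)) ^ 2)
  have h2 : ∑ e : KR (R N), b / 2 *
      (((N : ℝ)⁻¹ • twR (R N) (smp (mF φ) N) -
        tb (R N) (fb (dr (gn φ N)))) e) ^ 2 =
      ∑ e : KR (R N), (fun c t => b / 2 * (X' N (c, t.1) - X N (hu c t, t.1)) ^ 2 :
        ℤ × ℤ → HT → ℝ) e.1 e.2 := by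
    refine Finset.sum_congr rfl fun e _ => ?_
    show b / 2 * ((N : ℝ)⁻¹ * smp (mF φ) N e.1 e.2.1 - dr (gn φ N) (hu e.1 e.2, e.2.1)) ^ 2 =
      b / 2 * (smp (mF φ) N e.1 e.2.1 / (N : ℝ) - dr (gn φ N) (hu e.1 e.2, e.2.1)) ^ 2
    rw [div_eq_inv_mul (smp (mF φ) N e.1 e.2.1)]
  rw [h2, h1, ← Finset.sum_add_distrib, ← Finset.sum_add_distrib]
  rw [Finset.sum_product, Finset.mul_sum]
  refine Finset.sum_le_sum fun c _ => ?_
  rw [Fintype.sum_bool]
  have e1 : hu c (false, false) = c := by unfold hu; simp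
  have e2 : hu c (true, false) = c := by unfold hu; simp
  have e3 : hu c (false, true) = c + (0, 1) := by unfold hu; ext <;> simp
  have e4 : hu c (true, true) = c + (1, 0) := by unfold hu; ext <;> simp
  simp only [e1, e2, e3, e4, sh, add_zero]
  have p1 := sq_nonneg (X' N (c, true) - X N (c + (0, 1), true))
  have p2 := sq_nonneg (X' N (c, false) - X N (c + (1, 0), false))
  have : 0 ≤ b / 2 := by linarith
  nlinarith

/-- energy of the samples, any regions which contain their support -/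
theorem nR_lim_R {φ : ℝ × ℝ → ℝ} (hφ : ContDiff ℝ 1 φ) (hc : HasCompactSupport φ)
    {R : ℕ → Finset (ℤ × ℤ)}
    (hR : ∀ᶠ N : ℕ in atTop, ∀ (c : ℤ × ℤ) (d : Bool), smp (mF φ) N c d ≠ 0 → c ∈ R N) :
    Tendsto (fun N : ℕ => nR (R N) (smp (mF φ) N) / (N : ℝ) ^ 2) atTop (𝓝 (D.Dir φ)) := by
  have h := (nf_smp hφ hc).energy cast_atTop
    (S := fun N => (R N) ×ˢ (Finset.univ : Finset Bool)) ?_
  · have e : ∫ z, gF φ true z ^ 2 + gF φ false z ^ 2 = D.Dir φ := by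
      unfold D.Dir gF
      simp only [if_true, Bool.false_eq_true, if_false, neg_sq]
    rw [e] at h
    refine h.congr fun N => ?_
    unfold nR
    rw [Finset.sum_product, Finset.sum_div]
    refine Finset.sum_congr rfl fun c _ => ?_
    rw [Fintype.sum_bool]
    unfold sq2
    simp only [div_pow]
    ring
  · filter_upwards [hR] with N hN e he
    refine Finset.mem_product.2 ⟨hN e.1 e.2 fun h => he ?_, Finset.mem_univ _⟩
    show smp (mF φ) N e.1 e.2 / N = 0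
    rw [h, zero_div]

/-- the samples live in the rectangle -/
theorem smp_mem {φ : ℝ × ℝ → ℝ} {w T : ℕ}
    (hs : ∀ z ∈ tsupport φ, 0 < z.1 ∧ z.1 < w ∧ 0 < z.2 ∧ z.2 < T) :
    ∀ᶠ N : ℕ in atTop, ∀ (c : ℤ × ℤ) (d : Bool), smp (mF φ) N c d ≠ 0 →
      c ∈ RR.Rg (N * w) (N * T) := by
  filter_upwards [eventually_ge_atTop 1] with N hN c d h
  have hN0 : (0 : ℝ) < N := by exact_mod_cast hN
  have h1 : gF φ d ((((c.1 : ℝ) + 1 / 2) / N, ((c.2 : ℝ) + 1 / 2) / N)) ≠ 0 := h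
  obtain ⟨h2, h3, h4, h5⟩ := hs _ (gF_supp h1)
  simp only at h2 h3 h4 h5
  rw [div_lt_iff₀ hN0] at h3 h5
  have h6 : 0 < (c.1 : ℝ) + 1 / 2 := by
    have := mul_pos h2 hN0
    rwa [div_mul_cancel₀ _ hN0.ne'] at this
  have h7 : 0 < (c.2 : ℝ) + 1 / 2 := by
    have := mul_pos h4 hN0
    rwa [div_mul_cancel₀ _ hN0.ne'] at this
  have a1 : (-1 : ℝ) < c.1 := by linarith
  have a2 : (-1 : ℝ) < c.2 := by linarith
  have a3 : (c.1 : ℝ) < ((N * w : ℕ) : ℤ) := by push_cast; linarith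
  have a4 : (c.2 : ℝ) < ((N * T : ℕ) : ℤ) := by push_cast; linarith
  have b1 : (-1 : ℤ) < c.1 := by exact_mod_cast a1
  have b2 : (-1 : ℤ) < c.2 := by exact_mod_cast a2
  have b3 : c.1 < ((N * w : ℕ) : ℤ) := by exact_mod_cast a3
  have b4 : c.2 < ((N * T : ℕ) : ℤ) := by exact_mod_cast a4
  rw [RR.mem_Rg]
  exact ⟨by omega, b3, by omega, b4⟩

/-- **The variance of the heights of the rectangle is at least the Dirichlet energy.** -/
theorem rlim {b : ℝ} (hb : 0 < b) {φ : ℝ × ℝ → ℝ} (hφ : ContDiff ℝ 2 φ)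
    (hc : HasCompactSupport φ) {w T : ℕ}
    (hs : ∀ z ∈ tsupport φ, 0 < z.1 ∧ z.1 < w ∧ 0 < z.2 ∧ z.2 < T)
    (hG : GLB b (helicity b)
      (fun N => Finset.Ico (0 : ℤ) ((N * w : ℕ) : ℤ) ×ˢ Finset.Ico (0 : ℤ) ((N * T : ℕ) : ℤ))
      (fun N => {v : ℤ × ℤ | v.2 < ((N * T : ℕ) : ℤ)}) (smp (mF φ)))
    {ε : ℝ} (hε : 0 < ε) :
    ∀ᶠ n : ℕ in atTop, (helicity b * D.Dir φ - ε) *
        FF (J1 b (b / 2) (n * w)) (S1 (n * w) (n * T)) (rc (n * w) (n * T)) (fun _ => 1) ≤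
      FF (J1 b (b / 2) (n * w)) (S1 (n * w) (n * T)) (rc (n * w) (n * T))
        (fun h => (∑ e ∈ S1 (n * w) (n * T), dr (gn φ n) e * (dh h e : ℝ)) ^ 2) := by
  have hφ1 : ContDiff ℝ 1 φ := hφ.of_le (by norm_num)
  have hFF : ∀ (n : ℕ) (F : (Z2 → ℤ) → ℝ), (∀ h, 0 ≤ F h) →
      0 ≤ FF (J1 b (b / 2) (n * w)) (S1 (n * w) (n * T)) (rc (n * w) (n * T)) F := by
    intro n F hF
    unfold FF
    exact tsum_nonneg fun h => mul_nonneg (Finset.prod_nonneg fun e _ =>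
      wI_nonneg (H910.R.J1_nonneg hb.le (by linarith) _ _) _) (hF _)
  by_cases hwT : 1 ≤ w ∧ 1 ≤ T
  swap
  · -- there is no field
    have he : tsupport φ = ∅ := by
      rw [Set.eq_empty_iff_forall_notMem]
      intro z hz
      obtain ⟨h1, h2, h3, h4⟩ := hs z hz
      apply hwT
      have h5 : (0 : ℝ) < w := h1.trans h2
      have h6 : (0 : ℝ) < T := h3.trans h4
      have h7 : 0 < w := by exact_mod_cast h5
      have h8 : 0 < T := by exact_mod_cast h6
      exact ⟨h7, h8⟩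
    have hD0 : D.Dir φ = 0 := by
      have h1 : ∀ z, fderiv ℝ φ z = 0 := fun z =>
        fderiv_of_notMem_tsupport (𝕜 := ℝ) (by rw [he]; exact Set.notMem_empty z)
      unfold D.Dir
      simp only [h1]
      simp
    refine Eventually.of_forall fun n => ?_
    rw [hD0, mul_zero, zero_sub]
    have h1 := hFF n (fun _ => 1) fun _ => zero_le_one
    have h2 := hFF n (fun h => (∑ e ∈ S1 (n * w) (n * T), dr (gn φ n) e * (dh h e : ℝ)) ^ 2)
      fun _ => sq_nonneg _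
    nlinarith
  obtain ⟨δ, hδ, hd⟩ : ∃ δ : ℝ, 0 < δ ∧ ∀ z ∈ tsupport φ, z.2 ≤ T - δ := by
    rcases (tsupport φ).eq_empty_or_nonempty with h | h
    · exact ⟨1, one_pos, fun z hz => by rw [h] at hz; exact absurd hz (Set.notMem_empty z)⟩
    · obtain ⟨z0, hz0, h0⟩ := hc.isCompact.exists_isMaxOn h
        (f := fun z : ℝ × ℝ => z.2) (by fun_prop)
      refine ⟨T - z0.2, by linarith [(hs z0 hz0).2.2.2], fun z hz => ?_⟩
      have h1 : z.2 ≤ z0.2 := h0 hz
      linarith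
  have hl := hG.liminf hb.le (ε := ε / 8) (by positivity)
  have hE := (nR_lim_R hφ1 hc (smp_mem hs)).const_mul (helicity b)
  have hD := half_diff_R hφ1 hc b hb.le (fun N => RR.Rg (N * w) (N * T))
  set A := helicity b * D.Dir φ with hA
  obtain ⟨η, hη, hη1⟩ : ∃ η : ℝ, 0 < η ∧ η * |A| ≤ ε / 4 ∧ η ≤ 1 := by
    refine ⟨min 1 (ε / (4 * (|A| + 1))), by positivity, ?_, min_le_left _ _⟩
    have h1 : min 1 (ε / (4 * (|A| + 1))) * |A| ≤ ε / (4 * (|A| + 1)) * |A| :=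
      mul_le_mul_of_nonneg_right (min_le_right _ _) (abs_nonneg _)
    refine h1.trans ?_
    rw [div_mul_eq_mul_div, div_le_iff₀ (by positivity)]
    nlinarith [abs_nonneg A]
  have hD' := hD.const_mul (1 + 1 / η)
  rw [mul_zero] at hD'
  have e1 := hE.eventually (eventually_ge_nhds (b := A - ε / 8) (by linarith))
  have e2 := hD'.eventually (eventually_le_nhds (b := ε / 8) (by positivity))
  have e3 : ∀ᶠ n : ℕ in atTop, 1 < δ * n := by
    have h1 := (cast_atTop.const_mul_atTop hδ).eventually (eventually_gt_atTop 1)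
    exact h1
  filter_upwards [hl, e1, e2, e3, eventually_ge_atTop 1] with n h1 h2 h3 h4 hn
  have hn0 : (0 : ℝ) < n := by
    have : 0 < n := by omega
    exact_mod_cast this
  have hw1 : 1 ≤ n * w := Nat.mul_pos hn hwT.1
  have hT1 : 1 ≤ n * T := Nat.mul_pos hn hwT.2
  refine le_trans (mul_le_mul_of_nonneg_right ?_ (hFF n _ fun _ => zero_le_one))
    (RR.Qform_le_FF hb.le hw1 hT1 (dr (gn φ n)) ?_
      (I := {v : ℤ × ℤ | v.2 < ((n * T : ℕ) : ℤ)}) fun v _ _ _ _ => Iff.rfl)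
  · -- the quadratic form
    set Q := fun t : KR (RR.Rg (n * w) (n * T)) → ℝ =>
      Qform muInf (fun _ : KR (RR.Rg (n * w) (n * T)) => b / 2)
      (chiI (RR.Rg (n * w) (n * T)) {v : ℤ × ℤ | v.2 < ((n * T : ℕ) : ℤ)}) t with hQ
    set t1 := (n : ℝ)⁻¹ • twR (RR.Rg (n * w) (n * T)) (smp (mF φ) n) with ht1
    set t2 := tb (RR.Rg (n * w) (n * T)) (fb (dr (gn φ n))) with ht2
    have q1 : Q t1 = qI b (RR.Rg (n * w) (n * T)) {v : ℤ × ℤ | v.2 < ((n * T : ℕ) : ℤ)}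
        (smp (mF φ) n) / (n : ℝ) ^ 2 := by
      rw [hQ]
      simp only
      rw [ht1, Qform_smul, inv_pow, ← div_eq_inv_mul]
      rfl
    have q2 : Q t1 ≤ (1 + η) * Q t2 + (1 + 1 / η) * Q (t1 - t2) := by
      have h := Qform_add_le muInf (fun _ : KR (RR.Rg (n * w) (n * T)) => b / 2)
        (chiI (RR.Rg (n * w) (n * T)) {v : ℤ × ℤ | v.2 < ((n * T : ℕ) : ℤ)}) G_div2
        (half_nonneg' hb.le _) t2 (t1 - t2) hη
      rw [add_sub_cancel] at h
      exact h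
    have q3 : Q (t1 - t2) ≤ ∑ e : KR (RR.Rg (n * w) (n * T)), b / 2 * ((t1 - t2) e) ^ 2 :=
      Qform_le muInf _ _ (half_nonneg' hb.le _) _
    have q4 : (1 + 1 / η) * Q (t1 - t2) ≤ ε / 8 :=
      (mul_le_mul_of_nonneg_left q3 (by positivity)).trans h3
    have h1' : helicity b * (nR (RR.Rg (n * w) (n * T)) (smp (mF φ) n) / (n : ℝ) ^ 2) -
        qI b (RR.Rg (n * w) (n * T)) {v : ℤ × ℤ | v.2 < ((n * T : ℕ) : ℤ)} (smp (mF φ) n) /
          (n : ℝ) ^ 2 ≤ ε / 8 := h1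
    rw [← q1] at h1'
    have q5 : A - 3 * ε / 8 ≤ (1 + η) * Q t2 := by linarith
    show A - ε ≤ Q t2
    by_contra hcon
    push Not at hcon
    have q6 : (1 + η) * Q t2 ≤ (1 + η) * (A - ε) :=
      mul_le_mul_of_nonneg_left hcon.le (by positivity)
    have q7 : η * A ≤ ε / 4 := (mul_le_mul_of_nonneg_left (le_abs_self A) hη.le).trans hη1.1
    nlinarith
  · intro i
    show gn φ n (D.lf (((i : ℤ), ((n * T : ℕ) : ℤ)), false)) - gn φ n (D.rt (((i : ℤ), ((n * T : ℕ) : ℤ)), false)) = 0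
    have z : ∀ k : ℤ, ((n * T : ℕ) : ℤ) - 1 ≤ k → φ (((i : ℤ) : ℝ) / n, (k : ℝ) / n) = 0 := by
      intro k hk
      by_contra h
      have h5 := hd _ (subset_tsupport φ h)
      simp only at h5
      rw [div_le_iff₀ hn0] at h5
      have h6 : (((n * T : ℕ) : ℤ) : ℝ) - 1 ≤ k := by exact_mod_cast hk
      push_cast at h6
      nlinarith
    unfold gn
    simp only [D.lf, D.rt, Bool.false_eq_true, if_false]
    rw [z _ (by omega), z _ (by omega), sub_zero]

end Vale.Agent.P159.T1.H532
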