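import Vale.Agent.P159.T1.H910.FF

/-!
The quadrant box of side `L` in the language of `T1/D/Defs.lean`: faces `[0,L)²`, heights `0` to the
left and below, no bonds on the right and upper sides.
-/

set_option autoImplicit false

namespace Vale.Agent.P159.T1.H532

open Vale.Agent.P159.T1.D

/-- faces of the box -/
noncomputable def bxQ (L : ℕ) : Finset Z2 := Finset.Ico (0 : ℤ) L ×ˢ Finset.Ico (0 : ℤ) L

/-- bonds of the box: the left side `(p, true)` and the lower side `(p, false)` of every face `p` -/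
noncomputable def SQ (L : ℕ) : Finset Bnd := bxQ L ×ˢ Finset.univ

/-- couplings: `c` on the left and lower side of the box, `b` elsewhere -/
noncomputable def JQ (b c : ℝ) (e : Bnd) : ℝ :=
  if e.2 then (if e.1.1 = 0 then c else b) else (if e.1.2 = 0 then c else b)

theorem mem_bxQ {L : ℕ} {f : Z2} : f ∈ bxQ L ↔ 0 ≤ f.1 ∧ f.1 < L ∧ 0 ≤ f.2 ∧ f.2 < L := by
  unfold bxQ
  rw [Finset.mem_product, Finset.mem_Ico, Finset.mem_Ico]
  tauto

theorem mem_SQ {L : ℕ} {e : Bnd} : e ∈ SQ L ↔ e.1 ∈ bxQ L := by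
  unfold SQ
  rw [Finset.mem_product]
  simp

end Vale.Agent.P159.T1.H532
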