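import Vale.Agent.P159.R2.H254.Link

/-!
The weights `wI b n = I_n(b)`: recursion, convolution, second moment.
-/

open MeasureTheory Filter Topology

namespace Vale.Agent.P159.T1.H532

open Vale.Agent.P159 Vale.Agent.P159.H353 Vale.Agent.P159.R2.H254

/-- the recursion of the Bessel functions -/
theorem wI_rec {b : ℝ} (hb : 0 ≤ b) (n : ℤ) :
    (n : ℝ) * wI b n = b / 2 * (wI b (n - 1) - wI b (n + 1)) := by
  rw [← bes_eq hb, ← bes_eq hb, ← bes_eq hb]
  unfold bes
  have hd : ∀ x ∈ Set.uIcc (0 : ℝ) (2 * Real.pi),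
      HasDerivAt (fun x : ℝ => Real.exp (b * Real.cos x) * Real.sin (n * x))
        (Real.exp (b * Real.cos x) * (b * -Real.sin x) * Real.sin (n * x) +
          Real.exp (b * Real.cos x) * (Real.cos (n * x) * n)) x := by
    intro x _
    have h1 : HasDerivAt (fun x : ℝ => Real.exp (b * Real.cos x))
        (Real.exp (b * Real.cos x) * (b * -Real.sin x)) x :=
      ((Real.hasDerivAt_cos x).const_mul b).exp
    have h2 : HasDerivAt (fun x : ℝ => Real.sin (n * x)) (Real.cos (n * x) * n) x := by
      have h3 : HasDerivAt (fun x : ℝ => (n : ℝ) * x) (n : ℝ) x := by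
        simpa using (hasDerivAt_id x).const_mul (n : ℝ)
      exact h3.sin
    exact h1.mul h2
  have hI := intervalIntegral.integral_eq_sub_of_hasDerivAt hd
    (Continuous.intervalIntegrable (by fun_prop) _ _)
  have e0 : Real.sin ((n : ℝ) * (2 * Real.pi)) = 0 := by
    rw [show (n : ℝ) * (2 * Real.pi) = ((2 * n : ℤ) : ℝ) * Real.pi by push_cast; ring]
    exact Real.sin_int_mul_pi _
  rw [e0, mul_zero, mul_zero, Real.sin_zero, mul_zero, sub_zero] at hI
  have e1 : ∀ x : ℝ, Real.exp (b * Real.cos x) * (b * -Real.sin x) * Real.sin (n * x) +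
          Real.exp (b * Real.cos x) * (Real.cos (n * x) * n) =
      n * (Real.exp (b * Real.cos x) * Real.cos (n * x)) -
        b / 2 * (Real.exp (b * Real.cos x) * Real.cos (((n - 1 : ℤ) : ℝ) * x)) +
        b / 2 * (Real.exp (b * Real.cos x) * Real.cos (((n + 1 : ℤ) : ℝ) * x)) := by
    intro x
    have a1 : ((n - 1 : ℤ) : ℝ) * x = n * x - x := by push_cast; ring
    have a2 : ((n + 1 : ℤ) : ℝ) * x = n * x + x := by push_cast; ring
    rw [a1, a2, Real.cos_sub, Real.cos_add]
    ring
  simp only [e1] at hI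
  rw [intervalIntegral.integral_add, intervalIntegral.integral_sub,
    intervalIntegral.integral_const_mul, intervalIntegral.integral_const_mul,
    intervalIntegral.integral_const_mul] at hI
  · linear_combination ((2 * Real.pi)⁻¹) * hI
  all_goals exact Continuous.intervalIntegrable (by fun_prop) _ _

/-- the convolution of the weights -/
theorem wI_conv {a b : ℝ} (ha : 0 ≤ a) (hb : 0 ≤ b) (n : ℤ) :
    HasSum (fun m : ℤ => wI a m * wI b (n - m)) (wI (a + b) n) := by
  have hs := hasSum_integral_of_summable_integral_norm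
    (μ := (AddCircle.haarAddCircle : Measure T))
    (F := fun (m : ℤ) (x : T) => (fourier (-n) x : ℂ) * (gS b x : ℂ) *
      ((wI a m : ℂ) * (fourier m x : ℂ)))
    (fun m => ((by
      have h1 : Continuous fun x : T => (gS b x : ℂ) :=
        Complex.continuous_ofReal.comp (gS_cont b)
      exact ((fourier (-n)).continuous.mul h1).mul
        (continuous_const.mul (fourier m).continuous) : Continuous fun x : T =>
      (fourier (-n) x : ℂ) * (gS b x : ℂ) *
        ((wI a m : ℂ) * (fourier m x : ℂ))).integrable_of_hasCompactSupport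
        (HasCompactSupport.of_compactSpace _))) (by
      have hg : ∀ m : ℤ, ∫ x : T, ‖(fourier (-n) x : ℂ) * (gS b x : ℂ) *
          ((wI a m : ℂ) * (fourier m x : ℂ))‖ ∂AddCircle.haarAddCircle =
          wI a m * ∫ x : T, |gS b x| ∂AddCircle.haarAddCircle := by
        intro m
        rw [← integral_const_mul]
        refine integral_congr_ae (Eventually.of_forall fun x => ?_)
        show ‖(fourier (-n) x : ℂ) * (gS b x : ℂ) * ((wI a m : ℂ) * (fourier m x : ℂ))‖ =
          wI a m * |gS b x|
        rw [norm_mul, norm_mul, norm_mul, fourier_norm_one, fourier_norm_one, one_mul, mul_one,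
          Complex.norm_real, Complex.norm_real, Real.norm_eq_abs, Real.norm_eq_abs,
          abs_of_nonneg (wI_nonneg ha m)]
        ring
      simp only [hg]
      exact (summable_wI ha).mul_right _)
  have e1 : ∀ x : T, ∑' m : ℤ, (fourier (-n) x : ℂ) * (gS b x : ℂ) *
      ((wI a m : ℂ) * (fourier m x : ℂ)) = (fourier (-n) x : ℂ) * (gS (a + b) x : ℂ) := by
    intro x
    rw [tsum_mul_left, (hasSum_gS ha x).tsum_eq]
    have : gS (a + b) x = gS a x * gS b x := by
      unfold gS
      rw [add_mul, Real.exp_add]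
    rw [this]
    push_cast
    ring
  have e2 : ∀ m : ℤ, ∫ x : T, (fourier (-n) x : ℂ) * (gS b x : ℂ) *
      ((wI a m : ℂ) * (fourier m x : ℂ)) ∂AddCircle.haarAddCircle =
        ((wI a m * wI b (n - m) : ℝ) : ℂ) := by
    intro m
    have : ∀ x : T, (fourier (-n) x : ℂ) * (gS b x : ℂ) * ((wI a m : ℂ) * (fourier m x : ℂ)) =
        (wI a m : ℂ) * ((fourier (-(n - m)) x : ℂ) * (gS b x : ℂ)) := by
      intro x
      rw [show -(n - m) = -n + m by ring, fourier_add]
      ring
    simp only [this]
    rw [integral_const_mul, integral_gS_fourier hb]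
    push_cast
    ring
  simp only [e1, e2] at hs
  rw [integral_gS_fourier (add_nonneg ha hb)] at hs
  exact_mod_cast hs

theorem summable_shift {f : ℤ → ℝ} (hf : Summable f) (c : ℤ) : Summable fun n => f (n + c) :=
  (Equiv.addRight c).summable_iff.2 hf

/-- the second moment -/
theorem summable_sq {b : ℝ} (hb : 0 ≤ b) : Summable fun n : ℤ => (n : ℝ) ^ 2 * wI b n := by
  have h0 := summable_wI hb
  have h1 : Summable fun n : ℤ => b / 2 * ((b / 2) * (wI b (n + (-2)) - wI b n) + wI b (n + (-1)) -
      ((b / 2) * (wI b n - wI b (n + 2)) - wI b (n + 1))) := by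
    refine Summable.mul_left _ ?_
    refine ((((summable_shift h0 (-2)).sub h0).mul_left (b / 2)).add
      (summable_shift h0 (-1))).sub ((((h0.sub (summable_shift h0 2)).mul_left (b / 2))).sub
      (summable_shift h0 1))
  refine h1.congr fun n => ?_
  have r0 := wI_rec hb n
  have r1 := wI_rec hb (n - 1)
  have r2 := wI_rec hb (n + 1)
  rw [show n - 1 - 1 = n + (-2) by ring, show n - 1 + 1 = n by ring] at r1
  rw [show n + 1 - 1 = n by ring, show n + 1 + 1 = n + 2 by ring] at r2
  push_cast at r1 r2
  rw [show n + (-1) = n - 1 by ring]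
  linear_combination (-(n : ℝ)) * r0 - (b / 2) * r1 + (b / 2) * r2

end Vale.Agent.P159.T1.H532
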