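import Vale.Agent.P159.T1.H532.Var
import Vale.Agent.P159.R2.H729.Cut

/-!
# Heights on a finite graph: variance and separating levels

`s t : E → V` is a finite graph, `J` couplings on the edges, `P` the pinned vertices. The heights
`h : V → ℤ` vanish on `P` and have weight `W h = ∏ e, wI (J e) (h (t e) - h (s e))`.
`Sep k h` : every chain from `L` to `P` meets `{h = k}`.

* `heights_var` : `∑ h, (∑ e, η e (h (t e) - h (s e))) ^ 2 W h ≤ (∑ e, J e η e ^ 2) ∑ h, W h`;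
* `sep_le` : if `∑ e, η e (h (t e) - h (s e))` is an average of `h` over `L`, then the level `k`
  separates `L` from `P` with probability at most `(∑ e, J e η e ^ 2) / k ^ 2`;
* `sum_sep_le` : the expected number of separating levels is at most `1 + 4 ∑ e, J e η e ^ 2`.
-/

open Filter Topology

namespace Vale.Agent.P159.T1.H532

open Vale.Agent.P159 Vale.Agent.P159.H353 Vale.Agent.P159.R2.H729

variable {V E : Type} [Fintype E]

/-- adjacency of the graph with the edges `(s e, t e)` -/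
def adjE (s t : E → V) (a b : V) : Prop := ∃ e, (s e = a ∧ t e = b) ∨ (s e = b ∧ t e = a)

/-- heights which vanish on the pinned vertices -/
abbrev Hs (P : Set V) : Type := {h : V → ℤ // ∀ v ∈ P, h v = 0}

/-- weight of the heights -/
noncomputable def Wt (s t : E → V) (J : E → ℝ) (h : V → ℤ) : ℝ :=
  ∏ e, wI (J e) (h (t e) - h (s e))

/-- linear form of the height differences -/
def Xh (s t : E → V) (η : E → ℝ) (h : V → ℤ) : ℝ := ∑ e, η e * ((h (t e) - h (s e) : ℤ) : ℝ)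

/-- every vertex is connected to a pinned vertex -/
def Conn (s t : E → V) (P : Set V) : Prop := ∀ v, ∃ p ∈ P, Relation.ReflTransGen (adjE s t) p v

variable {s t : E → V} {P : Set V} {J : E → ℝ}

theorem Wt_nonneg (hJ : ∀ e, 0 ≤ J e) (h : V → ℤ) : 0 ≤ Wt s t J h :=
  Finset.prod_nonneg fun e _ => wI_nonneg (hJ e) _

/-- the gradient -/
def gdH (s t : E → V) (P : Set V) :
    (({ carrier := {h | ∀ v ∈ P, h v = 0}
        zero_mem' := fun _ _ => rfl
        add_mem' := fun ha hb v hv => by rw [Pi.add_apply, ha v hv, hb v hv, add_zero]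
        neg_mem' := fun ha v hv => by rw [Pi.neg_apply, ha v hv, neg_zero] } :
        AddSubgroup (V → ℤ))) →+ (E → ℤ) where
  toFun h e := h.1 (t e) - h.1 (s e)
  map_zero' := by
    funext e
    simp
  map_add' a b := by
    funext e
    show (a.1 (t e) + b.1 (t e)) - (a.1 (s e) + b.1 (s e)) = _
    rw [Pi.add_apply]
    ring

theorem gdH_inj (hc : Conn s t P) : Function.Injective (gdH s t P) := by
  rw [injective_iff_map_eq_zero]
  intro a ha
  apply Subtype.ext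
  funext v
  obtain ⟨p, hp, hpv⟩ := hc v
  have key : a.1 v = 0 := by
    induction hpv with
    | refl => exact a.2 p hp
    | @tail x y _ hxy ih =>
      obtain ⟨e, he⟩ := hxy
      have h1 : a.1 (t e) - a.1 (s e) = 0 := congrFun ha e
      rcases he with ⟨h2, h3⟩ | ⟨h2, h3⟩
      · rw [h2, h3] at h1
        omega
      · rw [h2, h3] at h1
        omega
  exact key

/-- **summability and second moment** -/
theorem heights_var (hc : Conn s t P) (hJ : ∀ e, 0 ≤ J e) (η : E → ℝ) :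
    (Summable fun h : Hs P => Wt s t J h.1) ∧
    (Summable fun h : Hs P => Xh s t η h.1 ^ 2 * Wt s t J h.1) ∧
    ∑' h : Hs P, Xh s t η h.1 ^ 2 * Wt s t J h.1 ≤
      (∑ e, J e * η e ^ 2) * ∑' h : Hs P, Wt s t J h.1 := by
  classical
  set f := gdH s t P with hf
  obtain ⟨h1, h2⟩ := var_le f.range hJ η
  have h0 : Summable fun γ : f.range => Gw J γ :=
    (summable_Gw hJ).comp_injective Subtype.val_injective
  set φ : Hs P ≃ f.range := (AddMonoidHom.ofInjective (gdH_inj hc)).toEquiv with hφ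
  have e0 : ∀ h : Hs P, Gw J (φ h).1 = Wt s t J h.1 := fun h => rfl
  have e1 : ∀ h : Hs P, Xe η (φ h).1 ^ 2 * Gw J (φ h).1 = Xh s t η h.1 ^ 2 * Wt s t J h.1 :=
    fun h => rfl
  refine ⟨?_, ?_, ?_⟩
  · exact (φ.summable_iff.2 h0).congr e0
  · exact (φ.summable_iff.2 h1).congr e1
  · have a1 := φ.tsum_eq (fun γ : f.range => Xe η γ.1 ^ 2 * Gw J γ.1)
    have a2 := φ.tsum_eq (fun γ : f.range => Gw J γ.1)
    rw [← a1, ← a2] at h2
    simp only [e0] at h2
    exact h2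

/-! ### Reflection beyond a level set -/

/-- vertices joined to `P` inside `S` -/
def Exp (adj : V → V → Prop) (P S : Set V) : Set V :=
  {v | ∃ p ∈ S ∩ P, Relation.ReflTransGen (fun a b => adj a b ∧ a ∈ S ∧ b ∈ S) p v}

theorem Exp_sub {adj : V → V → Prop} {S : Set V} : Exp adj P S ⊆ S := by
  rintro v ⟨p, hp, h⟩
  rcases Relation.ReflTransGen.cases_tail h with h1 | ⟨c, _, h2⟩
  · rw [h1]
    exact hp.1
  · exact h2.2.2

theorem Exp_step {adj : V → V → Prop} {S : Set V} {a b : V} (ha : a ∈ Exp adj P S)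
    (hab : adj a b) (hb : b ∈ S) : b ∈ Exp adj P S := by
  have ha' := Exp_sub ha
  obtain ⟨p, hp, h⟩ := ha
  exact ⟨p, hp, h.tail ⟨hab, ha', hb⟩⟩

open Classical in
/-- reflection about `k` outside the set explored from `P` -/
noncomputable def rf (adj : V → V → Prop) (P : Set V) (k : ℤ) (h : V → ℤ) : V → ℤ := fun v =>
  if v ∈ Exp adj P {w | h w ≠ k} then h v else 2 * k - h v

theorem rf_mem {adj : V → V → Prop} {k : ℤ} {h : V → ℤ} {v : V}
    (hv : v ∈ Exp adj P {w | h w ≠ k}) : rf adj P k h v = h v := if_pos hv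

theorem rf_not {adj : V → V → Prop} {k : ℤ} {h : V → ℤ} {v : V}
    (hv : v ∉ Exp adj P {w | h w ≠ k}) : rf adj P k h v = 2 * k - h v := if_neg hv

theorem rf_ne (adj : V → V → Prop) (k : ℤ) (h : V → ℤ) :
    {w | rf adj P k h w ≠ k} = {w | h w ≠ k} := by
  ext w
  show rf adj P k h w ≠ k ↔ h w ≠ k
  by_cases hw : w ∈ Exp adj P {w | h w ≠ k}
  · rw [rf_mem hw]
  · rw [rf_not hw]
    constructor <;> intro h1 h2 <;> apply h1 <;> omega

theorem rf_rf (adj : V → V → Prop) (k : ℤ) (h : V → ℤ) :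
    rf adj P k (rf adj P k h) = h := by
  funext v
  by_cases hv : v ∈ Exp adj P {w | h w ≠ k}
  · have hv' : v ∈ Exp adj P {w | rf adj P k h w ≠ k} := by rwa [rf_ne]
    rw [rf_mem hv', rf_mem hv]
  · have hv' : v ∉ Exp adj P {w | rf adj P k h w ≠ k} := by rwa [rf_ne]
    rw [rf_not hv', rf_not hv]
    ring

theorem rf_Wt (k : ℤ) (h : V → ℤ) :
    Wt s t J (rf (adjE s t) P k h) = Wt s t J h := by
  unfold Wt
  refine Finset.prod_congr rfl fun e _ => ?_
  have h1 : adjE s t (s e) (t e) := ⟨e, Or.inl ⟨rfl, rfl⟩⟩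
  have h2 : adjE s t (t e) (s e) := ⟨e, Or.inr ⟨rfl, rfl⟩⟩
  unfold rf
  by_cases hs : s e ∈ Exp (adjE s t) P {w | h w ≠ k}
  · by_cases ht : t e ∈ Exp (adjE s t) P {w | h w ≠ k}
    · rw [if_pos hs, if_pos ht]
    · rw [if_pos hs, if_neg ht]
      have h3 : h (t e) = k := by
        by_contra h4
        exact ht (Exp_step hs h1 h4)
      rw [h3]
      congr 1
      ring
  · by_cases ht : t e ∈ Exp (adjE s t) P {w | h w ≠ k}
    · rw [if_neg hs, if_pos ht]
      have h3 : h (s e) = k := by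
        by_contra h4
        exact hs (Exp_step ht h2 h4)
      rw [h3]
      congr 1
      ring
    · rw [if_neg hs, if_neg ht, ← wI_neg]
      congr 1
      ring

theorem rf_pin {adj : V → V → Prop} {k : ℤ} (hk : k ≠ 0) {h : V → ℤ} (hP : ∀ v ∈ P, h v = 0) :
    ∀ v ∈ P, rf adj P k h v = 0 := by
  intro v hv
  have h1 : h v ≠ k := by
    rw [hP v hv]
    exact hk.symm
  have h2 : v ∈ Exp adj P {w | h w ≠ k} := ⟨v, ⟨h1, hv⟩, .refl⟩
  unfold rf
  rw [if_pos h2, hP v hv]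

/-- the level `k` separates `L` from `P` -/
def Sep (s t : E → V) (L P : Set V) (k : ℤ) (h : V → ℤ) : Prop :=
  ¬ Cn (adjE s t) {v | h v ≠ k} L P

theorem adjE_symm {a b : V} (h : adjE s t a b) : adjE s t b a := by
  obtain ⟨e, he⟩ := h
  exact ⟨e, he.symm⟩

theorem rtg_symm {S : Set V} {a b : V}
    (h : Relation.ReflTransGen (fun a b => adjE s t a b ∧ a ∈ S ∧ b ∈ S) a b) :
    Relation.ReflTransGen (fun a b => adjE s t a b ∧ a ∈ S ∧ b ∈ S) b a := by
  induction h with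
  | refl => exact .refl
  | tail _ h1 ih => exact Relation.ReflTransGen.head ⟨adjE_symm h1.1, h1.2.2, h1.2.1⟩ ih

theorem rf_L {L : Set V} {k : ℤ} {h : V → ℤ} (hS : Sep s t L P k h) {l : V} (hl : l ∈ L) :
    rf (adjE s t) P k h l = 2 * k - h l := by
  have h1 : l ∉ Exp (adjE s t) P {w | h w ≠ k} := by
    intro h2
    have h3 := Exp_sub h2
    obtain ⟨p, hp, h4⟩ := h2
    exact hS ⟨l, ⟨h3, hl⟩, p, hp, rtg_symm h4⟩
  unfold rf
  rw [if_neg h1]

theorem rf_Sep {L : Set V} {k : ℤ} {h : V → ℤ} :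
    Sep s t L P k (rf (adjE s t) P k h) ↔ Sep s t L P k h := by
  unfold Sep
  rw [rf_ne]

/-- reflection as a permutation of the heights -/
noncomputable def rfE (s t : E → V) (P : Set V) {k : ℤ} (hk : k ≠ 0) : Hs P ≃ Hs P where
  toFun h := ⟨rf (adjE s t) P k h.1, rf_pin hk h.2⟩
  invFun h := ⟨rf (adjE s t) P k h.1, rf_pin hk h.2⟩
  left_inv h := Subtype.ext (rf_rf _ _ _)
  right_inv h := Subtype.ext (rf_rf _ _ _)

/-- weight of the event that the level `k` separates -/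
noncomputable def Ws (s t : E → V) (J : E → ℝ) (L P : Set V) (k : ℤ) (h : V → ℤ) : ℝ :=
  Set.indicator {h | Sep s t L P k h} (Wt s t J) h

theorem Ws_nonneg (hJ : ∀ e, 0 ≤ J e) (L : Set V) (k : ℤ) (h : V → ℤ) :
    0 ≤ Ws s t J L P k h :=
  Set.indicator_nonneg (fun _ _ => Wt_nonneg hJ _) _

theorem Ws_le (hJ : ∀ e, 0 ≤ J e) (L : Set V) (k : ℤ) (h : V → ℤ) :
    Ws s t J L P k h ≤ Wt s t J h :=
  Set.indicator_le_self' (fun _ _ => Wt_nonneg hJ _) _

theorem Ws_rf (L : Set V) (k : ℤ) (h : V → ℤ) :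
    Ws s t J L P k (rf (adjE s t) P k h) = Ws s t J L P k h := by
  unfold Ws
  by_cases hS : Sep s t L P k h
  · rw [Set.indicator_of_mem (show rf (adjE s t) P k h ∈ {h | Sep s t L P k h} from rf_Sep.2 hS),
      Set.indicator_of_mem (show h ∈ {h | Sep s t L P k h} from hS), rf_Wt]
  · rw [Set.indicator_of_notMem (fun h' => hS (rf_Sep.1 h')), Set.indicator_of_notMem hS]

theorem summable_Ws (hc : Conn s t P) (hJ : ∀ e, 0 ≤ J e) (L : Set V) (k : ℤ) :
    Summable fun h : Hs P => Ws s t J L P k h.1 :=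
  Summable.of_nonneg_of_le (fun h => Ws_nonneg hJ L k h.1) (fun h => Ws_le hJ L k h.1)
    (heights_var hc hJ 0).1

/-- **a level separates with probability at most `(∑ e, J e η e ^ 2) / k ^ 2`** -/
theorem sep_le (hc : Conn s t P) (hJ : ∀ e, 0 ≤ J e) (L : Finset V) (w : V → ℝ) (η : E → ℝ)
    (hw : ∑ l ∈ L, w l = 1)
    (hη : ∀ h : V → ℤ, (∀ v ∈ P, h v = 0) → Xh s t η h = ∑ l ∈ L, w l * h l) {k : ℤ}
    (hk : k ≠ 0) :
    (k : ℝ) ^ 2 * ∑' h : Hs P, Ws s t J L P k h.1 ≤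
      (∑ e, J e * η e ^ 2) * ∑' h : Hs P, Wt s t J h.1 := by
  obtain ⟨h0, h1, h2⟩ := heights_var hc hJ η
  refine le_trans ?_ h2
  have hs := summable_Ws hc hJ (L : Set V) k
  have hX : Summable fun h : Hs P => Xh s t η h.1 ^ 2 * Ws s t J L P k h.1 :=
    Summable.of_nonneg_of_le (fun h => mul_nonneg (sq_nonneg _) (Ws_nonneg hJ _ k h.1))
      (fun h => mul_le_mul_of_nonneg_left (Ws_le hJ _ k h.1) (sq_nonneg _)) h1
  have h3 : ∑' h : Hs P, Xh s t η h.1 ^ 2 * Ws s t J L P k h.1 ≤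
      ∑' h : Hs P, Xh s t η h.1 ^ 2 * Wt s t J h.1 :=
    hX.tsum_le_tsum (fun h => mul_le_mul_of_nonneg_left (Ws_le hJ _ k h.1) (sq_nonneg _)) h1
  refine le_trans ?_ h3
  have h4 := (rfE s t P hk).tsum_eq (fun h : Hs P => Xh s t η h.1 ^ 2 * Ws s t J L P k h.1)
  have h5 : ∀ h : Hs P, Xh s t η (rfE s t P hk h).1 ^ 2 * Ws s t J L P k (rfE s t P hk h).1 =
      (2 * k - Xh s t η h.1) ^ 2 * Ws s t J L P k h.1 := by
    intro h
    show Xh s t η (rf (adjE s t) P k h.1) ^ 2 * Ws s t J L P k (rf (adjE s t) P k h.1) = _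
    rw [Ws_rf]
    by_cases hS : Sep s t (L : Set V) P k h.1
    · congr 2
      rw [hη _ (rf_pin hk h.2), hη _ h.2]
      have h6 : ∀ l ∈ L, w l * (rf (adjE s t) P k h.1 l : ℝ) = w l * (2 * k) - w l * h.1 l := by
        intro l hl
        rw [rf_L hS (Finset.mem_coe.2 hl)]
        push_cast
        ring
      rw [Finset.sum_congr rfl h6, Finset.sum_sub_distrib, ← Finset.sum_mul, hw, one_mul]
    · have h7 : Ws s t J L P k h.1 = 0 := Set.indicator_of_notMem hS _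
      rw [h7, mul_zero, mul_zero]
  rw [tsum_congr h5] at h4
  have h6 : Summable fun h : Hs P => (2 * k - Xh s t η h.1) ^ 2 * Ws s t J L P k h.1 :=
    ((rfE s t P hk).summable_iff.2 hX).congr h5
  have h7 : 2 * ((k : ℝ) ^ 2 * ∑' h : Hs P, Ws s t J L P k h.1) ≤
      ∑' h : Hs P, (Xh s t η h.1 ^ 2 * Ws s t J L P k h.1 +
        (2 * k - Xh s t η h.1) ^ 2 * Ws s t J L P k h.1) := by
    rw [← mul_assoc, ← tsum_mul_left]
    refine Summable.tsum_le_tsum (fun h => ?_) (hs.mul_left _) (hX.add h6)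
    have h8 : 2 * (k : ℝ) ^ 2 ≤ Xh s t η h.1 ^ 2 + (2 * k - Xh s t η h.1) ^ 2 := by
      nlinarith [sq_nonneg (Xh s t η h.1 - k)]
    rw [← add_mul]
    exact mul_le_mul_of_nonneg_right h8 (Ws_nonneg hJ _ k h.1)
  rw [hX.tsum_add h6, h4] at h7
  linarith

/-! ### The number of separating levels -/

theorem sum_inv_sq : ∃ c : ℝ, c ≤ 4 ∧ HasSum (fun k : ℤ => 1 / (k : ℝ) ^ 2) c := by
  have h1 : HasSum (fun n : ℕ => 1 / ((n : ℝ)) ^ 2) (Real.pi ^ 2 / 6) := hasSum_zeta_two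
  have h2 : HasSum (fun n : ℕ => 1 / (((n + 1 : ℕ) : ℝ)) ^ 2) (Real.pi ^ 2 / 6) := by
    have h3 := (hasSum_nat_add_iff' (f := fun n : ℕ => 1 / ((n : ℝ)) ^ 2) 1).2 h1
    simpa using h3
  refine ⟨Real.pi ^ 2 / 6 + Real.pi ^ 2 / 6, ?_, HasSum.of_nat_of_neg_add_one ?_ ?_⟩
  · have h3 := Real.pi_lt_d2
    have h4 := Real.pi_pos
    nlinarith
  · have h5 : (fun n : ℕ => 1 / ((((n : ℕ) : ℤ) : ℝ)) ^ 2) = fun n : ℕ => 1 / ((n : ℝ)) ^ 2 := by
      funext n
      rw [Int.cast_natCast]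
    rw [h5]
    exact h1
  · have h5 : (fun n : ℕ => 1 / (((-((n : ℤ) + 1) : ℤ) : ℝ)) ^ 2) =
        fun n : ℕ => 1 / (((n + 1 : ℕ) : ℝ)) ^ 2 := by
      funext n
      have h6 : ((-((n : ℤ) + 1) : ℤ) : ℝ) = -(((n + 1 : ℕ) : ℝ)) := by push_cast; ring
      rw [h6, neg_sq]
    rw [h5]
    exact h2

/-- **the expected number of separating levels is at most `1 + 4 ∑ e, J e η e ^ 2`** -/
theorem sum_sep_le (hc : Conn s t P) (hJ : ∀ e, 0 ≤ J e) (L : Finset V) (w : V → ℝ) (η : E → ℝ)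
    (hw : ∑ l ∈ L, w l = 1)
    (hη : ∀ h : V → ℤ, (∀ v ∈ P, h v = 0) → Xh s t η h = ∑ l ∈ L, w l * h l) :
    (Summable fun k : ℤ => ∑' h : Hs P, Ws s t J L P k h.1) ∧
    ∑' k : ℤ, ∑' h : Hs P, Ws s t J L P k h.1 ≤
      (1 + 4 * ∑ e, J e * η e ^ 2) * ∑' h : Hs P, Wt s t J h.1 := by
  obtain ⟨c, hc4, hcs⟩ := sum_inv_sq
  set Z := ∑' h : Hs P, Wt s t J h.1 with hZ
  set v := ∑ e, J e * η e ^ 2 with hv
  have hZ0 : 0 ≤ Z := tsum_nonneg fun h => Wt_nonneg hJ h.1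
  have hv0 : 0 ≤ v := Finset.sum_nonneg fun e _ => mul_nonneg (hJ e) (sq_nonneg _)
  have hb : ∀ k : ℤ, ∑' h : Hs P, Ws s t J L P k h.1 ≤
      (if k = 0 then Z else 0) + v * Z * (1 / (k : ℝ) ^ 2) := by
    intro k
    by_cases hk : k = 0
    · subst hk
      rw [if_pos rfl]
      have h1 : ∑' h : Hs P, Ws s t J L P 0 h.1 ≤ Z :=
        (summable_Ws hc hJ (L : Set V) 0).tsum_le_tsum (fun h => Ws_le hJ _ 0 h.1)
          (heights_var hc hJ 0).1
      simpa using h1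
    · rw [if_neg hk, zero_add, mul_one_div, le_div_iff₀ (by positivity), mul_comm]
      exact sep_le hc hJ L w η hw hη hk
  have hsum : HasSum (fun k : ℤ => (if k = 0 then Z else 0) + v * Z * (1 / (k : ℝ) ^ 2))
      (Z + v * Z * c) := (hasSum_ite_eq 0 Z).add (hcs.mul_left _)
  have hsm : Summable fun k : ℤ => ∑' h : Hs P, Ws s t J L P k h.1 :=
    Summable.of_nonneg_of_le (fun k => tsum_nonneg fun h => Ws_nonneg hJ _ k h.1) hb hsum.summable
  refine ⟨hsm, (hsm.tsum_le_tsum hb hsum.summable).trans ?_⟩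
  rw [hsum.tsum_eq]
  nlinarith [mul_nonneg hv0 hZ0, mul_le_mul_of_nonneg_left hc4 (mul_nonneg hv0 hZ0)]

end Vale.Agent.P159.T1.H532
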