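import Vale.Agent.P159.R2.H130.Poly
import Vale.Agent.P159.T1.H931.Dom

/-!
Gaussian bound from above for twisted partition functions up to a constant (`GLB`), with
regions given by cells and free spins: unfolding by a mirror line, sums of fields, liminf of the
quadratic forms, monotonicity.
-/

set_option linter.all false
set_option autoImplicit false

open MeasureTheory Filter Topology
open scoped BigOperators

namespace Vale.Agent.P159.T1.H532

open Vale.Agent.P159 Vale.Agent.P159.UJ Vale.Agent.P159.H950 Vale.Agent.P159.R2.H130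
  Vale.Agent.P159.T1.H931

theorem qI_smul (b : ℝ) (R : Finset (ℤ × ℤ)) (I : Set (ℤ × ℤ)) (s : ℝ) (y : Fld) :
    qI b R I (s • y) = s ^ 2 * qI b R I y :=
  Qform_smul muInf _ _ s (twR R y)

theorem qI_nonneg {b : ℝ} (hb : 0 ≤ b) (R : Finset (ℤ × ℤ)) (I : Set (ℤ × ℤ)) (y : Fld) :
    0 ≤ qI b R I y :=
  Qform_nonneg muInf _ _ G_div2 (half_nonneg' hb R) _

theorem qI_le {b : ℝ} (hb : 0 ≤ b) (R : Finset (ℤ × ℤ)) (I : Set (ℤ × ℤ)) (y : Fld) :
    qI b R I y ≤ b * nR R y := by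
  rw [← sum_tw]
  exact Qform_le muInf _ _ (half_nonneg' hb R) _

/-- Gaussian bound from below by the quadratic form -/
theorem zI_ge {b : ℝ} (hb : 0 ≤ b) (R : Finset (ℤ × ℤ)) (I : Set (ℤ × ℤ)) (y : Fld) :
    Real.exp (-(qI b R I y) / 2) * zI b R I 0 ≤ zI b R I y := by
  have h := lowerZ muInf (fun _ : KR R => b / 2) (chiI R I) G_div2 (half_nonneg' hb R) (twR R y)
  rw [QQ_zero, le_div_iff₀ (Zr_pos muInf _ _ _)] at h
  exact h

/-- four point inequality for real twists -/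
theorem zI_four {b : ℝ} (hb : 0 ≤ b) (R : Finset (ℤ × ℤ)) (I : Set (ℤ × ℤ)) (y z : Fld) :
    zI b R I y ^ 2 * zI b R I z ^ 2 ≤ zI b R I (y + z) * zI b R I (y - z) * zI b R I 0 ^ 2 :=
  UJ.four muInf _ _ G_div2 (half_nonneg' hb R) (twR R y) (twR R z)

theorem zI_congr (b : ℝ) {R : Finset (ℤ × ℤ)} (I : Set (ℤ × ℤ)) {y z : Fld}
    (h : ∀ c ∈ R, y c = z c) : zI b R I y = zI b R I z := by
  unfold zI
  rw [twR_congr h]

theorem qI_congr (b : ℝ) {R : Finset (ℤ × ℤ)} (I : Set (ℤ × ℤ)) {y z : Fld}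
    (h : ∀ c ∈ R, y c = z c) : qI b R I y = qI b R I z := by
  unfold qI
  rw [twR_congr h]

/-- Gaussian upper bound for the twisted partition functions, up to a constant -/
def GLB (b Y : ℝ) (R : ℕ → Finset (ℤ × ℤ)) (I : ℕ → Set (ℤ × ℤ)) (f : SF) : Prop :=
  ∃ C : ℝ, ∀ t : ℝ, ∀ᶠ N : ℕ in atTop,
    zI b (R N) (I N) ((t / N) • f N) ≤
      Real.exp (C - Y * t ^ 2 * nR (R N) (f N) / (2 * (N : ℝ) ^ 2)) * zI b (R N) (I N) 0

variable {b Y : ℝ} {R : ℕ → Finset (ℤ × ℤ)} {I : ℕ → Set (ℤ × ℤ)} {f : SF}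

/-- the sharp lower bound of the quadratic forms -/
theorem GLB.liminf (hb : 0 ≤ b) (h : GLB b Y R I f) {ε : ℝ} (hε : 0 < ε) :
    ∀ᶠ N : ℕ in atTop, Y * (nR (R N) (f N) / (N : ℝ) ^ 2) -
      qI b (R N) (I N) (f N) / (N : ℝ) ^ 2 ≤ ε := by
  obtain ⟨C, hC⟩ := h
  obtain ⟨t, ht0, ht⟩ : ∃ t : ℝ, 0 < t ∧ 2 * C ≤ ε * t ^ 2 := by
    refine ⟨2 * |C| / ε + 1, by positivity, ?_⟩
    have h1 : 0 ≤ 2 * |C| / ε := by positivity
    have h2 : ε * (2 * |C| / ε + 1) ^ 2 ≥ ε * (2 * |C| / ε + 1) := by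
      have : (2 * |C| / ε + 1) ≤ (2 * |C| / ε + 1) ^ 2 := by nlinarith
      exact mul_le_mul_of_nonneg_left this hε.le
    have h3 : ε * (2 * |C| / ε + 1) = 2 * |C| + ε := by field_simp
    have h4 := le_abs_self C
    linarith
  filter_upwards [hC t, eventually_ge_atTop 1] with N h1 hN
  have hN0 : (0 : ℝ) < N := by exact_mod_cast hN
  have hz := zI_pos b (R N) (I N) 0
  have h2 := zI_ge hb (R N) (I N) ((t / N) • f N)
  have h3 : Real.exp (-(qI b (R N) (I N) ((t / N) • f N)) / 2) ≤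
      Real.exp (C - Y * t ^ 2 * nR (R N) (f N) / (2 * (N : ℝ) ^ 2)) := by
    refine le_of_mul_le_mul_right (h2.trans h1) hz
  rw [Real.exp_le_exp, qI_smul] at h3
  have h4 : t ^ 2 * (Y * (nR (R N) (f N) / (N : ℝ) ^ 2) -
      qI b (R N) (I N) (f N) / (N : ℝ) ^ 2) ≤ 2 * C := by
    have e2 : Y * t ^ 2 * nR (R N) (f N) / (2 * (N : ℝ) ^ 2) =
        t ^ 2 * (Y * (nR (R N) (f N) / (N : ℝ) ^ 2)) / 2 := by
      field_simp
    have e : (t / N) ^ 2 * qI b (R N) (I N) (f N) = t ^ 2 * (qI b (R N) (I N) (f N) / (N : ℝ) ^ 2) := by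
      rw [div_pow]; ring
    rw [e, e2] at h3
    linarith
  have h5 : t ^ 2 * (Y * (nR (R N) (f N) / (N : ℝ) ^ 2) -
      qI b (R N) (I N) (f N) / (N : ℝ) ^ 2) ≤ t ^ 2 * ε := by
    linarith
  exact le_of_mul_le_mul_left h5 (by positivity)

/-- unfolding at a mirror line -/
theorem GLB.unfold {R' : ℕ → Finset (ℤ × ℤ)} {I' : ℕ → Set (ℤ × ℤ)} {f' : SF}
    (h : GLB b Y R' I' f') {ρ : ℝ} (W : ℕ → ℝ)
    (hcs : ∀ t : ℝ, ∀ᶠ N : ℕ in atTop, zI b (R N) (I N) ((t / N) • f N) ^ 2 ≤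
      zI b (R' N) (I' N) ((t / N) • f' N) * W N)
    (hrho : ∀ᶠ N : ℕ in atTop, zI b (R' N) (I' N) 0 * W N ≤ ρ * zI b (R N) (I N) 0 ^ 2)
    (hW : ∀ᶠ N : ℕ in atTop, 0 ≤ W N)
    (hn : ∀ᶠ N : ℕ in atTop, 2 * nR (R N) (f N) ≤ nR (R' N) (f' N)) (hY : 0 ≤ Y) :
    GLB b Y R I f := by
  obtain ⟨C, hC⟩ := h
  obtain ⟨ρ', hρ', hρ1⟩ : ∃ ρ' : ℝ, 0 < ρ' ∧ ρ ≤ ρ' := ⟨max ρ 1, by positivity, le_max_left _ _⟩
  refine ⟨(C + Real.log ρ') / 2, fun t => ?_⟩
  filter_upwards [hC t, hcs t, hrho, hW, hn] with N h1 h2 h3 h4 h5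
  have hz := zI_pos b (R N) (I N) 0
  have h6 : zI b (R N) (I N) ((t / N) • f N) ^ 2 ≤
      Real.exp (C - Y * t ^ 2 * nR (R' N) (f' N) / (2 * (N : ℝ) ^ 2)) *
        (ρ' * zI b (R N) (I N) 0 ^ 2) := by
    refine h2.trans ((mul_le_mul_of_nonneg_right h1 h4).trans ?_)
    rw [mul_assoc]
    refine mul_le_mul_of_nonneg_left (h3.trans ?_) (Real.exp_pos _).le
    exact mul_le_mul_of_nonneg_right hρ1 (by positivity)
  have h7 : Real.exp (C - Y * t ^ 2 * nR (R' N) (f' N) / (2 * (N : ℝ) ^ 2)) *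
      (ρ' * zI b (R N) (I N) 0 ^ 2) ≤
      (Real.exp ((C + Real.log ρ') / 2 - Y * t ^ 2 * nR (R N) (f N) / (2 * (N : ℝ) ^ 2)) *
        zI b (R N) (I N) 0) ^ 2 := by
    rw [mul_pow, ← mul_assoc]
    refine mul_le_mul_of_nonneg_right ?_ (by positivity)
    rw [← Real.exp_nat_mul]
    conv_lhs => rw [← Real.exp_log hρ', ← Real.exp_add]
    rw [Real.exp_le_exp]
    have h8 : Y * t ^ 2 * (2 * nR (R N) (f N)) / (2 * (N : ℝ) ^ 2) ≤
        Y * t ^ 2 * nR (R' N) (f' N) / (2 * (N : ℝ) ^ 2) := by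
      refine div_le_div_of_nonneg_right ?_ (by positivity)
      exact mul_le_mul_of_nonneg_left h5 (by positivity)
    have h9 : Y * t ^ 2 * (2 * nR (R N) (f N)) / (2 * (N : ℝ) ^ 2) =
        2 * (Y * t ^ 2 * nR (R N) (f N) / (2 * (N : ℝ) ^ 2)) := by ring
    push_cast
    linarith
  exact le_of_sq_le_sq (h6.trans h7) (by positivity)

/-- wired polyominoes -/
theorem glb_PR {b : ℝ} (hb : 0 < b) {F : MF} (hF : DF F) (P : Finset (ℤ × ℤ)) :
    GLB b (helicity b) (fun N => PR P N) (fun N => intR (PR P N)) (smp F) := by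
  refine ⟨1, fun t => ?_⟩
  have h := real_tw_PR hb (hF.smul t) P
    (t := fun N => twR (PR P N) ((t / N) • smp F N)) (by
      intro ε hε
      filter_upwards [eventually_ge_atTop 1] with N hN e
      have hN0 : (N : ℝ) ≠ 0 := by
        have : (0 : ℝ) < N := by exact_mod_cast hN
        exact this.ne'
      have e1 : (N : ℝ) * twR (PR P N) ((t / N) • smp F N) e -
          smp (fun x y d => t * F x y d) N e.1 e.2.1 = 0 := by
        simp only [twR, Pi.smul_apply, smul_eq_mul, smp]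
        field_simp
        ring
      rw [e1, abs_zero]
      exact hε.le)
  rw [enP_smul] at h
  have hn := nR_PR_lim hF.cont P
  have hexp : Tendsto (fun N : ℕ => Real.exp (1 - helicity b * t ^ 2 *
      nR (PR P N) (smp F N) / (2 * (N : ℝ) ^ 2))) atTop
      (𝓝 (Real.exp (1 - helicity b * t ^ 2 * enP P F / 2))) := by
    refine (Real.continuous_exp.tendsto _).comp ?_
    have := (hn.const_mul (helicity b * t ^ 2 / 2)).const_sub 1
    refine (this.congr fun N => ?_).trans (le_of_eq ?_)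
    · ring
    · congr 1; ring
  have hlt : Real.exp (-(helicity b * (t ^ 2 * enP P F) / 2)) <
      Real.exp (1 - helicity b * t ^ 2 * enP P F / 2) := by
    rw [Real.exp_lt_exp]
    linarith
  filter_upwards [h.eventually_lt hexp hlt] with N hN
  rw [div_lt_iff₀ (Zr_pos muInf _ _ _)] at hN
  exact hN.le

end Vale.Agent.P159.T1.H532
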