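import Vale.Agent.P159.H950.A3

/-!
Monotonicity in the couplings of the ratio of the partition functions with and without a real
twist, and of the quadratic form.
-/

set_option linter.all false
set_option autoImplicit false

open MeasureTheory Filter Topology
open scoped BigOperators

namespace Vale.Agent.P159.T1.H532

open Vale.Agent.P159 Vale.Agent.P159.UJ Vale.Agent.P159.H950

section Kernel

variable {X : Type*} [TopologicalSpace X] [CompactSpace X] [SecondCountableTopology X]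
  [MeasurableSpace X] [BorelSpace X] {μ : Measure X} [IsFiniteMeasure μ]

/-- comparison of two kernels with the same functions -/
theorem kernel_le {κ : Type*} [Fintype κ] (l l' : κ → ℝ) (h : ∀ k, |l' k| ≤ l k)
    (f : κ → X → ℝ) (hf : ∀ k, Continuous (f k)) :
    ∫ p : X × X, Real.exp (∑ k, l' k * (f k p.1 * f k p.2)) ∂(μ.prod μ) ≤
      ∫ p : X × X, Real.exp (∑ k, l k * (f k p.1 * f k p.2)) ∂(μ.prod μ) := by
  have hg : Continuous (fun _ : X => (1 : ℝ)) := continuous_const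
  have h1 : Continuous (fun p : X × X => (1 : ℝ) * 1) := continuous_const
  have h2 : ∀ l : κ → ℝ, Continuous (fun p : X × X => ∑ k, l k * (f k p.1 * f k p.2)) :=
    fun l => continuous_finsetSum _ fun k _ =>
      continuous_const.mul (((hf _).comp continuous_fst).mul ((hf _).comp continuous_snd))
  have a1 := hasSum_integral_exp_real (μ := μ.prod μ) h1 (h2 l)
  have a2 := hasSum_integral_exp_real (μ := μ.prod μ) h1 (h2 l')
  simp only [mul_one, one_mul] at a1 a2
  refine hasSum_le (fun n => ?_) a2 a1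
  have e1 := integral_kernel_pow (μ := μ) l f hf hg n
  have e2 := integral_kernel_pow (μ := μ) l' f hf hg n
  simp only [mul_one, one_mul] at e1 e2
  rw [e1, e2]
  refine div_le_div_of_nonneg_right (Finset.sum_le_sum fun w _ => ?_) (Nat.cast_nonneg _)
  refine mul_le_mul_of_nonneg_right ?_ (sq_nonneg _)
  refine (le_abs_self _).trans ?_
  rw [Finset.abs_prod]
  exact Finset.prod_le_prod (fun i _ => abs_nonneg _) fun i _ => h _

end Kernel

section Main

variable {G : Type*} [AddCommGroup G] [TopologicalSpace G] [IsTopologicalAddGroup G]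
  [CompactSpace G] [SecondCountableTopology G] [MeasurableSpace G] [BorelSpace G]
  (μ : Measure G) [μ.IsAddHaarMeasure] [IsProbabilityMeasure μ]
  {κ : Type*} [Fintype κ]

/-- **The ratio `Zr t / Zr 0` decreases in the couplings of the bonds without twist.** -/
theorem Zr_mono (h2 : ∀ g : G, ∃ h : G, h + h = g) {J J' : κ → ℝ} (χ : κ → Chr G)
    (hJ : ∀ e, 0 ≤ J e) (hJJ : ∀ e, J e ≤ J' e) {t : κ → ℝ} (ht : ∀ e, J e = J' e ∨ t e = 0) :
    Zr μ J' χ t * Zr μ J χ 0 ≤ Zr μ J χ t * Zr μ J' χ 0 := by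
  classical
  set K : κ → ℝ := fun e => J' e - J e with hK
  have hK0 : ∀ e, 0 ≤ K e := fun e => sub_nonneg.2 (hJJ e)
  set H : (κ → ℝ) → G → ℝ := fun t x => ∑ e, J e *
      ((χ e).c x * Real.cos (t e) - (χ e).s x * Real.sin (t e)) with hH
  set D : G → ℝ := fun x => ∑ e, K e * (χ e).c x with hD
  have cH : ∀ t, Continuous (H t) := fun t => continuous_finsetSum _ fun e _ =>
    continuous_const.mul (((χ e).cont_c.mul continuous_const).sub
      ((χ e).cont_s.mul continuous_const))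
  have cD : Continuous D := continuous_finsetSum _ fun e _ => continuous_const.mul (χ e).cont_c
  have z1 : Zr μ J' χ t = ∫ x, Real.exp (H t x + D x) ∂μ := by
    unfold Zr
    congr 1
    ext x
    congr 1
    simp only [hH, hD]
    rw [← Finset.sum_add_distrib]
    refine Finset.sum_congr rfl fun e _ => ?_
    rcases ht e with h | h
    · simp only [hK, h]; ring
    · simp only [hK, h, Real.cos_zero, Real.sin_zero]; ring
  have z2 : Zr μ J' χ 0 = ∫ x, Real.exp (H 0 x + D x) ∂μ := by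
    unfold Zr
    congr 1
    ext x
    congr 1
    simp only [hH, hD]
    rw [← Finset.sum_add_distrib]
    refine Finset.sum_congr rfl fun e _ => ?_
    simp only [hK, Pi.zero_apply, Real.cos_zero, Real.sin_zero]; ring
  have z3 : Zr μ J χ t = ∫ x, Real.exp (H t x) ∂μ := rfl
  have z4 : Zr μ J χ 0 = ∫ x, Real.exp (H 0 x) ∂μ := rfl
  rw [z1, z2, z3, z4]
  have ie : ∀ {F : G → ℝ}, Continuous F → Continuous fun x => Real.exp (F x) :=
    fun hF => Real.continuous_exp.comp hF
  have e1 : (∫ x, Real.exp (H t x + D x) ∂μ) * ∫ x, Real.exp (H 0 x) ∂μ =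
      ∫ p : G × G, Real.exp (H t p.1 + D p.1) * Real.exp (H 0 p.2) ∂(μ.prod μ) :=
    (integral_prod_mul (fun x => Real.exp (H t x + D x)) (fun x => Real.exp (H 0 x))).symm
  have e2 : (∫ x, Real.exp (H t x) ∂μ) * ∫ x, Real.exp (H 0 x + D x) ∂μ =
      ∫ p : G × G, Real.exp (H t p.1) * Real.exp (H 0 p.2 + D p.2) ∂(μ.prod μ) :=
    (integral_prod_mul (fun x => Real.exp (H t x)) (fun x => Real.exp (H 0 x + D x))).symm
  rw [e1, e2]
  have c1 : Continuous (fun p : G × G => Real.exp (H t p.1 + D p.1) * Real.exp (H 0 p.2)) :=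
    ((ie ((cH t).add cD)).comp continuous_fst).mul ((ie (cH 0)).comp continuous_snd)
  have c2 : Continuous (fun p : G × G => Real.exp (H t p.1) * Real.exp (H 0 p.2 + D p.2)) :=
    ((ie (cH t)).comp continuous_fst).mul ((ie ((cH 0).add cD)).comp continuous_snd)
  rw [← integral_rot μ h2 c1, ← integral_rot μ h2 c2]
  set l : κ ⊕ (κ ⊕ κ) → ℝ := Sum.elim (fun e => 2 * J e) (Sum.elim K K) with hl
  set l' : κ ⊕ (κ ⊕ κ) → ℝ := Sum.elim (fun e => 2 * J e) (Sum.elim K (fun e => -K e)) with hl'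
  set f : κ ⊕ (κ ⊕ κ) → G → ℝ := Sum.elim
    (fun e x => (χ e).c x * Real.cos (t e / 2) - (χ e).s x * Real.sin (t e / 2))
    (Sum.elim (fun e => (χ e).c) (fun e => (χ e).s)) with hf
  have cf : ∀ k, Continuous (f k) := by
    rintro (e | e | e)
    · exact ((χ e).cont_c.mul continuous_const).sub ((χ e).cont_s.mul continuous_const)
    · exact (χ e).cont_c
    · exact (χ e).cont_s
  have key := kernel_le (μ := μ) l l' (by
    rintro (e | e | e)
    · simp only [hl, hl', Sum.elim_inl]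
      rw [abs_of_nonneg (by have := hJ e; positivity)]
    · simp only [hl, hl', Sum.elim_inr, Sum.elim_inl]
      rw [abs_of_nonneg (hK0 e)]
    · simp only [hl, hl', Sum.elim_inr]
      rw [abs_neg, abs_of_nonneg (hK0 e)]) f cf
  have hs : ∀ (e : κ) (p : G × G), (χ e).c (p.1 - p.2) =
      (χ e).c p.1 * (χ e).c p.2 + (χ e).s p.1 * (χ e).s p.2 ∧
      (χ e).s (p.1 - p.2) = (χ e).s p.1 * (χ e).c p.2 - (χ e).c p.1 * (χ e).s p.2 := by
    intro e p
    constructor
    · rw [sub_eq_add_neg, (χ e).c_add, (χ e).c_neg, (χ e).s_neg]; ring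
    · rw [sub_eq_add_neg, (χ e).s_add, (χ e).c_neg, (χ e).s_neg]; ring
  have htrig : ∀ e, Real.cos (t e) = Real.cos (t e / 2) ^ 2 - Real.sin (t e / 2) ^ 2 ∧
      Real.sin (t e) = 2 * Real.sin (t e / 2) * Real.cos (t e / 2) ∧
      Real.cos (t e / 2) ^ 2 + Real.sin (t e / 2) ^ 2 = 1 := by
    intro e
    have h3 := Real.cos_sq_add_sin_sq (t e / 2)
    refine ⟨?_, ?_, h3⟩
    · conv_lhs => rw [show t e = 2 * (t e / 2) by ring]
      rw [Real.cos_two_mul]
      linarith
    · conv_lhs => rw [show t e = 2 * (t e / 2) by ring]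
      rw [Real.sin_two_mul]
  have hsum : ∀ p : G × G, H t (p.1 + p.2) + H 0 (p.1 - p.2) =
      ∑ e, 2 * J e * ((((χ e).c p.1 * Real.cos (t e / 2) - (χ e).s p.1 * Real.sin (t e / 2)) *
        ((χ e).c p.2 * Real.cos (t e / 2) - (χ e).s p.2 * Real.sin (t e / 2)))) := by
    intro p
    simp only [hH]
    rw [← Finset.sum_add_distrib]
    refine Finset.sum_congr rfl fun e _ => ?_
    obtain ⟨h3, h4⟩ := hs e p
    obtain ⟨h5, h6, h7⟩ := htrig e
    rw [(χ e).c_add, (χ e).s_add, h3, h4, h5, h6]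
    simp only [Pi.zero_apply, Real.cos_zero, Real.sin_zero]
    linear_combination (-(J e) * ((χ e).c p.1 * (χ e).c p.2 + (χ e).s p.1 * (χ e).s p.2)) * h7
  have r1 : ∀ p : G × G, Real.exp (H t (p.1 + p.2) + D (p.1 + p.2)) *
      Real.exp (H 0 (p.1 - p.2)) = Real.exp (∑ k, l' k * (f k p.1 * f k p.2)) := by
    intro p
    rw [← Real.exp_add]
    congr 1
    have : H t (p.1 + p.2) + D (p.1 + p.2) + H 0 (p.1 - p.2) =
        (H t (p.1 + p.2) + H 0 (p.1 - p.2)) + D (p.1 + p.2) := by ring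
    rw [this, hsum]
    rw [Fintype.sum_sum_type, Fintype.sum_sum_type]
    simp only [hl', hf, Sum.elim_inl, Sum.elim_inr, hD]
    congr 1
    rw [← Finset.sum_add_distrib]
    refine Finset.sum_congr rfl fun e _ => ?_
    rw [(χ e).c_add]
    ring
  have r2 : ∀ p : G × G, Real.exp (H t (p.1 + p.2)) *
      Real.exp (H 0 (p.1 - p.2) + D (p.1 - p.2)) =
      Real.exp (∑ k, l k * (f k p.1 * f k p.2)) := by
    intro p
    rw [← Real.exp_add]
    congr 1
    rw [← add_assoc, hsum]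
    rw [Fintype.sum_sum_type, Fintype.sum_sum_type]
    simp only [hl, hf, Sum.elim_inl, Sum.elim_inr, hD]
    congr 1
    rw [← Finset.sum_add_distrib]
    refine Finset.sum_congr rfl fun e _ => ?_
    rw [(hs e p).1]
    ring
  simp only [r1, r2]
  exact key

/-- second order expansion of the ratio -/
theorem ratio_Q {J : κ → ℝ} (χ : κ → Chr G) (hJ : ∀ e, 0 ≤ J e) (a : κ → ℝ) :
    ∃ C u0 : ℝ, 0 ≤ C ∧ 0 < u0 ∧ ∀ u : ℝ, 0 < u → u ≤ u0 →
      |Zr μ J χ (u • a) / Zr μ J χ 0 - (1 - u ^ 2 * Qform μ J χ a / 2)| ≤ C * u ^ 3 := by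
  obtain ⟨A, hA1, hA⟩ : ∃ A : ℝ, 1 ≤ A ∧ ∀ e, |a e| ≤ A := by
    refine ⟨1 + ∑ e, |a e|, ?_, fun e => ?_⟩
    · linarith [Finset.sum_nonneg fun e (_ : e ∈ Finset.univ) => abs_nonneg (a e)]
    · linarith [abs_le_sum a e]
  obtain ⟨S, hS⟩ : ∃ S, S = ∑ e, J e := ⟨_, rfl⟩
  have hS0 : 0 ≤ S := by rw [hS]; exact Finset.sum_nonneg fun e _ => hJ e
  have hA0 : 0 ≤ A := by linarith
  refine ⟨|K3 S| * A ^ 3, 1 / (6 * S * A + A), by positivity, by positivity, fun u hu hu0 => ?_⟩
  have hden : 0 < 6 * S * A + A := by positivity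
  have h1 : u * (6 * S * A + A) ≤ 1 := by
    rwa [le_div_iff₀ hden] at hu0
  have hSA : 0 ≤ u * (6 * S * A) := by positivity
  have hAu : 0 ≤ u * A := by positivity
  have h := ratio_expand_smul μ J χ hJ (t := 0) (a := a) (u := u) (A := A) hA0
    (by rw [abs_of_pos hu]; nlinarith) (by rw [abs_of_pos hu, ← hS]; nlinarith) hA
  rw [zero_add, jm_zero, mul_zero, sub_zero, ← hS, abs_of_pos hu] at h
  have hq : ex μ J χ 0 (Bt J χ 0 a a) - ex μ J χ 0 (fun x => Jt J χ 0 a x * Jt J χ 0 a x) =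
      Qform μ J χ a := by
    rw [← QQ_zero]
    unfold QQ
    rw [jm_zero]
    ring
  rw [hq] at h
  have e1 : (1 : ℝ) + -(u ^ 2 * Qform μ J χ a / 2) = 1 - u ^ 2 * Qform μ J χ a / 2 := by ring
  rw [e1] at h
  refine h.trans ?_
  calc K3 S * (u * A) ^ 3 ≤ |K3 S| * (u * A) ^ 3 :=
        mul_le_mul_of_nonneg_right (le_abs_self _) (by positivity)
    _ = |K3 S| * A ^ 3 * u ^ 3 := by ring

/-- **The quadratic form increases in the couplings of the bonds without twist.** -/
theorem Qform_mono (h2 : ∀ g : G, ∃ h : G, h + h = g) {J J' : κ → ℝ} (χ : κ → Chr G)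
    (hJ : ∀ e, 0 ≤ J e) (hJJ : ∀ e, J e ≤ J' e) {t : κ → ℝ} (ht : ∀ e, J e = J' e ∨ t e = 0) :
    Qform μ J χ t ≤ Qform μ J' χ t := by
  obtain ⟨C, u0, hC, hu0, h⟩ := ratio_Q μ χ hJ t
  obtain ⟨C', u1, hC', hu1, h'⟩ := ratio_Q μ χ (fun e => (hJ e).trans (hJJ e)) t
  have key : ∀ u : ℝ, 0 < u → u ≤ min u0 u1 → Qform μ J χ t - Qform μ J' χ t ≤
      2 * (C + C') * u := by
    intro u hu hle
    have g1 := abs_le.1 (h u hu (hle.trans (min_le_left _ _)))
    have g2 := abs_le.1 (h' u hu (hle.trans (min_le_right _ _)))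
    have g3 := Zr_mono μ h2 χ hJ hJJ (t := u • t) (fun e => (ht e).imp id fun h3 => by
      rw [Pi.smul_apply, h3, smul_zero])
    have g4 : Zr μ J' χ (u • t) / Zr μ J' χ 0 ≤ Zr μ J χ (u • t) / Zr μ J χ 0 := by
      rw [div_le_div_iff₀ (Zr_pos μ J' χ 0) (Zr_pos μ J χ 0)]
      exact g3
    have g5 : u ^ 2 * (Qform μ J χ t - Qform μ J' χ t) ≤ u ^ 2 * (2 * (C + C') * u) := by
      have : u ^ 2 * (2 * (C + C') * u) = 2 * (C * u ^ 3) + 2 * (C' * u ^ 3) := by ring
      rw [this]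
      linarith [g1.1, g1.2, g2.1, g2.2]
    exact le_of_mul_le_mul_left g5 (by positivity)
  by_contra hcon
  push Not at hcon
  set d := Qform μ J χ t - Qform μ J' χ t with hd
  have hd0 : 0 < d := by rw [hd]; linarith
  have hm : 0 < min u0 u1 := lt_min hu0 hu1
  have hCC : 0 ≤ C + C' := add_nonneg hC hC'
  obtain ⟨u, hu, hle, hlt⟩ : ∃ u : ℝ, 0 < u ∧ u ≤ min u0 u1 ∧ 2 * (C + C') * u < d := by
    refine ⟨min (min u0 u1) (d / (4 * (C + C') + 1)), by positivity, min_le_left _ _, ?_⟩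
    have h3 : min (min u0 u1) (d / (4 * (C + C') + 1)) ≤ d / (4 * (C + C') + 1) := min_le_right _ _
    calc 2 * (C + C') * min (min u0 u1) (d / (4 * (C + C') + 1)) ≤
        2 * (C + C') * (d / (4 * (C + C') + 1)) := mul_le_mul_of_nonneg_left h3 (by positivity)
      _ < d := by
        rw [← mul_div_assoc, div_lt_iff₀ (by positivity)]
        nlinarith
  linarith [key u hu hle]

end Main

end Vale.Agent.P159.T1.H532
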