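import Vale.Agent.P159.R2.H729.Grid
import Vale.Agent.P159.T1.H532.QDefs

/-!
Planarity of the quadrant box without the inner box: a chain from the far sides to the inner box
meets every chain from the left foot to the lower foot.
-/

set_option linter.all false
set_option autoImplicit false

namespace Vale.Agent.P159.T1.H532

open Vale.Agent.P159.R2.H729 Vale.Agent.P159.T1.D

/-- neighbours in the plane -/
def adjZ (u v : Z2) : Prop := |u.1 - v.1| + |u.2 - v.2| = 1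

/-- neighbours in the plane, with one of the two diagonals -/
def adjD (u v : Z2) : Prop :=
  u ≠ v ∧ |u.1 - v.1| ≤ 1 ∧ |u.2 - v.2| ≤ 1 ∧ |(u.1 - v.1) - (u.2 - v.2)| ≤ 1

theorem adjD_symm {u v : Z2} (h : adjD u v) : adjD v u := by
  unfold adjD at h ⊢
  obtain ⟨h1, h2, h3, h4⟩ := h
  rw [abs_le] at h2 h3 h4
  refine ⟨fun h => h1 h.symm, ?_, ?_, ?_⟩ <;> rw [abs_le] <;> constructor <;> omega

theorem adjD_of {u v : Z2} (h : adjZ u v) : adjD u v := by
  unfold adjZ at h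
  have a1 := abs_nonneg (u.1 - v.1)
  have a2 := abs_nonneg (u.2 - v.2)
  refine ⟨?_, by omega, by omega, ?_⟩
  · rintro rfl
    simp at h
  · have h1 : |u.1 - v.1| ≤ 1 := by omega
    exact (abs_sub _ _).trans h.le

/-- chains in a set of the plane -/
abbrev PZ (T : Set Z2) : Z2 → Z2 → Prop :=
  Relation.ReflTransGen fun a b => adjD a b ∧ a ∈ T ∧ b ∈ T

theorem PZ_symm {T : Set Z2} {u v : Z2} (h : PZ T u v) : PZ T v u := by
  induction h with
  | refl => exact Relation.ReflTransGen.refl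
  | tail _ h ih => exact Relation.ReflTransGen.head ⟨adjD_symm h.1, h.2.2, h.2.1⟩ ih

/-- chains along a row -/
theorem PZ_row {T : Set Z2} {i i' j : ℤ} (hi : i ≤ i') (h : ∀ k, i ≤ k → k ≤ i' → (k, j) ∈ T) :
    PZ T (i, j) (i', j) := by
  obtain ⟨n, rfl⟩ : ∃ n : ℕ, i' = i + n := ⟨(i' - i).toNat, by omega⟩
  induction n with
  | zero =>
    rw [show i + ((0 : ℕ) : ℤ) = i by simp]
  | succ n ih =>
    refine (ih (by omega) fun k h1 h2 => h k h1 (by push_cast; omega)).tail ⟨adjD_of ?_,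
      h _ (by omega) (by push_cast; omega), h _ (by omega) (by push_cast; omega)⟩
    unfold adjZ
    simp only [sub_self, abs_zero, add_zero]
    push_cast
    rw [show i + (n : ℤ) - (i + (n + 1)) = -1 by ring]
    simp

/-- chains along a column -/
theorem PZ_col {T : Set Z2} {i j j' : ℤ} (hj : j ≤ j') (h : ∀ k, j ≤ k → k ≤ j' → (i, k) ∈ T) :
    PZ T (i, j) (i, j') := by
  obtain ⟨n, rfl⟩ : ∃ n : ℕ, j' = j + n := ⟨(j' - j).toNat, by omega⟩
  induction n with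
  | zero =>
    rw [show j + ((0 : ℕ) : ℤ) = j by simp]
  | succ n ih =>
    refine (ih (by omega) fun k h1 h2 => h k h1 (by push_cast; omega)).tail ⟨adjD_of ?_,
      h _ (by omega) (by push_cast; omega), h _ (by omega) (by push_cast; omega)⟩
    unfold adjZ
    simp only [sub_self, abs_zero, zero_add]
    push_cast
    rw [show j + (n : ℤ) - (j + (n + 1)) = -1 by ring]
    simp

/-- **Crossing chains in the square `[-1, L-1]²`.** -/
theorem crossZ {L : ℕ} {T T' : Set Z2}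
    (hT : ∀ w ∈ T, -1 ≤ w.1 ∧ w.1 < L ∧ -1 ≤ w.2 ∧ w.2 < L)
    (hT' : ∀ w ∈ T', -1 ≤ w.1 ∧ w.1 < L ∧ -1 ≤ w.2 ∧ w.2 < L)
    {x y x' y' : Z2} (hx : x ∈ T) (hx1 : x.1 = -1) (hy : y ∈ T) (hy1 : y.1 = L - 1)
    (h : PZ T x y) (hx' : x' ∈ T') (hx1' : x'.2 = -1) (hy' : y' ∈ T') (hy1' : y'.2 = L - 1)
    (h' : PZ T' x' y') : (T ∩ T').Nonempty := by
  set ι : Fin (L + 1) × Fin (L + 1) → Z2 := fun c =>
    (((c.1 : ℕ) : ℤ) - 1, (L : ℤ) - 1 - ((c.2 : ℕ) : ℤ)) with hι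
  set g : Z2 → Fin (L + 1) × Fin (L + 1) := fun w =>
    (⟨(w.1 + 1).toNat % (L + 1), Nat.mod_lt _ (Nat.succ_pos L)⟩,
      ⟨((L : ℤ) - 1 - w.2).toNat % (L + 1), Nat.mod_lt _ (Nat.succ_pos L)⟩) with hg
  have hg1 : ∀ w : Z2, -1 ≤ w.1 → w.1 < L → (((g w).1 : ℕ) : ℤ) = w.1 + 1 := by
    intro w h1 h2
    show (((w.1 + 1).toNat % (L + 1) : ℕ) : ℤ) = w.1 + 1
    rw [Nat.mod_eq_of_lt (by omega)]
    omega
  have hg2 : ∀ w : Z2, -1 ≤ w.2 → w.2 < L → (((g w).2 : ℕ) : ℤ) = (L : ℤ) - 1 - w.2 := by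
    intro w h1 h2
    show ((((L : ℤ) - 1 - w.2).toNat % (L + 1) : ℕ) : ℤ) = (L : ℤ) - 1 - w.2
    rw [Nat.mod_eq_of_lt (by omega)]
    omega
  have hig : ∀ w : Z2, (-1 ≤ w.1 ∧ w.1 < L ∧ -1 ≤ w.2 ∧ w.2 < L) → ι (g w) = w := by
    intro w hw
    refine Prod.ext ?_ ?_
    · show (((g w).1 : ℕ) : ℤ) - 1 = w.1
      rw [hg1 w hw.1 hw.2.1]; ring
    · show (L : ℤ) - 1 - (((g w).2 : ℕ) : ℤ) = w.2
      rw [hg2 w hw.2.2.1 hw.2.2.2]; ring
  have lift : ∀ {T : Set Z2}, (∀ w ∈ T, -1 ≤ w.1 ∧ w.1 < L ∧ -1 ≤ w.2 ∧ w.2 < L) → ∀ {x y : Z2},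
      PZ T x y → Relation.ReflTransGen (fun a b => P198.PlanarTop.hadj a b ∧ b ∈ ι ⁻¹' T)
        (g x) (g y) := by
    intro T hT x y h
    refine Relation.ReflTransGen.lift (p := fun a b => P198.PlanarTop.hadj a b ∧ b ∈ ι ⁻¹' T) g
      (fun a b hab => ⟨?_, ?_⟩) _ _ h
    · have ha := hT a hab.2.1
      have hb := hT b hab.2.2
      have e1 := hg1 a ha.1 ha.2.1
      have e2 := hg1 b hb.1 hb.2.1
      have e3 := hg2 a ha.2.2.1 ha.2.2.2
      have e4 := hg2 b hb.2.2.1 hb.2.2.2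
      obtain ⟨h1, h2, h3, h4⟩ := hab.1
      refine ⟨fun h => h1 ?_, ?_, ?_, ?_⟩
      · rw [← hig a ha, ← hig b hb, h]
      · rw [e1, e2, add_sub_add_right_eq_sub]
        exact h2
      · rw [e3, e4, show (L : ℤ) - 1 - a.2 - ((L : ℤ) - 1 - b.2) = -(a.2 - b.2) by ring, abs_neg]
        exact h3
      · rw [e1, e2, e3, e4, show a.1 + 1 - (b.1 + 1) + ((L : ℤ) - 1 - a.2 - ((L : ℤ) - 1 - b.2)) =
          (a.1 - b.1) - (a.2 - b.2) by ring]
        exact h4
    · show ι (g b) ∈ T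
      rw [hig b (hT b hab.2.2)]
      exact hab.2.2
  have c1 : P198.PlanarTop.Conn P198.PlanarTop.hadj (ι ⁻¹' T) P198.PlanarTop.lft
      P198.PlanarTop.rgt := by
    refine ⟨g x, ⟨?_, ?_⟩, g y, ⟨?_, ?_⟩, lift hT h⟩
    · show ι (g x) ∈ T
      rw [hig x (hT x hx)]; exact hx
    · show ((g x).1 : ℕ) = 0
      have h1 := hg1 x (hT x hx).1 (hT x hx).2.1
      omega
    · show ι (g y) ∈ T
      rw [hig y (hT y hy)]; exact hy
    · show ((g y).1 : ℕ) + 1 = L + 1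
      have h1 := hg1 y (hT y hy).1 (hT y hy).2.1
      omega
  have c2 : P198.PlanarTop.Conn P198.PlanarTop.hadj (ι ⁻¹' T') P198.PlanarTop.bot
      P198.PlanarTop.top' := by
    refine ⟨g y', ⟨?_, ?_⟩, g x', ⟨?_, ?_⟩, lift hT' (PZ_symm h')⟩
    · show ι (g y') ∈ T'
      rw [hig y' (hT' y' hy')]; exact hy'
    · show ((g y').2 : ℕ) = 0
      have h1 := hg2 y' (hT' y' hy').2.2.1 (hT' y' hy').2.2.2
      omega
    · show ι (g x') ∈ T'
      rw [hig x' (hT' x' hx')]; exact hx'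
    · show ((g x').2 : ℕ) + 1 = L + 1
      have h1 := hg2 x' (hT' x' hx').2.2.1 (hT' x' hx').2.2.2
      omega
  obtain ⟨c, hc1, hc2⟩ := P198.PlanarTop.cross_board c2 c1
  exact ⟨ι c, hc2, hc1⟩

/-- **Crossing in the quadrant box.** `zl` and `zr` are the left and the lower foot, `p` gives the
positions of the other vertices. -/
theorem cross_box {V : Type*} (adj : V → V → Prop) (p : V → Z2) (zl zr : V) (a L : ℕ)
    (ha : 1 ≤ a) (hzz : zl ≠ zr)
    (hV : ∀ v, v ≠ zl → v ≠ zr → p v ∈ bxQ L)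
    (hinj : ∀ u v, u ≠ zl → u ≠ zr → v ≠ zl → v ≠ zr → p u = p v → u = v)
    (hadj : ∀ u v, adj u v → u ≠ zl → u ≠ zr → v ≠ zl → v ≠ zr → adjZ (p u) (p v))
    (hout : ∀ u v, adj u v → (u ≠ zl → u ≠ zr → p u ∉ bxQ a) ∧ (v ≠ zl → v ≠ zr → p v ∉ bxQ a))
    (hl : ∀ v, (adj zl v ∨ adj v zl) → v ≠ zl → v ≠ zr ∧ (p v).1 = 0)
    (hr : ∀ v, (adj zr v ∨ adj v zr) → v ≠ zr → v ≠ zl ∧ (p v).2 = 0)
    {A B : Set V} (hA : ∀ v ∈ A, v ≠ zl ∧ v ≠ zr ∧ ((p v).1 = L - 1 ∨ (p v).2 = L - 1))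
    (hB : ∀ v ∈ B, v = zl ∨ v = zr ∨ p v ∈ bxQ (a + 1)) :
    Cross adj A B {zl} {zr} := by
  intro S1 S2 h1 h2
  obtain ⟨x, ⟨hxS, hxA⟩, y, ⟨hyS, hyB⟩, hxy⟩ := h1
  obtain ⟨x', ⟨hxS', hx'⟩, y', ⟨hyS', hy'⟩, hxy'⟩ := h2
  have hx'' : x' = zl := hx'
  have hy'' : y' = zr := hy'
  subst hx'' hy''
  -- the feet
  by_cases zl1 : x' ∈ S1
  · exact ⟨x', zl1, hxS'⟩
  by_cases zr1 : y' ∈ S1
  · exact ⟨y', zr1, hyS'⟩
  have nf : ∀ v ∈ S1, v ≠ x' ∧ v ≠ y' := fun v hv =>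
    ⟨fun h => zl1 (h ▸ hv), fun h => zr1 (h ▸ hv)⟩
  obtain ⟨hxl, hxr, hxf⟩ := hA x hxA
  have hyf : p y ∈ bxQ (a + 1) := by
    rcases hB y hyB with h | h | h
    · exact absurd h (nf y hyS).1
    · exact absurd h (nf y hyS).2
    · exact h
  have hL : ∀ v, v ≠ x' → v ≠ y' → 0 ≤ (p v).1 ∧ (p v).1 < L ∧ 0 ≤ (p v).2 ∧ (p v).2 < L :=
    fun v h1 h2 => mem_bxQ.1 (hV v h1 h2)
  have haL : (a : ℤ) < L := by
    by_contra hcon
    push Not at hcon
    -- the face `x` is in the inner box; then the chain is trivial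
    have hx0 := hL x hxl hxr
    have hchain : ∀ v, v ≠ x' → v ≠ y' → p v ∈ bxQ a := by
      intro v h1 h2
      have := hL v h1 h2
      rw [mem_bxQ]
      omega
    -- no edge leaves the foot
    rcases Relation.ReflTransGen.cases_head hxy' with h | ⟨c, hc, -⟩
    · exact hzz h
    · by_cases hc1 : c = x'
      · -- use the last edge
        rcases Relation.ReflTransGen.cases_tail hxy' with h | ⟨d, -, hd⟩
        · exact hzz h.symm
        · by_cases hd1 : d = y'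
          · subst hd1
            -- walk along the chain: every vertex is `x'`
            have key : ∀ z, Relation.ReflTransGen (fun a b => adj a b ∧ a ∈ S2 ∧ b ∈ S2) x' z →
                z = x' := by
              intro z hz
              induction hz with
              | refl => rfl
              | @tail b c' _ hbc ih =>
                subst ih
                by_contra hne
                have h5 := (hl c' (Or.inl hbc.1) hne).1
                exact (hout _ _ hbc.1).2 hne h5 (hchain c' hne h5)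
            exact hzz (key _ hxy').symm
          · have h5 := (hr d (Or.inr hd.1) hd1).1
            exact (hout _ _ hd.1).1 h5 hd1 (hchain d h5 hd1)
      · have h5 := (hl c (Or.inl hc.1) hc1).1
        exact (hout _ _ hc.1).2 hc1 h5 (hchain c hc1 h5)
  have ha' : (1 : ℤ) ≤ a := by exact_mod_cast ha
  -- the two sets of the plane
  set T1 : Set Z2 := {w | (∃ v ∈ S1, p v = w) ∨ w ∈ bxQ a ∨ w = (-1, 0) ∨ w = (0, -1)} with hT1
  set T2 : Set Z2 := {w | (∃ v ∈ S2, v ≠ x' ∧ v ≠ y' ∧ p v ∉ bxQ a ∧ p v = w) ∨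
    (w.1 = -1 ∧ (a : ℤ) ≤ w.2 ∧ w.2 < L) ∨ (w.2 = -1 ∧ (a : ℤ) ≤ w.1 ∧ w.1 < L)} with hT2
  have b1 : ∀ w ∈ T1, -1 ≤ w.1 ∧ w.1 < L ∧ -1 ≤ w.2 ∧ w.2 < L := by
    rintro w (⟨v, hv, rfl⟩ | h | rfl | rfl)
    · have := hL v (nf v hv).1 (nf v hv).2
      omega
    · rw [mem_bxQ] at h
      omega
    · simp only; omega
    · simp only; omega
  have b2 : ∀ w ∈ T2, -1 ≤ w.1 ∧ w.1 < L ∧ -1 ≤ w.2 ∧ w.2 < L := by
    rintro w (⟨v, hv, e1, e2, -, rfl⟩ | h | h)
    · have := hL v e1 e2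
      omega
    · omega
    · omega
  -- the intersection
  have fin : (T1 ∩ T2).Nonempty → (S1 ∩ S2).Nonempty := by
    rintro ⟨w, hw1, hw2⟩
    rcases hw1 with ⟨v, hv, rfl⟩ | h | rfl | rfl
    · rcases hw2 with ⟨v', hv', e1, e2, -, e3⟩ | h | h
      · have := hinj v' v e1 e2 (nf v hv).1 (nf v hv).2 e3
        subst this
        exact ⟨v', hv, hv'⟩
      · have := hL v (nf v hv).1 (nf v hv).2
        omega
      · have := hL v (nf v hv).1 (nf v hv).2
        omega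
    · rcases hw2 with ⟨v', hv', e1, e2, e4, e3⟩ | h2 | h2
      · rw [e3] at e4
        exact absurd h e4
      · rw [mem_bxQ] at h
        omega
      · rw [mem_bxQ] at h
        omega
    · rcases hw2 with ⟨v', hv', e1, e2, e4, e3⟩ | h2 | h2
      · have := hL v' e1 e2
        rw [e3] at this
        simp only at this
        omega
      · simp only at h2; omega
      · simp only at h2; omega
    · rcases hw2 with ⟨v', hv', e1, e2, e4, e3⟩ | h2 | h2
      · have := hL v' e1 e2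
        rw [e3] at this
        simp only at this
        omega
      · simp only at h2; omega
      · simp only at h2; omega
  -- the second chain
  have k2 : PZ T2 (-1, (L : ℤ) - 1) ((L : ℤ) - 1, -1) := by
    classical
    set q : V → Z2 := fun v => if v = x' then (-1, (L : ℤ) - 1) else
      if v = y' then ((L : ℤ) - 1, -1) else p v with hq
    have q1 : q x' = (-1, (L : ℤ) - 1) := if_pos rfl
    have q2 : q y' = ((L : ℤ) - 1, -1) := by
      show (if y' = x' then _ else _) = _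
      rw [if_neg (Ne.symm hzz), if_pos rfl]
    have q3 : ∀ v, v ≠ x' → v ≠ y' → q v = p v := by
      intro v h1 h2
      show (if v = x' then _ else _) = _
      rw [if_neg h1, if_neg h2]
    have foot1 : ∀ v ∈ S2, v ≠ x' → v ≠ y' → (p v).1 = 0 → p v ∉ bxQ a →
        PZ T2 (-1, (L : ℤ) - 1) (p v) := by
      intro v hv h1 h2 h3 h4
      have h5 := hL v h1 h2
      have h6 : (a : ℤ) ≤ (p v).2 := by
        by_contra hcon
        exact h4 (mem_bxQ.2 ⟨by omega, by omega, by omega, by omega⟩)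
      refine (PZ_symm (PZ_col (by omega : (p v).2 ≤ (L : ℤ) - 1) fun k g1 g2 =>
        Or.inr (Or.inl ⟨rfl, by simp only; omega, by simp only; omega⟩))).tail ⟨adjD_of ?_, ?_, ?_⟩
      · unfold adjZ
        rw [h3]
        simp
      · exact Or.inr (Or.inl ⟨rfl, h6, h5.2.2.2⟩)
      · exact Or.inl ⟨v, hv, h1, h2, h4, rfl⟩
    have foot2 : ∀ v ∈ S2, v ≠ x' → v ≠ y' → (p v).2 = 0 → p v ∉ bxQ a →
        PZ T2 (p v) ((L : ℤ) - 1, -1) := by
      intro v hv h1 h2 h3 h4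
      have h5 := hL v h1 h2
      have h6 : (a : ℤ) ≤ (p v).1 := by
        by_contra hcon
        exact h4 (mem_bxQ.2 ⟨by omega, by omega, by omega, by omega⟩)
      refine Relation.ReflTransGen.head (b := ((p v).1, -1)) ⟨adjD_of ?_, ?_, ?_⟩
        (PZ_row (by omega : (p v).1 ≤ (L : ℤ) - 1) fun k g1 g2 =>
          Or.inr (Or.inr ⟨rfl, by simp only; omega, by simp only; omega⟩))
      · unfold adjZ
        rw [h3]
        simp
      · exact Or.inl ⟨v, hv, h1, h2, h4, rfl⟩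
      · exact Or.inr (Or.inr ⟨rfl, h6, h5.2.1⟩)
    have step : ∀ u v, (adj u v ∧ u ∈ S2 ∧ v ∈ S2) → PZ T2 (q u) (q v) := by
      intro u v huv
      obtain ⟨e1, e2, e3⟩ := huv
      have o := hout u v e1
      by_cases hu1 : u = x'
      · by_cases hv1 : v = x'
        · rw [hu1, hv1]
        · have hv2 := hl v (Or.inl (hu1 ▸ e1)) hv1
          rw [hu1, q1, q3 v hv1 hv2.1]
          exact foot1 v e3 hv1 hv2.1 hv2.2 (o.2 hv1 hv2.1)
      · by_cases hu2 : u = y'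
        · by_cases hv1 : v = y'
          · rw [hu2, hv1]
          · have hv2 := hr v (Or.inl (hu2 ▸ e1)) hv1
            rw [hu2, q2, q3 v hv2.1 hv1]
            exact PZ_symm (foot2 v e3 hv2.1 hv1 hv2.2 (o.2 hv2.1 hv1))
        · by_cases hv1 : v = x'
          · have hu3 := hl u (Or.inr (hv1 ▸ e1)) hu1
            rw [hv1, q1, q3 u hu1 hu2]
            exact PZ_symm (foot1 u e2 hu1 hu2 hu3.2 (o.1 hu1 hu2))
          · by_cases hv2 : v = y'
            · have hu3 := hr u (Or.inr (hv2 ▸ e1)) hu2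
              rw [hv2, q2, q3 u hu1 hu2]
              exact foot2 u e2 hu1 hu2 hu3.2 (o.1 hu1 hu2)
            · rw [q3 u hu1 hu2, q3 v hv1 hv2]
              exact Relation.ReflTransGen.single ⟨adjD_of (hadj u v e1 hu1 hu2 hv1 hv2),
                Or.inl ⟨u, e2, hu1, hu2, o.1 hu1 hu2, rfl⟩,
                Or.inl ⟨v, e3, hv1, hv2, o.2 hv1 hv2, rfl⟩⟩
    have key := Relation.ReflTransGen.lift' (p := fun a b => adjD a b ∧ a ∈ T2 ∧ b ∈ T2) q
      step _ _ hxy'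
    show PZ T2 _ _
    rw [← q1, ← q2]
    exact key
  -- the first chain
  have k1 : PZ T1 (p x) (p y) := by
    refine Relation.ReflTransGen.lift (p := fun a b => adjD a b ∧ a ∈ T1 ∧ b ∈ T1) p
      (fun u v huv => ⟨adjD_of ?_, ?_, ?_⟩) _ _ hxy
    · exact hadj u v huv.1 (nf u huv.2.1).1 (nf u huv.2.1).2 (nf v huv.2.2).1 (nf v huv.2.2).2
    · exact Or.inl ⟨u, huv.2.1, rfl⟩
    · exact Or.inl ⟨v, huv.2.2, rfl⟩
  have hyT : p y ∈ T1 := Or.inl ⟨y, hyS, rfl⟩
  have hxT : p x ∈ T1 := Or.inl ⟨x, hxS, rfl⟩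
  have inbox : ∀ w : Z2, 0 ≤ w.1 → w.1 < a → 0 ≤ w.2 → w.2 < a → w ∈ T1 := fun w h1 h2 h3 h4 =>
    Or.inr (Or.inl (mem_bxQ.2 ⟨h1, h2, h3, h4⟩))
  -- inside the inner box
  have k0 : ∀ w : Z2, 0 ≤ w.1 → w.1 < a → 0 ≤ w.2 → w.2 < a → PZ T1 w (0, 0) := by
    intro w h1 h2 h3 h4
    refine (PZ_symm (PZ_col (i := w.1) (j := 0) (j' := w.2) h3 fun k g1 g2 =>
      inbox _ h1 h2 g1 (by simp only; omega))).trans ?_
    exact PZ_symm (PZ_row h1 fun k g1 g2 => inbox _ g1 (by simp only; omega) le_rfl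
      (by simp only; omega))
  -- from `y` to the corner
  have k3 : PZ T1 (p y) (0, 0) := by
    have h5 := mem_bxQ.1 hyf
    push_cast at h5
    by_cases c : (p y).1 < a ∧ (p y).2 < a
    · exact k0 _ h5.1 c.1 h5.2.2.1 c.2
    · obtain ⟨w, hw⟩ : ∃ w : Z2, w = (min (p y).1 ((a : ℤ) - 1), min (p y).2 ((a : ℤ) - 1)) :=
        ⟨_, rfl⟩
      have w1 : w.1 = min (p y).1 ((a : ℤ) - 1) := by rw [hw]
      have w2 : w.2 = min (p y).2 ((a : ℤ) - 1) := by rw [hw]
      refine Relation.ReflTransGen.head (b := w) ⟨⟨?_, ?_, ?_, ?_⟩, hyT, ?_⟩ (k0 w ?_ ?_ ?_ ?_)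
      · intro h
        apply c
        constructor
        · have := congrArg Prod.fst h
          omega
        · have := congrArg Prod.snd h
          omega
      · rw [abs_le]; constructor <;> omega
      · rw [abs_le]; constructor <;> omega
      · rw [abs_le]; constructor <;> omega
      · exact inbox w (by omega) (by omega) (by omega) (by omega)
      · omega
      · omega
      · omega
      · omega
  have hc0 : ((0 : ℤ), (0 : ℤ)) ∈ T1 := inbox _ le_rfl (by simp only; omega) le_rfl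
    (by simp only; omega)
  have k4 : PZ T1 (-1, 0) (0, 0) := Relation.ReflTransGen.single
    ⟨adjD_of (by unfold adjZ; simp), Or.inr (Or.inr (Or.inl rfl)), hc0⟩
  have k5 : PZ T1 (0, -1) (0, 0) := Relation.ReflTransGen.single
    ⟨adjD_of (by unfold adjZ; simp), Or.inr (Or.inr (Or.inr rfl)), hc0⟩
  have t1 : ((-1 : ℤ), (L : ℤ) - 1) ∈ T2 := Or.inr (Or.inl ⟨rfl, by simp only; omega,
    by simp only; omega⟩)
  have t2 : ((L : ℤ) - 1, (-1 : ℤ)) ∈ T2 := Or.inr (Or.inr ⟨rfl, by simp only; omega,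
    by simp only; omega⟩)
  apply fin
  rcases hxf with hxf | hxf
  · exact crossZ b1 b2 (x := (-1, 0)) (y := p x) (Or.inr (Or.inr (Or.inl rfl))) rfl hxT hxf
      (k4.trans (PZ_symm (k1.trans k3))) t2 rfl t1 rfl (PZ_symm k2)
  · have := crossZ b2 b1 (x' := (0, -1)) (y' := p x) t1 rfl t2 rfl k2
      (Or.inr (Or.inr (Or.inr rfl))) rfl hxT hxf (k5.trans (PZ_symm (k1.trans k3)))
    rwa [Set.inter_comm] at this

end Vale.Agent.P159.T1.H532
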