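import Vale.Agent.P159.T1.H532.QVar
import Vale.Agent.P159.T1.H532.QDefs

/-!
The quadratic form of the box is at most the variance of the heights, in the language of
`T1/D/Defs.lean`.
-/

set_option linter.all false
set_option autoImplicit false

open MeasureTheory Filter Topology
open scoped BigOperators

namespace Vale.Agent.P159.T1.H532

open Vale.Agent.P159 Vale.Agent.P159.H353 Vale.Agent.P159.R2.H254 Vale.Agent.P159.T1.H857
  Vale.Agent.P159.UJ Vale.Agent.P159.H950 Vale.Agent.P159.T1.H931 Vale.Agent.P159.T1.H934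
  Vale.Agent.P159.T1.H910 Vale.Agent.P159.T1.D

variable {L : ℕ}

theorem emb_mem (v : QA L) : emb v ∈ bxQ L := by
  rw [mem_bxQ]
  obtain ⟨⟨a, ha⟩, ⟨b, hb⟩⟩ := v
  unfold emb
  simp only
  omega

/-- heights on the plane and on the graph -/
def eqH (L : ℕ) : Ht (bxQ L) ≃ QH L where
  toFun g := ⟨fun x => x.elim 0 fun v => g.1 (emb v), rfl⟩
  invFun h := ⟨fun f => h.1 (toO L f), fun f hf => by
    show h.1 (toO L f) = 0
    rw [toO_none (by rw [mem_bxQ] at hf; exact hf), h.2]⟩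
  left_inv g := by
    apply Subtype.ext
    funext f
    show (toO L f).elim 0 (fun v => g.1 (emb v)) = g.1 f
    by_cases hf : f ∈ bxQ L
    · have h := mem_bxQ.1 hf
      unfold toO
      rw [dif_pos h]
      show g.1 (emb _) = g.1 f
      refine congrArg g.1 ?_
      unfold emb
      refine Prod.ext ?_ ?_
      · simp only; omega
      · simp only; omega
    · rw [toO_none (by rw [mem_bxQ] at hf; exact hf), g.2 f hf]
      rfl
  right_inv h := by
    apply Subtype.ext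
    funext x
    cases x with
    | none => exact h.2.symm
    | some v =>
      show h.1 (toO L (emb v)) = h.1 (some v)
      rw [toO_emb]

/-- bonds of the plane -/
def eb (e : QE L) : Bnd := (emb e.1, !e.2)

theorem eb_inj : Function.Injective (eb (L := L)) := by
  rintro ⟨v, β⟩ ⟨w, γ⟩ h
  unfold eb at h
  simp only [Prod.mk.injEq] at h
  rw [emb_inj h.1]
  have := h.2
  cases β <;> cases γ <;> simp_all

theorem sum_SQ (F : Bnd → ℝ) : ∑ e ∈ SQ L, F e = ∑ e : QE L, F (eb e) := by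
  symm
  refine Finset.sum_bij (fun e _ => eb e) (fun e _ => ?_) (fun e _ e' _ h => eb_inj h)
    (fun e he => ?_) (fun e _ => rfl)
  · rw [mem_SQ]
    exact emb_mem e.1
  · rw [mem_SQ, mem_bxQ] at he
    obtain ⟨⟨i, j⟩, β⟩ := e
    simp only at he
    refine ⟨((⟨i.toNat, by omega⟩, ⟨j.toNat, by omega⟩), !β), Finset.mem_univ _, ?_⟩
    unfold eb emb
    simp only [Bool.not_not]
    congr 2
    · omega
    · omega

theorem prod_SQ (F : Bnd → ℝ) : ∏ e ∈ SQ L, F e = ∏ e : QE L, F (eb e) := by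
  symm
  refine Finset.prod_bij (fun e _ => eb e) (fun e _ => ?_) (fun e _ e' _ h => eb_inj h)
    (fun e he => ?_) (fun e _ => rfl)
  · rw [mem_SQ]
    exact emb_mem e.1
  · rw [mem_SQ, mem_bxQ] at he
    obtain ⟨⟨i, j⟩, β⟩ := e
    simp only at he
    refine ⟨((⟨i.toNat, by omega⟩, ⟨j.toNat, by omega⟩), !β), Finset.mem_univ _, ?_⟩
    unfold eb emb
    simp only [Bool.not_not]
    congr 2
    · omega
    · omega

theorem JQ_eb (b : ℝ) (e : QE L) : JQ b (b / 2) (eb e) = Jq b e := by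
  obtain ⟨v, β⟩ := e
  unfold JQ Jq eb emb
  cases β
  · simp only [Bool.not_false, if_true, Bool.false_eq_true, if_false]
    by_cases h : 0 < v.1.1
    · rw [if_neg (by omega), if_pos h]
    · rw [if_pos (by omega), if_neg h]
  · simp only [Bool.not_true, if_true, Bool.false_eq_true, if_false]
    by_cases h : 0 < v.2.1
    · rw [if_neg (by omega), if_pos h]
    · rw [if_pos (by omega), if_neg h]

theorem toO_left (v : QA L) : toO L ((v.1.1 : ℤ) - 1, (v.2.1 : ℤ)) =
    if 0 < v.1.1 then some (dn v.1, v.2) else none := by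
  obtain ⟨⟨a, ha⟩, ⟨c, hc⟩⟩ := v
  simp only
  split_ifs with h
  · have h1 := toO_nat (L := L) (i := a - 1) (j := c) (by omega) hc
    have e1 : (((a - 1 : ℕ) : ℤ), (c : ℤ)) = ((a : ℤ) - 1, (c : ℤ)) := by
      congr 1
      omega
    rw [e1] at h1
    exact h1
  · rw [toO_none]
    unfold QI
    simp only [Set.mem_setOf_eq]
    omega

theorem toO_down (v : QA L) : toO L ((v.1.1 : ℤ), (v.2.1 : ℤ) - 1) =
    if 0 < v.2.1 then some (v.1, dn v.2) else none := by
  obtain ⟨⟨a, ha⟩, ⟨c, hc⟩⟩ := v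
  simp only
  split_ifs with h
  · have h1 := toO_nat (L := L) (i := a) (j := c - 1) ha (by omega)
    have e1 : ((a : ℤ), ((c - 1 : ℕ) : ℤ)) = ((a : ℤ), (c : ℤ) - 1) := by
      congr 1
      omega
    rw [e1] at h1
    exact h1
  · rw [toO_none]
    unfold QI
    simp only [Set.mem_setOf_eq]
    omega

/-- the gradient -/
theorem dh_eb (h : QH L) (e : QE L) : dh ((eqH L).symm h).1 (eb e) = cu h.1 e := by
  obtain ⟨v, β⟩ := e
  have hv : toO L ((v.1.1 : ℤ), (v.2.1 : ℤ)) = some v := toO_emb v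
  cases β
  · rw [cu_false _ _ h.2]
    show h.1 (toO L ((v.1.1 : ℤ) - 1, (v.2.1 : ℤ))) - h.1 (toO L ((v.1.1 : ℤ), (v.2.1 : ℤ))) = _
    rw [toO_left, hv]
    split_ifs
    · rfl
    · rw [h.2]
  · rw [cu_true _ _ h.2]
    show h.1 (toO L ((v.1.1 : ℤ), (v.2.1 : ℤ))) - h.1 (toO L ((v.1.1 : ℤ), (v.2.1 : ℤ) - 1)) = _
    rw [toO_down, hv]
    split_ifs
    · rfl
    · rw [h.2]

/-- sums over the heights -/
theorem FF_QH (b : ℝ) (F : (Z2 → ℤ) → ℝ) : FF (JQ b (b / 2)) (SQ L) (bxQ L) F =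
    ∑' h : QH L, (∏ e, wI (Jq b e) (cu h.1 e)) * F ((eqH L).symm h).1 := by
  unfold FF
  rw [← (eqH L).symm.tsum_eq]
  refine tsum_congr fun h => ?_
  congr 1
  rw [prod_SQ]
  refine Finset.prod_congr rfl fun e _ => ?_
  rw [JQ_eb, dh_eb]

/-- the field of the cells given by a field on the bonds -/
def fb (y : Bnd → ℝ) : Fld := fun v d => y (v, d)

/-- **The quadratic form is at most the variance of the heights.** -/
theorem Qform_le_FF {b : ℝ} (hb : 0 ≤ b) (y : Bnd → ℝ)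
    (hY1 : ∀ i : ℕ, y (((i : ℤ), (L : ℤ)), false) = 0)
    (hY2 : ∀ j : ℕ, y (((L : ℤ), (j : ℤ)), true) = 0) :
    Qform muInf (fun _ : KR (blk 0 L) => b / 2) (chiI (blk 0 L) (QI L)) (tb (blk 0 L) (fb y)) *
      FF (JQ b (b / 2)) (SQ L) (bxQ L) (fun _ => 1) ≤
    FF (JQ b (b / 2)) (SQ L) (bxQ L) (fun h => (∑ e ∈ SQ L, y e * (dh h e : ℝ)) ^ 2) := by
  have h := Qform_le_ZZ (L := L) hb (fb y) hY1 hY2
  rw [← tsum_ZZ b (fun _ => 1), ← tsum_ZZ b (fun h =>
    (∑ e, aq (uq (fb y)) e * (grd qs qt h e : ℝ)) ^ 2)] at h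
  rw [FF_QH, FF_QH]
  refine h.trans (le_of_eq (tsum_congr fun h => ?_))
  congr 2
  rw [← sum_cu, sum_SQ]
  refine Finset.sum_congr rfl fun e _ => ?_
  rw [dh_eb]
  rfl

end Vale.Agent.P159.T1.H532
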