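import Vale.Agent.P159.T1.H532.QZr
import Vale.Agent.P159.T1.H910.CosCut

/-!
The quadratic form of the box is at most the variance of the heights.
-/

set_option linter.all false
set_option autoImplicit false

open MeasureTheory Filter Topology
open scoped BigOperators

namespace Vale.Agent.P159.T1.H532

open Vale.Agent.P159 Vale.Agent.P159.H353 Vale.Agent.P159.R2.H254 Vale.Agent.P159.T1.H857
  Vale.Agent.P159.UJ Vale.Agent.P159.H950 Vale.Agent.P159.T1.H931 Vale.Agent.P159.T1.H934
  Vale.Agent.P159.T1.H910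

variable {L : ℕ}

/-- the graph of the faces is connected -/
theorem conn_q : Conn (qs (L := L)) qt := by
  have key : ∀ (m : ℕ) (v : QA L), v.1.1 = m →
      Relation.ReflTransGen (adjG (qs (L := L)) qt) (some v) none := by
    intro m
    induction m with
    | zero =>
      intro v hv
      refine Relation.ReflTransGen.single ⟨(v, false), Or.inl ⟨rfl, ?_⟩⟩
      unfold qt
      simp only [Bool.false_eq_true, if_false]
      rw [if_neg (by omega)]
    | succ m ih =>
      intro v hv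
      refine Relation.ReflTransGen.head (b := some (dn v.1, v.2)) ⟨(v, false), Or.inl ⟨rfl, ?_⟩⟩
        (ih _ (by simp only [dn]; omega))
      unfold qt
      simp only [Bool.false_eq_true, if_false]
      rw [if_pos (by omega)]
  have hn : ∀ u : Option (QA L), Relation.ReflTransGen (adjG (qs (L := L)) qt) u none := by
    intro u
    cases u with
    | none => exact Relation.ReflTransGen.refl
    | some v => exact key _ v rfl
  have hsym : ∀ a b, adjG (qs (L := L)) qt a b → adjG (qs (L := L)) qt b a := by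
    rintro a b ⟨e, h | h⟩
    · exact ⟨e, Or.inr ⟨h.1, h.2⟩⟩
    · exact ⟨e, Or.inl ⟨h.1, h.2⟩⟩
  have hrev : ∀ a b, Relation.ReflTransGen (adjG (qs (L := L)) qt) a b →
      Relation.ReflTransGen (adjG (qs (L := L)) qt) b a := by
    intro a b h
    induction h with
    | refl => exact Relation.ReflTransGen.refl
    | tail _ hab ih => exact Relation.ReflTransGen.head (hsym _ _ hab) ih
  intro u v
  exact (hn u).trans (hrev _ _ (hn v))

/-- the gradient in terms of the currents -/
theorem wI_cu (b : ℝ) (h : Option (QA L) → ℤ) (e : QE L) :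
    wI b (cu h e) = wI b (grd qs qt h e) := by
  unfold cu
  show _ = wI b (h (qt e) - h (qs e))
  split_ifs
  · rw [show h (qs e) - h (qt e) = -(h (qt e) - h (qs e)) by ring, wI_neg]
  · rfl

open Classical in
/-- sums over the heights which vanish at `none` -/
theorem tsum_QH (f : (Option (QA L) → ℤ) → ℝ) :
    ∑' h : QH L, f h.1 = ∑' h : Option (QA L) → ℤ, if ∀ v ∈ ({none} : Set (Option (QA L))), h v = 0
      then f h else 0 := by
  have h1 := tsum_subtype {h : Option (QA L) → ℤ | h none = 0} f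
  refine (show ∑' h : QH L, f h.1 = ∑' x : {h : Option (QA L) → ℤ | h none = 0}, f x.1 from rfl).trans
    (h1.trans (tsum_congr fun h => ?_))
  by_cases h2 : h none = 0
  · rw [Set.indicator_of_mem (show h ∈ {h : Option (QA L) → ℤ | h none = 0} from h2), if_pos]
    intro v hv
    rw [Set.mem_singleton_iff.1 hv]
    exact h2
  · rw [Set.indicator_of_notMem (show h ∉ {h : Option (QA L) → ℤ | h none = 0} from h2), if_neg]
    intro h3
    exact h2 (h3 none rfl)

/-- weight of the heights -/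
theorem prod_cu (b : ℝ) (h : Option (QA L) → ℤ) : ∏ e, wI (Jq b e) (cu h e) =
    W (grd qs qt) (Jq b) h := by
  unfold W
  exact Finset.prod_congr rfl fun e _ => wI_cu _ h e

theorem tsum_ZZ (b : ℝ) (f : (Option (QA L) → ℤ) → ℝ) :
    ∑' h : QH L, (∏ e, wI (Jq b e) (cu h.1 e)) * f h.1 = H910.ZZ qs qt (Jq b) {none} f := by
  rw [tsum_QH (fun h => (∏ e, wI (Jq b e) (cu h e)) * f h)]
  unfold H910.ZZ
  refine tsum_congr fun h => ?_
  rw [prod_cu]
  by_cases h2 : ∀ v ∈ ({none} : Set (Option (QA L))), h v = 0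
  · rw [if_pos h2, if_pos h2]
  · rw [if_neg h2, if_neg h2]

/-- coefficients of the gradient -/
def aq (u : QE L → ℝ) (e : QE L) : ℝ := if e.2 then -u e else u e

theorem sum_cu (u : QE L → ℝ) (h : Option (QA L) → ℤ) :
    ∑ e, u e * (cu h e : ℝ) = ∑ e, aq u e * (grd qs qt h e : ℝ) := by
  refine Finset.sum_congr rfl fun e _ => ?_
  unfold cu aq
  show _ = _ * ((h (qt e) - h (qs e) : ℤ) : ℝ)
  split_ifs
  · push_cast; ring
  · rfl

/-- charges of a field -/
noncomputable def rq (a : QE L → ℝ) (v : Option (QA L)) : ℝ :=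
  ∑ e, ((if qt e = v then a e else 0) - (if qs e = v then a e else 0))

theorem li_rq (a : QE L → ℝ) (h : Option (QA L) → ℤ) :
    li (rq a) h = ∑ e, a e * (grd qs qt h e : ℝ) := by
  classical
  unfold li rq
  simp only [Finset.sum_mul]
  rw [Finset.sum_comm]
  refine Finset.sum_congr rfl fun e _ => ?_
  simp only [sub_mul, ite_mul, zero_mul]
  rw [Finset.sum_sub_distrib, Finset.sum_ite_eq Finset.univ (qt e) (fun v => a e * (h v : ℝ)),
    Finset.sum_ite_eq Finset.univ (qs e) (fun v => a e * (h v : ℝ))]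
  simp only [Finset.mem_univ, if_true]
  show a e * (h (qt e) : ℝ) - a e * (h (qs e) : ℝ) = a e * ((h (qt e) - h (qs e) : ℤ) : ℝ)
  push_cast
  ring

theorem summ_q {b : ℝ} (hb : 0 ≤ b) (a : QE L → ℝ) {f : (Option (QA L) → ℤ) → ℝ} {C : ℝ}
    (hf : ∀ h, |f h| ≤ C * Real.exp |li (rq a) h|) :
    Summable fun h : QH L => (∏ e, wI (Jq b e) (cu h.1 e)) * f h.1 := by
  classical
  have h1 := (summable_ZZ (conn_q (L := L)) (J := Jq b) (fun e => Jq_nonneg hb e)
    (X := {none}) ⟨none, rfl⟩ (rq a) hf).of_abs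
  have h2 := h1.comp_injective (i := fun h : QH L => h.1) Subtype.val_injective
  refine h2.congr fun h => ?_
  simp only [Function.comp]
  rw [if_pos (fun v hv => by rw [Set.mem_singleton_iff.1 hv]; exact h.2), prod_cu]

/-- **The quadratic form of the spins is at most the variance of the heights.** -/
theorem Qform_le_ZZ {b : ℝ} (hb : 0 ≤ b) (Y : Fld)
    (hY1 : ∀ i : ℕ, Y ((i : ℤ), (L : ℤ)) false = 0)
    (hY2 : ∀ j : ℕ, Y ((L : ℤ), (j : ℤ)) true = 0) :
    Qform muInf (fun _ : KR (blk 0 L) => b / 2) (chiI (blk 0 L) (QI L)) (tb (blk 0 L) Y) *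
      H910.ZZ qs qt (Jq (L := L) b) {none} (fun _ => 1) ≤
    H910.ZZ qs qt (Jq (L := L) b) {none} (fun h => (∑ e, aq (uq Y) e * (grd qs qt h e : ℝ)) ^ 2) := by
  set Q := Qform muInf (fun _ : KR (blk 0 L) => b / 2) (chiI (blk 0 L) (QI L))
    (tb (blk 0 L) Y) with hQ
  set w : QH L → ℝ := fun h => ∏ e, wI (Jq b e) (cu h.1 e) with hw
  have w0 : ∀ h, 0 ≤ w h := fun h => Finset.prod_nonneg fun e _ => wI_nonneg (Jq_nonneg hb e) _
  set X : (Option (QA L) → ℤ) → ℝ := fun h => ∑ e, aq (uq Y) e * (grd qs qt h e : ℝ) with hX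
  have hXl : ∀ h, X h = li (rq (aq (uq Y))) h := fun h => (li_rq _ h).symm
  have s1 : Summable fun h : QH L => w h * 1 :=
    summ_q hb (aq (uq Y)) (f := fun _ => 1) (C := 1) fun h => by
      rw [abs_one, one_mul]
      exact Real.one_le_exp (abs_nonneg _)
  have s2 : Summable fun h : QH L => w h * X h.1 ^ 2 :=
    summ_q hb (aq (uq Y)) (f := fun h => X h ^ 2) (C := 2) fun h => by
      rw [hXl]
      exact sq_le' _ h
  have e0 : H910.ZZ qs qt (Jq (L := L) b) {none} (fun _ => 1) = ∑' h : QH L, w h * 1 :=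
    (tsum_ZZ b fun _ => 1).symm
  have e2 : H910.ZZ qs qt (Jq (L := L) b) {none} (fun h => X h ^ 2) = ∑' h : QH L, w h * X h.1 ^ 2 :=
    (tsum_ZZ b fun h => X h ^ 2).symm
  set S0 := ∑' h : QH L, w h * 1 with hS0
  set S2 := ∑' h : QH L, w h * X h.1 ^ 2 with hS2
  rw [e0, e2]
  have i0 : Iq L b 0 = S0 := by
    have h := (Iq_heights (L := L) hb 0).tsum_eq
    rw [← h]
    refine tsum_congr fun h => ?_
    simp only [Pi.zero_apply, zero_mul, Finset.sum_const_zero, Real.cos_zero, hw]
  have hz0 : Zr muInf (fun _ : KR (blk 0 L) => b / 2) (chiI (blk 0 L) (QI L)) 0 =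
      Real.exp (L * b) * S0 := by
    have h := Zr_quad (L := L) b 0 (fun _ => rfl) (fun _ => rfl)
    have e1 : tb (blk 0 L) (0 : Fld) = 0 := by
      funext e; rfl
    have e3 : (uq (0 : Fld) : QE L → ℝ) = 0 := by
      funext e; rfl
    rw [e1, e3, i0] at h
    exact h
  have hS0p : 0 < S0 := by
    have h := Zr_pos muInf (fun _ : KR (blk 0 L) => b / 2) (chiI (blk 0 L) (QI L)) 0
    rw [hz0] at h
    exact (pos_iff_pos_of_mul_pos h).1 (Real.exp_pos _)
  have hlow : ∀ s : ℝ, S0 - s ^ 2 * S2 / 2 ≤ Iq L b (fun e => s * uq Y e) := by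
    intro s
    have h := Iq_heights (L := L) hb (fun e => s * uq Y e)
    have h3 := (s1.hasSum).sub ((s2.hasSum).mul_left (s ^ 2 / 2))
    have h4 : S0 - s ^ 2 / 2 * S2 ≤ Iq L b (fun e => s * uq Y e) := by
      refine hasSum_le (fun g => ?_) h3 h
      have h5 : ∑ e, s * uq Y e * (cu g.1 e : ℝ) = s * X g.1 := by
        rw [hX]
        simp only
        rw [← sum_cu, Finset.mul_sum]
        exact Finset.sum_congr rfl fun e _ => by ring
      rw [h5]
      have h6 := Real.one_sub_sq_div_two_le_cos (x := s * X g.1)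
      have h7 : w g * (1 - (s * X g.1) ^ 2 / 2) ≤ w g * Real.cos (s * X g.1) :=
        mul_le_mul_of_nonneg_left h6 (w0 g)
      calc w g * 1 - s ^ 2 / 2 * (w g * X g.1 ^ 2) = w g * (1 - (s * X g.1) ^ 2 / 2) := by ring
        _ ≤ _ := h7
    linarith
  obtain ⟨C, u0, hC, hu0, h⟩ := ratio_Q muInf (J := fun _ : KR (blk 0 L) => b / 2)
    (chiI (blk 0 L) (QI L)) (half_nonneg' hb (blk 0 L)) (tb (blk 0 L) Y)
  have key : ∀ s : ℝ, 0 < s → s ≤ u0 → Q * S0 - S2 ≤ 2 * C * S0 * s := by
    intro s hs hle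
    have h1 := (abs_le.1 (h s hs hle)).2
    have h2 : Zr muInf (fun _ : KR (blk 0 L) => b / 2) (chiI (blk 0 L) (QI L))
        (s • tb (blk 0 L) Y) = Real.exp (L * b) * Iq L b (fun e => s * uq Y e) := by
      have h3 := Zr_quad (L := L) b (s • Y) (fun i => by simp [hY1 i]) (fun j => by simp [hY2 j])
      have e1 : tb (blk 0 L) (s • Y) = s • tb (blk 0 L) Y := by
        funext e; rfl
      have e3 : (uq (s • Y) : QE L → ℝ) = fun e => s * uq Y e := by
        funext e; rfl
      rw [e1, e3] at h3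
      exact h3
    rw [h2, hz0, mul_div_mul_left _ _ (Real.exp_pos _).ne', ← hQ] at h1
    have h4 : Iq L b (fun e => s * uq Y e) / S0 ≤ 1 - s ^ 2 * Q / 2 + C * s ^ 3 := by linarith
    rw [div_le_iff₀ hS0p] at h4
    have h5 := hlow s
    have h6 : s ^ 2 * (Q * S0 - S2) ≤ s ^ 2 * (2 * C * S0 * s) := by nlinarith
    exact le_of_mul_le_mul_left h6 (by positivity)
  by_contra hcon
  push Not at hcon
  have hd : 0 < Q * S0 - S2 := by linarith
  obtain ⟨s, hs, hle, hlt⟩ : ∃ s : ℝ, 0 < s ∧ s ≤ u0 ∧ 2 * C * S0 * s < Q * S0 - S2 := by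
    set d := Q * S0 - S2
    refine ⟨min u0 (d / (4 * C * S0 + 1)), by positivity, min_le_left _ _, ?_⟩
    calc 2 * C * S0 * min u0 (d / (4 * C * S0 + 1)) ≤ 2 * C * S0 * (d / (4 * C * S0 + 1)) :=
          mul_le_mul_of_nonneg_left (min_le_right _ _) (by positivity)
      _ < d := by
        rw [← mul_div_assoc, div_lt_iff₀ (by positivity)]
        have : 0 ≤ C * S0 * d := by positivity
        nlinarith
  linarith [key s hs hle]

end Vale.Agent.P159.T1.H532
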