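import Vale.Agent.P159.T1.H532.QDual
import Vale.Agent.P159.T1.H532.Mono
import Vale.Agent.P159.T1.H931.Dom
import Vale.Agent.P159.H950.B2

/-!
The twisted partition functions of the box with free left and lower sides and wired right and
upper sides, as integrals over the free spins and as sums over heights.
-/

set_option linter.all false
set_option autoImplicit false

open MeasureTheory Filter Topology
open scoped BigOperators

namespace Vale.Agent.P159.T1.H532

open Vale.Agent.P159 Vale.Agent.P159.H353 Vale.Agent.P159.R2.H254 Vale.Agent.P159.T1.H857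
  Vale.Agent.P159.UJ Vale.Agent.P159.H950 Vale.Agent.P159.T1.H931

variable {L : ℕ}

/-- free sites of the box -/
def QI (L : ℕ) : Set (ℤ × ℤ) := {v | 0 ≤ v.1 ∧ v.1 < L ∧ 0 ≤ v.2 ∧ v.2 < L}

/-- sites as elements of `Option (QA L)` -/
def toO (L : ℕ) (v : ℤ × ℤ) : Option (QA L) :=
  if h : 0 ≤ v.1 ∧ v.1 < L ∧ 0 ≤ v.2 ∧ v.2 < L then
    some (⟨v.1.toNat, by omega⟩, ⟨v.2.toNat, by omega⟩) else none

/-- embedding of the free sites -/
def emb (v : QA L) : ℤ × ℤ := ((v.1.1 : ℤ), (v.2.1 : ℤ))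

theorem emb_inj : Function.Injective (emb (L := L)) := by
  rintro ⟨⟨a, ha⟩, ⟨b, hb⟩⟩ ⟨⟨c, hc⟩, ⟨d, hd⟩⟩ h
  unfold emb at h
  simp only [Prod.mk.injEq, Nat.cast_inj] at h
  simp only [Prod.mk.injEq, Fin.mk.injEq]
  exact h

theorem toO_emb (v : QA L) : toO L (emb v) = some v := by
  obtain ⟨⟨a, ha⟩, ⟨b, hb⟩⟩ := v
  unfold toO emb
  rw [dif_pos (by simp only; omega)]
  simp

theorem toO_nat {i j : ℕ} (hi : i < L) (hj : j < L) :
    toO L ((i : ℤ), (j : ℤ)) = some (⟨i, hi⟩, ⟨j, hj⟩) := by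
  unfold toO
  rw [dif_pos (by simp only; omega)]
  simp

theorem toO_none {v : ℤ × ℤ} (h : v ∉ QI L) : toO L v = none := by
  unfold toO
  exact dif_neg h

theorem cosT_zero' : cosT (0 : T) = 1 := Real.Angle.cos_zero

theorem sinT_zero' : sinT (0 : T) = 0 := Real.Angle.sin_zero

theorem proj_toO (x : Ginf) (v : ℤ × ℤ) : proj (QI L) x v = exO (relabel (emb (L := L)) x) (toO L v) := by
  by_cases h : v ∈ QI L
  · rw [proj_of_mem h]
    have h' := h
    unfold QI at h
    simp only [Set.mem_setOf_eq] at h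
    unfold toO
    rw [dif_pos h]
    show x v = x (emb _)
    congr 1
    unfold emb
    ext
    · simp only; omega
    · simp only; omega
  · rw [proj_of_notMem h, toO_none h]
    rfl

/-- the direction -/
def dir (d : Bool) : ℤ × ℤ := if d then (0, 1) else (1, 0)

theorem hv_dir (c : ℤ × ℤ) (t : HT) : hv c t = hu c t + dir t.1 := rfl

/-- energy of half a bond -/
noncomputable def gE (b : ℝ) (L : ℕ) (Y : Fld) (θ : QA L → T) (v : ℤ × ℤ) (d : Bool) : ℝ :=
  b / 2 * (cosT (exO θ (toO L v) - exO θ (toO L (v + dir d))) * Real.cos (Y v d) -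
    sinT (exO θ (toO L v) - exO θ (toO L (v + dir d))) * Real.sin (Y v d))

/-- twist of the half-bonds given by a twist of the bonds -/
def tb (R : Finset (ℤ × ℤ)) (Y : Fld) (e : KR R) : ℝ := Y (hu e.1 e.2) e.2.1

/-- couplings of the bonds -/
noncomputable def Jq (b : ℝ) (e : QE L) : ℝ :=
  if e.2 then (if 0 < e.1.2.1 then b else b / 2) else (if 0 < e.1.1.1 then b else b / 2)

/-- twist on the bonds of the box -/
def uq (Y : Fld) (e : QE L) : ℝ := Y (emb e.1) (!e.2)

theorem Jq_nonneg {b : ℝ} (hb : 0 ≤ b) (e : QE L) : 0 ≤ Jq b e := by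
  unfold Jq
  split_ifs <;> linarith

theorem dO_q (θ : QA L → T) (e : QE L) : dO qp qq θ e =
    exO θ (toO L (emb e.1)) - exO θ (toO L (emb e.1 + dir (!e.2))) := by
  obtain ⟨v, β⟩ := e
  unfold dO
  rw [toO_emb]
  congr 2
  obtain ⟨⟨a, ha⟩, ⟨c, hc⟩⟩ := v
  cases β
  · unfold qq dir emb up
    simp only [Bool.false_eq_true, if_false, Bool.not_false, if_true, Prod.mk_add_mk, add_zero]
    split_ifs with h
    · have := toO_nat (L := L) ha h
      push_cast at this
      exact this.symm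
    · rw [toO_none]
      unfold QI
      simp only [Set.mem_setOf_eq]
      omega
  · unfold qq dir emb up
    simp only [Bool.false_eq_true, if_false, Bool.not_true, if_true, Prod.mk_add_mk, add_zero]
    split_ifs with h
    · have := toO_nat (L := L) h hc
      push_cast at this
      exact this.symm
    · rw [toO_none]
      unfold QI
      simp only [Set.mem_setOf_eq]
      omega

/-- sum over the box of a shifted function -/
theorem sum_shift (L : ℕ) (f : ℕ → ℝ) :
    ∑ j ∈ Finset.range L, f (j + 1) = ∑ j ∈ Finset.range L, f j - f 0 + f L := by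
  have h1 := Finset.sum_range_succ f L
  have h2 := Finset.sum_range_succ' f L
  linarith

theorem sum_blk (L : ℕ) (F : ℤ × ℤ → ℝ) :
    ∑ c ∈ blk 0 L, F c = ∑ i ∈ Finset.range L, ∑ j ∈ Finset.range L, F ((i : ℤ), (j : ℤ)) := by
  unfold blk
  rw [Finset.sum_product]
  have key : ∀ G : ℤ → ℝ, ∑ i ∈ Finset.Ico (0 : ℤ) (0 + (L : ℤ)), G i =
      ∑ i ∈ Finset.range L, G (i : ℤ) := by
    intro G
    symm
    refine Finset.sum_nbij (fun i : ℕ => (i : ℤ)) ?_ ?_ ?_ ?_
    · intro i hi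
      simp only [Finset.mem_range] at hi
      simp only [Finset.mem_Ico]
      omega
    · intro i _ j _ h
      simp only at h
      exact_mod_cast h
    · intro i hi
      simp only [Finset.coe_Ico, Set.mem_Ico] at hi
      refine ⟨i.toNat, ?_, ?_⟩
      · simp only [Finset.coe_range, Set.mem_Iio]; omega
      · simp only; omega
    · intro i _; rfl
  rw [show ((0 : ℤ × ℤ).1) = (0 : ℤ) from rfl, show ((0 : ℤ × ℤ).2) = (0 : ℤ) from rfl, key]
  refine Finset.sum_congr rfl fun i _ => ?_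
  rw [key]

/-- sum over the bonds -/
theorem sum_QE (F : QE L → ℝ) : ∑ e, F e = ∑ v : QA L, (F (v, true) + F (v, false)) := by
  rw [Fintype.sum_prod_type (f := F)]
  exact Finset.sum_congr rfl fun x _ => Fintype.sum_bool _

theorem sum_QA (F : ℕ → ℕ → ℝ) : ∑ v : QA L, F v.1.1 v.2.1 =
    ∑ i ∈ Finset.range L, ∑ j ∈ Finset.range L, F i j := by
  rw [Fintype.sum_prod_type (f := fun v : QA L => F v.1.1 v.2.1)]
  rw [← Fin.sum_univ_eq_sum_range (fun i => ∑ j ∈ Finset.range L, F i j) L]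
  refine Finset.sum_congr rfl fun i _ => ?_
  rw [← Fin.sum_univ_eq_sum_range (fun j => F i.1 j) L]

/-- the energy in terms of the bonds -/
theorem energy_q (b : ℝ) (Y : Fld) (hY1 : ∀ i : ℕ, Y ((i : ℤ), (L : ℤ)) false = 0)
    (hY2 : ∀ j : ℕ, Y ((L : ℤ), (j : ℤ)) true = 0) (θ : QA L → T) :
    ∑ i ∈ Finset.range L, ∑ j ∈ Finset.range L,
      (gE b L Y θ ((i : ℤ), (j : ℤ)) false + gE b L Y θ ((i : ℤ), (j : ℤ) + 1) false +
        gE b L Y θ ((i : ℤ), (j : ℤ)) true + gE b L Y θ ((i : ℤ) + 1, (j : ℤ)) true) =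
    L * b + ∑ e : QE L, Jq b e * (cosT (dO qp qq θ e) * Real.cos (uq Y e) -
      sinT (dO qp qq θ e) * Real.sin (uq Y e)) := by
  have hz1 : ∀ i : ℕ, gE b L Y θ ((i : ℤ), (L : ℤ)) false = b / 2 := by
    intro i
    unfold gE
    rw [hY1, toO_none (v := ((i : ℤ), (L : ℤ))) (by unfold QI; simp), toO_none (by
      unfold QI dir; simp)]
    rw [sub_self, cosT_zero', sinT_zero', Real.cos_zero, Real.sin_zero]
    ring
  have hz2 : ∀ j : ℕ, gE b L Y θ ((L : ℤ), (j : ℤ)) true = b / 2 := by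
    intro j
    unfold gE
    rw [hY2, toO_none (v := ((L : ℤ), (j : ℤ))) (by unfold QI; simp), toO_none (by
      unfold QI dir; simp)]
    rw [sub_self, cosT_zero', sinT_zero', Real.cos_zero, Real.sin_zero]
    ring
  have s1 : ∀ i : ℕ, ∑ j ∈ Finset.range L, gE b L Y θ ((i : ℤ), (j : ℤ) + 1) false =
      ∑ j ∈ Finset.range L, gE b L Y θ ((i : ℤ), (j : ℤ)) false -
        gE b L Y θ ((i : ℤ), 0) false + b / 2 := by
    intro i
    have h := sum_shift L (fun j : ℕ => gE b L Y θ ((i : ℤ), (j : ℤ)) false)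
    simp only [hz1] at h
    push_cast at h
    exact h
  have s2 : ∀ j : ℕ, ∑ i ∈ Finset.range L, gE b L Y θ ((i : ℤ) + 1, (j : ℤ)) true =
      ∑ i ∈ Finset.range L, gE b L Y θ ((i : ℤ), (j : ℤ)) true -
        gE b L Y θ (0, (j : ℤ)) true + b / 2 := by
    intro j
    have h := sum_shift L (fun i : ℕ => gE b L Y θ ((i : ℤ), (j : ℤ)) true)
    simp only [hz2] at h
    push_cast at h
    exact h
  -- left side
  have hleft : ∑ i ∈ Finset.range L, ∑ j ∈ Finset.range L,
      (gE b L Y θ ((i : ℤ), (j : ℤ)) false + gE b L Y θ ((i : ℤ), (j : ℤ) + 1) false +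
        gE b L Y θ ((i : ℤ), (j : ℤ)) true + gE b L Y θ ((i : ℤ) + 1, (j : ℤ)) true) =
      2 * (∑ i ∈ Finset.range L, ∑ j ∈ Finset.range L, gE b L Y θ ((i : ℤ), (j : ℤ)) false) +
      2 * (∑ i ∈ Finset.range L, ∑ j ∈ Finset.range L, gE b L Y θ ((i : ℤ), (j : ℤ)) true) -
      (∑ i ∈ Finset.range L, gE b L Y θ ((i : ℤ), 0) false) -
      (∑ j ∈ Finset.range L, gE b L Y θ (0, (j : ℤ)) true) + L * b := by
    simp only [Finset.sum_add_distrib]
    rw [Finset.sum_congr rfl fun i _ => s1 i]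
    rw [Finset.sum_comm (f := fun (i j : ℕ) => gE b L Y θ ((i : ℤ) + 1, (j : ℤ)) true)]
    rw [Finset.sum_congr rfl fun j _ => s2 j]
    rw [Finset.sum_add_distrib, Finset.sum_sub_distrib, Finset.sum_add_distrib,
      Finset.sum_sub_distrib]
    rw [Finset.sum_comm (f := fun (j i : ℕ) => gE b L Y θ ((i : ℤ), (j : ℤ)) true)]
    simp only [Finset.sum_const, Finset.card_range, nsmul_eq_mul]
    ring
  -- right side
  have hG : ∀ (v : QA L) (β : Bool), b / 2 * (cosT (dO qp qq θ (v, β)) *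
      Real.cos (uq Y (v, β)) - sinT (dO qp qq θ (v, β)) * Real.sin (uq Y (v, β))) =
      gE b L Y θ ((v.1.1 : ℤ), (v.2.1 : ℤ)) (!β) := by
    intro v β
    rw [dO_q]
    rfl
  have hright : ∑ e : QE L, Jq b e * (cosT (dO qp qq θ e) * Real.cos (uq Y e) -
      sinT (dO qp qq θ e) * Real.sin (uq Y e)) =
      ∑ v : QA L, ((2 * gE b L Y θ ((v.1.1 : ℤ), (v.2.1 : ℤ)) false -
        (if v.2.1 = 0 then gE b L Y θ ((v.1.1 : ℤ), (v.2.1 : ℤ)) false else 0)) +
        (2 * gE b L Y θ ((v.1.1 : ℤ), (v.2.1 : ℤ)) true -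
        (if v.1.1 = 0 then gE b L Y θ ((v.1.1 : ℤ), (v.2.1 : ℤ)) true else 0))) := by
    rw [sum_QE]
    refine Finset.sum_congr rfl fun v _ => ?_
    have h1 := hG v true
    have h2 := hG v false
    simp only [Bool.not_true, Bool.not_false] at h1 h2
    congr 1
    · unfold Jq
      simp only [if_true]
      by_cases h : 0 < v.2.1
      · rw [if_pos h, if_neg (by omega), ← h1]; ring
      · rw [if_neg h, if_pos (by omega), ← h1]; ring
    · unfold Jq
      simp only [Bool.false_eq_true, if_false]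
      by_cases h : 0 < v.1.1
      · rw [if_pos h, if_neg (by omega), ← h2]; ring
      · rw [if_neg h, if_pos (by omega), ← h2]; ring
  have hr2 := sum_QA (L := L) (fun i j => ((2 * gE b L Y θ ((i : ℤ), (j : ℤ)) false -
        (if j = 0 then gE b L Y θ ((i : ℤ), (j : ℤ)) false else 0)) +
        (2 * gE b L Y θ ((i : ℤ), (j : ℤ)) true -
        (if i = 0 then gE b L Y θ ((i : ℤ), (j : ℤ)) true else 0))))
  rw [hright, hr2, hleft]
  have t1 : ∀ i : ℕ, ∑ j ∈ Finset.range L, (if j = 0 then gE b L Y θ ((i : ℤ), (j : ℤ)) false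
      else 0) = if 0 < L then gE b L Y θ ((i : ℤ), 0) false else 0 := by
    intro i
    rw [Finset.sum_ite_eq' (Finset.range L) 0 (fun j : ℕ => gE b L Y θ ((i : ℤ), (j : ℤ)) false)]
    simp only [Finset.mem_range, Nat.cast_zero]
  have t2 : ∑ i ∈ Finset.range L, ∑ j ∈ Finset.range L,
      (if i = 0 then gE b L Y θ ((i : ℤ), (j : ℤ)) true else 0) =
      ∑ j ∈ Finset.range L, (if 0 < L then gE b L Y θ (0, (j : ℤ)) true else 0) := by
    rw [Finset.sum_comm]
    refine Finset.sum_congr rfl fun j _ => ?_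
    rw [Finset.sum_ite_eq' (Finset.range L) 0 (fun i : ℕ => gE b L Y θ ((i : ℤ), (j : ℤ)) true)]
    simp only [Finset.mem_range, Nat.cast_zero]
  simp only [Finset.sum_add_distrib, Finset.sum_sub_distrib, ← Finset.mul_sum]
  rw [Finset.sum_congr rfl fun i _ => t1 i, t2]
  rcases Nat.eq_zero_or_pos L with h | h
  · subst h; simp
  · simp only [if_pos h]
    ring

/-- the partition function as an integral over the free spins -/
noncomputable def Iq (L : ℕ) (b : ℝ) (u : QE L → ℝ) : ℝ :=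
  ∫ θ : QA L → T, Real.exp (∑ e : QE L, Jq b e * (cosT (dO qp qq θ e) * Real.cos (u e) -
    sinT (dO qp qq θ e) * Real.sin (u e))) ∂torusHaar (QA L)

theorem Iq_cont (L : ℕ) (b : ℝ) (u : QE L → ℝ) : Continuous fun θ : QA L → T =>
    Real.exp (∑ e : QE L, Jq b e * (cosT (dO qp qq θ e) * Real.cos (u e) -
    sinT (dO qp qq θ e) * Real.sin (u e))) := by
  refine Real.continuous_exp.comp (continuous_finsetSum _ fun e _ => continuous_const.mul ?_)
  exact ((cont_cos.comp (dO_cont qp qq e)).mul continuous_const).sub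
    ((cont_sin.comp (dO_cont qp qq e)).mul continuous_const)

/-- the twisted partition function of the box -/
theorem Zr_quad (b : ℝ) (Y : Fld) (hY1 : ∀ i : ℕ, Y ((i : ℤ), (L : ℤ)) false = 0)
    (hY2 : ∀ j : ℕ, Y ((L : ℤ), (j : ℤ)) true = 0) :
    Zr muInf (fun _ : KR (blk 0 L) => b / 2) (chiI (blk 0 L) (QI L)) (tb (blk 0 L) Y) =
      Real.exp (L * b) * Iq L b (uq Y) := by
  have h1 : ∀ x : Ginf, ∑ e : KR (blk 0 L), b / 2 *
      ((chiI (blk 0 L) (QI L) e).c x * Real.cos (tb (blk 0 L) Y e) -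
        (chiI (blk 0 L) (QI L) e).s x * Real.sin (tb (blk 0 L) Y e)) =
      L * b + ∑ e : QE L, Jq b e * (cosT (dO qp qq (relabel (emb (L := L)) x) e) *
        Real.cos (uq Y e) - sinT (dO qp qq (relabel (emb (L := L)) x) e) *
        Real.sin (uq Y e)) := by
    intro x
    rw [← energy_q b Y hY1 hY2]
    have h2 : ∀ e : KR (blk 0 L), b / 2 *
        ((chiI (blk 0 L) (QI L) e).c x * Real.cos (tb (blk 0 L) Y e) -
        (chiI (blk 0 L) (QI L) e).s x * Real.sin (tb (blk 0 L) Y e)) =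
        gE b L Y (relabel (emb (L := L)) x) (hu e.1 e.2) e.2.1 := by
      intro e
      show b / 2 * (cosT (proj (QI L) x (hu e.1 e.2) - proj (QI L) x (hv e.1 e.2)) *
        Real.cos (tb (blk 0 L) Y e) - sinT (proj (QI L) x (hu e.1 e.2) -
        proj (QI L) x (hv e.1 e.2)) * Real.sin (tb (blk 0 L) Y e)) = _
      rw [proj_toO, proj_toO, hv_dir]
      rfl
    rw [Finset.sum_congr rfl fun e _ => h2 e,
      sum_KR (blk 0 L) (fun c t => gE b L Y (relabel (emb (L := L)) x) (hu c t) t.1),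
      sum_blk]
    refine Finset.sum_congr rfl fun i _ => Finset.sum_congr rfl fun j _ => ?_
    simp only [hu, Bool.false_and, Bool.and_false, Bool.and_true, Bool.not_false, Bool.not_true,
      Bool.true_and, if_true, Bool.false_eq_true, if_false, add_zero]
  unfold Zr
  simp only [h1]
  rw [integral_relabel (emb (L := L)) emb_inj muInf (torusHaar (QA L))
    (f := fun θ : QA L → T => Real.exp (L * b + ∑ e : QE L, Jq b e *
      (cosT (dO qp qq θ e) * Real.cos (uq Y e) - sinT (dO qp qq θ e) * Real.sin (uq Y e))))]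
  · unfold Iq
    rw [← integral_const_mul]
    congr 1
    ext θ
    rw [Real.exp_add]
  · refine Real.continuous_exp.comp (continuous_const.add
      (continuous_finsetSum _ fun e _ => continuous_const.mul ?_))
    exact ((cont_cos.comp (dO_cont qp qq e)).mul continuous_const).sub
      ((cont_sin.comp (dO_cont qp qq e)).mul continuous_const)

/-- the integral is the complex one -/
theorem ZG_Iq (b : ℝ) (u : QE L → ℝ) :
    ZG (A := QA L) qp qq (Jq b) (fun e => (u e : ℂ)) 0 = (Iq L b u : ℂ) := by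
  unfold ZG Iq
  rw [← integral_complex_ofReal]
  congr 1
  ext θ
  have e1 : ∏ v : QA L, (fourier ((0 : QA L → ℤ) v) (θ v) : ℂ) = 1 :=
    Finset.prod_eq_one fun v _ => by simp
  rw [e1, one_mul, ← Complex.exp_sum, Complex.ofReal_exp]
  congr 1
  push_cast
  refine Finset.sum_congr rfl fun e _ => ?_
  unfold cosC
  ring

/-- **Expansion in heights.** -/
theorem Iq_heights {b : ℝ} (hb : 0 ≤ b) (u : QE L → ℝ) :
    HasSum (fun h : QH L => (∏ e, wI (Jq b e) (cu h.1 e)) *
      Real.cos (∑ e, u e * (cu h.1 e : ℝ))) (Iq L b u) := by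
  have h := ZG_quad (L := L) (J := Jq b) (fun e => Jq_nonneg hb e) (fun e => (u e : ℂ))
  rw [ZG_Iq] at h
  have h2 := Complex.hasSum_re h
  rw [Complex.ofReal_re] at h2
  have e0 : (fun h : QH L => (∏ e, wI (Jq b e) (cu h.1 e)) *
      Real.cos (∑ e, u e * (cu h.1 e : ℝ))) = fun h : QH L =>
      (((∏ e, wI (Jq b e) (cu h.1 e) : ℝ) : ℂ) *
        Complex.exp (Complex.I * ∑ e, (u e : ℂ) * (cu h.1 e : ℂ))).re := by
    funext h
    rw [Complex.re_ofReal_mul]
    congr 1
    have e1 : Complex.I * ∑ e, (u e : ℂ) * (cu h.1 e : ℂ) =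
        ((∑ e, u e * (cu h.1 e : ℝ) : ℝ) : ℂ) * Complex.I := by
      push_cast
      ring
    rw [e1, Complex.exp_ofReal_mul_I_re]
  rw [e0]
  exact h2

end Vale.Agent.P159.T1.H532
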