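import Vale.Agent.P159.T1.H857.Dual

/-!
Duality for the rectangle of `W x K` free sites whose left and lower sides are free and whose
right and upper sides are wired: currents without divergence are gradients of heights on the
faces (any couplings; with couplings `0` on the last horizontal bonds the right side is free).
-/

set_option linter.all false
set_option autoImplicit false

open MeasureTheory Filter Topology
open scoped BigOperators

namespace Vale.Agent.P159.T1.H532.RR

open Vale.Agent.P159 Vale.Agent.P159.H353 Vale.Agent.P159.R2.H254 Vale.Agent.P159.T1.H857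

/-- faces (named by the lower left corner) and free sites -/
abbrev RA (W K : ℕ) : Type := Fin W × Fin K

/-- bonds: `(p, false)` is the left side of the face `p`, `(p, true)` its lower side -/
abbrev RE (W K : ℕ) : Type := RA W K × Bool

variable {W K : ℕ}

/-- one step down -/
def dn {L : ℕ} (j : Fin L) : Fin L := ⟨j.1 - 1, lt_of_le_of_lt (Nat.sub_le _ _) j.2⟩

/-- one step up -/
def up {L : ℕ} (j : Fin L) (h : j.1 + 1 < L) : Fin L := ⟨j.1 + 1, h⟩

/-- the face of the bond -/
def qs (e : RE W K) : Option (RA W K) := some e.1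

/-- the other face -/
def qt (e : RE W K) : Option (RA W K) :=
  if e.2 then (if 0 < e.1.2.1 then some (e.1.1, dn e.1.2) else none)
  else (if 0 < e.1.1.1 then some (dn e.1.1, e.1.2) else none)

/-- first end point of the bond -/
def qp (e : RE W K) : Option (RA W K) := some e.1

/-- second end point of the bond -/
def qq (e : RE W K) : Option (RA W K) :=
  if e.2 then (if h : e.1.1.1 + 1 < W then some (up e.1.1 h, e.1.2) else none)
  else (if h : e.1.2.1 + 1 < K then some (e.1.1, up e.1.2 h) else none)

/-- the current of the heights -/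
def cu (h : Option (RA W K) → ℤ) (e : RE W K) : ℤ :=
  if e.2 then h (qs e) - h (qt e) else h (qt e) - h (qs e)

theorem qq_true (i : Fin W) (j : Fin K) (v : RA W K) :
    qq ((i, j), true) = some v ↔ 0 < v.1.1 ∧ (i, j) = (dn v.1, v.2) := by
  obtain ⟨⟨a, ha⟩, ⟨b, hb⟩⟩ := v
  obtain ⟨i, hi⟩ := i
  obtain ⟨j, hj⟩ := j
  unfold qq up dn
  simp only [if_true]
  split_ifs with h
  · simp only [Option.some.injEq, Prod.mk.injEq, Fin.mk.injEq]
    constructor
    · rintro ⟨h1, h2⟩
      refine ⟨by omega, by omega, h2⟩
    · rintro ⟨h1, h2, h3⟩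
      refine ⟨by omega, h3⟩
  · simp only [Prod.mk.injEq, Fin.mk.injEq, false_iff, not_and, reduceCtorEq]
    intro h1 h2
    omega

theorem qq_false (i : Fin W) (j : Fin K) (v : RA W K) :
    qq ((i, j), false) = some v ↔ 0 < v.2.1 ∧ (i, j) = (v.1, dn v.2) := by
  obtain ⟨⟨a, ha⟩, ⟨b, hb⟩⟩ := v
  obtain ⟨i, hi⟩ := i
  obtain ⟨j, hj⟩ := j
  unfold qq up dn
  simp only [if_false, Bool.false_eq_true]
  split_ifs with h
  · simp only [Option.some.injEq, Prod.mk.injEq, Fin.mk.injEq]
    constructor
    · rintro ⟨h1, h2⟩
      refine ⟨by omega, h1, by omega⟩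
    · rintro ⟨h1, h2, h3⟩
      refine ⟨h2, by omega⟩
  · simp only [Prod.mk.injEq, Fin.mk.injEq, false_iff, not_and, reduceCtorEq]
    intro h1 h2
    omega

/-- the divergence -/
theorem dvg_eq (n : RE W K → ℤ) (v : RA W K) : dvg qp qq n v = n (v, false) + n (v, true) -
    (if 0 < v.1.1 then n ((dn v.1, v.2), true) else 0) -
    (if 0 < v.2.1 then n ((v.1, dn v.2), false) else 0) := by
  classical
  unfold dvg
  have hE : ∀ F : RE W K → ℤ, ∑ e, F e = ∑ x : RA W K, F (x, true) + ∑ x : RA W K, F (x, false) := by
    intro F
    rw [Fintype.sum_prod_type (f := F), ← Finset.sum_add_distrib]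
    exact Finset.sum_congr rfl fun x _ => Fintype.sum_bool _
  rw [Finset.sum_add_distrib, hE, hE]
  have e1 : ∀ β : Bool, ∑ x : RA W K, (if qp (x, β) = some v then n (x, β) else 0) = n (v, β) := by
    intro β
    rw [Finset.sum_eq_single v]
    · simp [qp]
    · intro x _ hx
      rw [if_neg]
      simp only [qp, Option.some.injEq]
      exact hx
    · intro h; exact absurd (Finset.mem_univ v) h
  have e2 : ∑ x : RA W K, (if qq (x, true) = some v then -n (x, true) else 0) =
      -(if 0 < v.1.1 then n ((dn v.1, v.2), true) else 0) := by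
    split_ifs with h
    · rw [Finset.sum_eq_single (dn v.1, v.2)]
      · rw [if_pos ((qq_true _ _ v).2 ⟨h, rfl⟩)]
      · intro x _ hx
        rw [if_neg]
        intro h1
        exact hx ((qq_true x.1 x.2 v).1 h1).2
      · intro h; exact absurd (Finset.mem_univ _) h
    · rw [neg_zero]
      refine Finset.sum_eq_zero fun x _ => ?_
      rw [if_neg]
      intro h1
      exact h ((qq_true x.1 x.2 v).1 h1).1
  have e3 : ∑ x : RA W K, (if qq (x, false) = some v then -n (x, false) else 0) =
      -(if 0 < v.2.1 then n ((v.1, dn v.2), false) else 0) := by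
    split_ifs with h
    · rw [Finset.sum_eq_single (v.1, dn v.2)]
      · rw [if_pos ((qq_false _ _ v).2 ⟨h, rfl⟩)]
      · intro x _ hx
        rw [if_neg]
        intro h1
        exact hx ((qq_false x.1 x.2 v).1 h1).2
      · intro h; exact absurd (Finset.mem_univ _) h
    · rw [neg_zero]
      refine Finset.sum_eq_zero fun x _ => ?_
      rw [if_neg]
      intro h1
      exact h ((qq_false x.1 x.2 v).1 h1).1
  rw [e1, e1, e2, e3]
  ring

theorem cu_true (h : Option (RA W K) → ℤ) (v : RA W K) (h0 : h none = 0) :
    cu h (v, true) = h (some v) - (if 0 < v.2.1 then h (some (v.1, dn v.2)) else 0) := by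
  unfold cu qs qt
  simp only [if_true]
  split_ifs with h1
  · rfl
  · rw [h0]

theorem cu_false (h : Option (RA W K) → ℤ) (v : RA W K) (h0 : h none = 0) :
    cu h (v, false) = (if 0 < v.1.1 then h (some (dn v.1, v.2)) else 0) - h (some v) := by
  unfold cu qs qt
  simp only [if_false, Bool.false_eq_true]
  split_ifs with h1
  · rfl
  · rw [h0]

/-- gradients have no divergence -/
theorem dvg_cu (h : Option (RA W K) → ℤ) (h0 : h none = 0) (v : RA W K) : dvg qp qq (cu h) v = 0 := by
  rw [dvg_eq, cu_true h _ h0, cu_false h _ h0, cu_true h _ h0, cu_false h _ h0]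
  simp only
  split_ifs <;> ring

/-- heights of a current -/
def ht (n : RE W K → ℤ) : Option (RA W K) → ℤ
  | none => 0
  | some v => ∑ k ∈ Finset.univ.filter (fun k : Fin K => k ≤ v.2), n ((v.1, k), true)

theorem ht_step (n : RE W K → ℤ) (v : RA W K) : ht n (some v) -
    (if 0 < v.2.1 then ht n (some (v.1, dn v.2)) else 0) = n (v, true) := by
  unfold ht
  simp only
  have hsub : (Finset.univ.filter fun k : Fin K => k ≤ v.2) =
      insert v.2 (Finset.univ.filter fun k : Fin K => k < v.2) := by
    ext k
    simp only [Finset.mem_filter, Finset.mem_univ, true_and, Finset.mem_insert]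
    rw [le_iff_eq_or_lt]
  rw [hsub, Finset.sum_insert (by simp)]
  split_ifs with h
  · have : (Finset.univ.filter fun k : Fin K => k < v.2) =
        Finset.univ.filter fun k : Fin K => k ≤ dn v.2 := by
      ext k
      simp only [Finset.mem_filter, Finset.mem_univ, true_and, Fin.lt_def, Fin.le_def, dn]
      omega
    rw [this]
    ring
  · have : (Finset.univ.filter fun k : Fin K => k < v.2) = ∅ := by
      ext k
      simp only [Finset.mem_filter, Finset.mem_univ, true_and, Fin.lt_def, Finset.notMem_empty,
        iff_false]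
      omega
    rw [this, Finset.sum_empty]
    ring

/-- currents without divergence are gradients -/
theorem cu_ht (n : RE W K → ℤ) (hn : ∀ v, dvg qp qq n v = 0) : cu (ht n) = n := by
  have h0 : ht n none = 0 := rfl
  have key : ∀ (m : ℕ) (v : RA W K), v.2.1 = m → cu (ht n) (v, false) = n (v, false) := by
    intro m
    induction m with
    | zero =>
      intro v hv
      have h1 := hn v
      rw [dvg_eq, if_neg (by omega : ¬ 0 < v.2.1)] at h1
      rw [cu_false _ _ h0]
      have h2 := ht_step n v
      rw [if_neg (by omega : ¬ 0 < v.2.1)] at h2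
      split_ifs at h1 ⊢ with h3
      · have h4 := ht_step n (dn v.1, v.2)
        rw [if_neg (by simp only; omega)] at h4
        linarith
      · linarith
    | succ m ih =>
      intro v hv
      have h1 := hn v
      have hpos : 0 < v.2.1 := by omega
      rw [dvg_eq, if_pos hpos] at h1
      rw [cu_false _ _ h0]
      have h2 := ht_step n v
      rw [if_pos hpos] at h2
      have h5 := ih (v.1, dn v.2) (by simp only [dn]; omega)
      rw [cu_false _ _ h0] at h5
      simp only at h5
      split_ifs at h1 h5 ⊢ with h3
      · have h4 := ht_step n (dn v.1, v.2)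
        simp only at h4
        rw [if_pos hpos] at h4
        linarith
      · linarith
  funext e
  obtain ⟨v, β⟩ := e
  cases β
  · exact key _ v rfl
  · rw [cu_true _ _ h0]
    exact ht_step n v

/-- heights which vanish at `none` -/
abbrev RH (W K : ℕ) : Type := {h : Option (RA W K) → ℤ // h none = 0}

theorem cu_inj : Function.Injective fun h : RH W K => cu h.1 := by
  intro h h' hh
  have key : ∀ (m : ℕ) (v : RA W K), v.2.1 = m → h.1 (some v) = h'.1 (some v) := by
    intro m
    induction m with
    | zero =>
      intro v hv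
      have h1 := congrFun hh (v, true)
      simp only at h1
      rw [cu_true _ _ h.2, cu_true _ _ h'.2, if_neg (by omega : ¬ 0 < v.2.1),
        if_neg (by omega : ¬ 0 < v.2.1)] at h1
      linarith
    | succ m ih =>
      intro v hv
      have h1 := congrFun hh (v, true)
      simp only at h1
      have hpos : 0 < v.2.1 := by omega
      rw [cu_true _ _ h.2, cu_true _ _ h'.2, if_pos hpos, if_pos hpos] at h1
      have h5 := ih (v.1, dn v.2) (by simp only [dn]; omega)
      linarith
  apply Subtype.ext
  funext x
  cases x with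
  | none => rw [h.2, h'.2]
  | some v => exact key _ v rfl

/-- expansion in heights -/
theorem ZG_quad {J : RE W K → ℝ} (hJ : ∀ e, 0 ≤ J e) (u : RE W K → ℂ) :
    HasSum (fun h : RH W K => ((∏ e, wI (J e) (cu h.1 e) : ℝ) : ℂ) *
      Complex.exp (Complex.I * ∑ e, u e * (cu h.1 e : ℂ))) (ZG qp qq J u 0) := by
  refine ZG_heights qp qq hJ u 0 (fun h : RH W K => cu h.1) cu_inj (fun h v => ?_) fun n hn => ?_
  · rw [dvg_cu h.1 h.2]
    rfl
  · refine ⟨⟨ht n, rfl⟩, cu_ht n fun v => ?_⟩
    have := hn v
    simpa using this

end Vale.Agent.P159.T1.H532.RR
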