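import Vale.Agent.P159.T1.H532.RVar
import Vale.Agent.P159.T1.H532.QFF
import Vale.Agent.P159.T1.H910.RDefs
import Vale.Agent.P159.T1.H910.Far

/-!
The quadratic form of the rectangle (three free sides, wired upper side) is at most the variance
of the heights, in the language of `T1/D/Defs.lean`.
-/

set_option linter.all false
set_option autoImplicit false

open MeasureTheory Filter Topology
open scoped BigOperators

namespace Vale.Agent.P159.T1.H532.RR

open Vale.Agent.P159 Vale.Agent.P159.H353 Vale.Agent.P159.R2.H254 Vale.Agent.P159.T1.H857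
  Vale.Agent.P159.UJ Vale.Agent.P159.H950 Vale.Agent.P159.T1.H931 Vale.Agent.P159.T1.H934
  Vale.Agent.P159.T1.D
open Vale.Agent.P159.T1.H532 (tb fb)
open Vale.Agent.P159.T1.H910.R (rc mem_rc S1)
open Vale.Agent.P159.T1.H910 (FF)

variable {W K w : ℕ}

theorem mem_S1' {w T : ℕ} {e : Bnd} : e ∈ S1 w T ↔
    (e.2 = true ∧ 1 ≤ w ∧ 0 ≤ e.1.1 ∧ e.1.1 ≤ w ∧ 0 ≤ e.1.2 ∧ e.1.2 < T) ∨
      (e.2 = false ∧ 0 ≤ e.1.1 ∧ e.1.1 < w ∧ 0 ≤ e.1.2 ∧ e.1.2 < T) := by
  unfold S1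
  rw [Finset.mem_filter, H910.mem_bd, mem_rc, mem_rc]
  obtain ⟨⟨x, y⟩, τ⟩ := e
  cases τ
  · simp only [D.rt, D.lf, Bool.false_eq_true, if_false, true_and, false_and, false_or]
    omega
  · simp only [D.rt, D.lf, if_true, reduceCtorEq, true_and, false_and, or_false, not_false_eq_true,
      and_true]
    omega

/-- bonds of the plane -/
def eb (e : RE W K) : Bnd := (emb e.1, !e.2)

theorem eb_inj : Function.Injective (eb (W := W) (K := K)) := by
  rintro ⟨v, β⟩ ⟨w, γ⟩ h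
  unfold eb at h
  simp only [Prod.mk.injEq] at h
  rw [emb_inj h.1]
  have := h.2
  cases β <;> cases γ <;> simp_all

/-- the bonds without a counterpart in the plane -/
def bad (w : ℕ) (e : RE (w + 1) K) : Prop := e.2 = true ∧ e.1.1.1 = w

instance (w : ℕ) (e : RE (w + 1) K) : Decidable (bad w e) := by unfold bad; infer_instance

theorem eb_mem (hw : 1 ≤ w) (e : RE (w + 1) K) (he : ¬ bad w e) : eb e ∈ S1 w K := by
  rw [mem_S1']
  obtain ⟨⟨⟨i, hi⟩, ⟨j, hj⟩⟩, β⟩ := e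
  unfold bad at he
  unfold eb emb
  cases β
  · simp only [Bool.not_false, true_and, reduceCtorEq, false_and, or_false]
    omega
  · simp only [Bool.not_true, true_and, reduceCtorEq, false_and, false_or] at he ⊢
    omega

theorem eb_surj (e : Bnd) (he : e ∈ S1 w K) : ∃ e' : RE (w + 1) K, ¬ bad w e' ∧ eb e' = e := by
  rw [mem_S1'] at he
  obtain ⟨⟨i, j⟩, β⟩ := e
  simp only at he
  refine ⟨((⟨i.toNat, by omega⟩, ⟨j.toNat, by omega⟩), !β), ?_, ?_⟩
  · unfold bad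
    rintro ⟨h1, h2⟩
    simp only at h1 h2
    cases β
    · simp only [true_and, reduceCtorEq, false_and, false_or] at he
      omega
    · simp at h1
  · unfold eb emb
    simp only [Bool.not_not]
    congr 2
    · omega
    · omega

theorem prod_S1 (hw : 1 ≤ w) (F : Bnd → ℝ) :
    ∏ e ∈ S1 w K, F e = ∏ e : RE (w + 1) K, if bad w e then 1 else F (eb e) := by
  symm
  have h1 : ∏ e : RE (w + 1) K, (if bad w e then 1 else F (eb e)) =
      ∏ e ∈ Finset.univ.filter (fun e : RE (w + 1) K => ¬ bad w e), F (eb e) := by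
    rw [Finset.prod_filter]
    refine Finset.prod_congr rfl fun e _ => ?_
    by_cases h : bad w e
    · rw [if_pos h, if_neg (not_not_intro h)]
    · rw [if_neg h, if_pos h]
  rw [h1]
  refine Finset.prod_bij (fun e _ => eb e) (fun e he => ?_) (fun e _ e' _ h => eb_inj h)
    (fun e he => ?_) (fun e _ => rfl)
  · exact eb_mem hw e (Finset.mem_filter.1 he).2
  · obtain ⟨e', h2, h3⟩ := eb_surj e he
    exact ⟨e', Finset.mem_filter.2 ⟨Finset.mem_univ _, h2⟩, h3⟩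

theorem sum_S1 (hw : 1 ≤ w) (F : Bnd → ℝ) :
    ∑ e ∈ S1 w K, F e = ∑ e : RE (w + 1) K, if bad w e then 0 else F (eb e) := by
  symm
  have h1 : ∑ e : RE (w + 1) K, (if bad w e then 0 else F (eb e)) =
      ∑ e ∈ Finset.univ.filter (fun e : RE (w + 1) K => ¬ bad w e), F (eb e) := by
    rw [Finset.sum_filter]
    refine Finset.sum_congr rfl fun e _ => ?_
    by_cases h : bad w e
    · rw [if_pos h, if_neg (not_not_intro h)]
    · rw [if_neg h, if_pos h]
  rw [h1]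
  refine Finset.sum_bij (fun e _ => eb e) (fun e he => ?_) (fun e _ e' _ h => eb_inj h)
    (fun e he => ?_) (fun e _ => rfl)
  · exact eb_mem hw e (Finset.mem_filter.1 he).2
  · obtain ⟨e', h2, h3⟩ := eb_surj e he
    exact ⟨e', Finset.mem_filter.2 ⟨Finset.mem_univ _, h2⟩, h3⟩

/-- the couplings -/
theorem J1_eb (b : ℝ) (e : RE (w + 1) K) (he : ¬ bad w e) : H910.R.J1 b (b / 2) w (eb e) = Jr b e := by
  obtain ⟨⟨⟨i, hi⟩, ⟨j, hj⟩⟩, β⟩ := e
  unfold H910.R.J1 Jr eb emb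
  unfold bad at he
  cases β
  · simp only [Bool.not_false, true_and, reduceCtorEq, false_and, or_false, Bool.false_eq_true,
      if_false]
    by_cases h : i = 0 ∨ i + 1 = w + 1
    · rw [if_pos h, if_pos (by omega)]
    · rw [if_neg h, if_neg (by omega)]
  · simp only [true_and] at he
    simp only [Bool.not_true, true_and, reduceCtorEq, false_and, false_or, if_true]
    rw [if_neg (by omega : ¬ i + 1 = w + 1)]
    by_cases h : 0 < j
    · rw [if_pos h, if_neg (by omega)]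
    · rw [if_neg h, if_pos (by omega)]

/-- heights of the plane on the graph -/
def io (w K : ℕ) (g : Ht (rc w K)) : RH (w + 1) K :=
  ⟨fun x => x.elim 0 fun v => g.1 (emb v), rfl⟩

theorem io_inj : Function.Injective (io w K) := by
  intro g g' h
  apply Subtype.ext
  funext f
  by_cases hf : f ∈ rc w K
  · have h1 := mem_rc.1 hf
    have h2 := congrArg (fun q : RH (w + 1) K =>
      q.1 (some (⟨f.1.toNat, by omega⟩, ⟨f.2.toNat, by omega⟩))) h
    simp only [io, Option.elim_some] at h2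
    have h3 : (emb ((⟨f.1.toNat, by omega⟩, ⟨f.2.toNat, by omega⟩) : RA (w + 1) K)) = f := by
      unfold emb
      refine Prod.ext ?_ ?_
      · simp only; omega
      · simp only; omega
    rw [h3] at h2
    exact h2
  · rw [g.2 f hf, g'.2 f hf]

theorem io_surj (h : RH (w + 1) K)
    (h0 : ∀ (j : ℕ) (hj : j < K), h.1 (some (⟨w, Nat.lt_succ_self w⟩, ⟨j, hj⟩)) = 0) :
    ∃ g, io w K g = h := by
  refine ⟨⟨fun f => h.1 (toO (w + 1) K f), fun f hf => ?_⟩, ?_⟩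
  · show h.1 (toO (w + 1) K f) = 0
    by_cases h1 : 0 ≤ f.1 ∧ f.1 < ((w + 1 : ℕ) : ℤ) ∧ 0 ≤ f.2 ∧ f.2 < K
    · rw [mem_rc] at hf
      have h2 : f.1 = (w : ℤ) := by push_cast at h1; omega
      have h3 : f = ((w : ℤ), ((f.2.toNat : ℕ) : ℤ)) := by
        refine Prod.ext ?_ ?_
        · exact h2
        · simp only; omega
      rw [h3, toO_nat (W := w + 1) (K := K) (i := w) (j := f.2.toNat) (by omega) (by omega)]
      exact h0 _ (by omega)
    · rw [toO_none h1, h.2]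
  · apply Subtype.ext
    funext x
    cases x with
    | none => exact h.2.symm
    | some v =>
      show h.1 (toO (w + 1) K (emb v)) = h.1 (some v)
      rw [toO_emb]

/-- the gradient -/
theorem cu_io (g : Ht (rc w K)) (e : RE (w + 1) K) : cu (io w K g).1 e = dh g.1 (eb e) := by
  obtain ⟨⟨⟨i, hi⟩, ⟨j, hj⟩⟩, β⟩ := e
  have hno : ∀ a c : ℤ, ¬ (0 ≤ a ∧ 0 ≤ c) → g.1 (a, c) = 0 := by
    intro a c h
    refine g.2 _ fun h1 => h ?_
    have := mem_rc.1 h1
    simp only at this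
    exact ⟨this.1.1, this.2.1⟩
  cases β
  · rw [cu_false _ _ rfl]
    show (if 0 < i then g.1 (((i - 1 : ℕ) : ℤ), (j : ℤ)) else 0) - g.1 ((i : ℤ), (j : ℤ)) =
      g.1 ((i : ℤ) - 1, (j : ℤ)) - g.1 ((i : ℤ), (j : ℤ))
    split_ifs with h
    · have e1 : ((i - 1 : ℕ) : ℤ) = (i : ℤ) - 1 := by omega
      rw [e1]
    · rw [hno ((i : ℤ) - 1) (j : ℤ) (by omega)]
  · rw [cu_true _ _ rfl]
    show g.1 ((i : ℤ), (j : ℤ)) - (if 0 < j then g.1 ((i : ℤ), ((j - 1 : ℕ) : ℤ)) else 0) =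
      g.1 ((i : ℤ), (j : ℤ)) - g.1 ((i : ℤ), (j : ℤ) - 1)
    split_ifs with h
    · have e1 : ((j - 1 : ℕ) : ℤ) = (j : ℤ) - 1 := by omega
      rw [e1]
    · rw [hno (i : ℤ) ((j : ℤ) - 1) (by omega)]

theorem cu_bad (g : Ht (rc w K)) (e : RE (w + 1) K) (he : bad w e) : cu (io w K g).1 e = 0 := by
  rw [cu_io]
  obtain ⟨⟨⟨i, hi⟩, ⟨j, hj⟩⟩, β⟩ := e
  obtain ⟨h1, h2⟩ := he
  simp only at h1 h2
  subst h1
  subst h2
  have hno : ∀ c : ℤ, g.1 ((i : ℤ), c) = 0 := by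
    intro c
    refine g.2 _ fun h1 => ?_
    have := mem_rc.1 h1
    simp only at this
    omega
  show g.1 ((i : ℤ), (j : ℤ)) - g.1 ((i : ℤ), (j : ℤ) - 1) = 0
  rw [hno, hno, sub_zero]

theorem Jr_bad (b : ℝ) (e : RE (w + 1) K) (he : bad w e) : Jr b e = 0 := by
  unfold Jr
  rw [if_pos he.1, if_pos (by rw [he.2])]

/-- weights -/
theorem prod_io (hw : 1 ≤ w) (b : ℝ) (g : Ht (rc w K)) :
    ∏ e, wI (Jr b e) (cu (io w K g).1 e) = ∏ e ∈ S1 w K, wI (H910.R.J1 b (b / 2) w e) (dh g.1 e) := by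
  rw [prod_S1 hw]
  refine Finset.prod_congr rfl fun e _ => ?_
  by_cases h : bad w e
  · rw [if_pos h, cu_bad g e h, Jr_bad b e h, wI_zero_left, if_pos rfl]
  · rw [if_neg h, J1_eb b e h, cu_io]

theorem sum_io (hw : 1 ≤ w) (y : Bnd → ℝ) (g : Ht (rc w K)) :
    ∑ e, uq (fb y) e * (cu (io w K g).1 e : ℝ) = ∑ e ∈ S1 w K, y e * (dh g.1 e : ℝ) := by
  rw [sum_S1 hw]
  refine Finset.sum_congr rfl fun e _ => ?_
  by_cases h : bad w e
  · rw [if_pos h, cu_bad g e h]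
    simp
  · rw [if_neg h, cu_io]
    rfl

/-- heights with positive weight vanish on the last column -/
theorem col_zero (b : ℝ) (h : RH (w + 1) K) (hh : ∏ e, wI (Jr b e) (cu h.1 e) ≠ 0) (j : ℕ)
    (hj : j < K) : h.1 (some (⟨w, Nat.lt_succ_self w⟩, ⟨j, hj⟩)) = 0 := by
  have h1 : ∀ (j : ℕ) (hj : j < K), cu h.1 ((⟨w, Nat.lt_succ_self w⟩, ⟨j, hj⟩), true) = 0 := by
    intro j hj
    by_contra h2
    refine hh (Finset.prod_eq_zero (Finset.mem_univ
      (((⟨w, Nat.lt_succ_self w⟩, ⟨j, hj⟩), true) : RE (w + 1) K)) ?_)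
    rw [Jr_bad b _ ⟨rfl, rfl⟩, wI_zero_left, if_neg h2]
  induction j with
  | zero =>
    have h2 := h1 0 hj
    rw [cu_true _ _ h.2, if_neg (by simp)] at h2
    linarith
  | succ j ih =>
    have h2 := h1 (j + 1) hj
    rw [cu_true _ _ h.2, if_pos (by simp)] at h2
    have h3 := ih (by omega)
    have h4 : dn (⟨j + 1, hj⟩ : Fin K) = ⟨j, by omega⟩ := rfl
    simp only [h4] at h2
    rw [h3] at h2
    linarith

/-- sums over the heights -/
theorem FF_RH (hw : 1 ≤ w) (b : ℝ) (F : (Option (RA (w + 1) K) → ℤ) → ℝ) :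
    ∑' h : RH (w + 1) K, (∏ e, wI (Jr b e) (cu h.1 e)) * F h.1 =
    ∑' g : Ht (rc w K), (∏ e ∈ S1 w K, wI (H910.R.J1 b (b / 2) w e) (dh g.1 e)) * F (io w K g).1 := by
  rw [← io_inj.tsum_eq (f := fun h : RH (w + 1) K => (∏ e, wI (Jr b e) (cu h.1 e)) * F h.1)]
  · refine tsum_congr fun g => ?_
    rw [prod_io hw]
  · intro h hh
    rw [Function.mem_support] at hh
    exact io_surj h fun j hj => col_zero b h (left_ne_zero_of_mul hh) j hj

/-- **The quadratic form is at most the variance of the heights.** -/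
theorem Qform_le_FF {b : ℝ} (hb : 0 ≤ b) (hw : 1 ≤ w) (hK : 1 ≤ K) (y : Bnd → ℝ)
    (hY1 : ∀ i : ℕ, y (((i : ℤ), (K : ℤ)), false) = 0) {I : Set (ℤ × ℤ)}
    (hI : ∀ v : ℤ × ℤ, 0 ≤ v.1 → v.1 ≤ w → 0 ≤ v.2 → v.2 ≤ K → (v ∈ I ↔ v.2 < K)) :
    Qform muInf (fun _ : KR (Rg w K) => b / 2) (chiI (Rg w K) I) (tb (Rg w K) (fb y)) *
      FF (H910.R.J1 b (b / 2) w) (S1 w K) (rc w K) (fun _ => 1) ≤
    FF (H910.R.J1 b (b / 2) w) (S1 w K) (rc w K) (fun h => (∑ e ∈ S1 w K, y e * (dh h e : ℝ)) ^ 2) := by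
  have h := Qform_le_ZZ (W := w + 1) (K := K) hb (J := Jr b) (fun e => Jr_nonneg hb e)
    (chiI (Rg w K) I) (tb (Rg w K) (fb y)) (uq (fb y)) (c0 := Real.exp (w * (b / 2)))
    (Real.exp_pos _) (fun s => by
      have h1 := Zr_rect hw hK b (fun v d => s * fb y v d) (fun i => by
        show s * y (((i : ℤ), (K : ℤ)), false) = 0
        rw [hY1, mul_zero]) hI
      exact h1)
  rw [← tsum_ZZ (Jr b) (fun _ => 1), ← tsum_ZZ (Jr b) (fun h =>
    (∑ e, aq (uq (fb y)) e * (grd qs qt h e : ℝ)) ^ 2)] at h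
  rw [FF_RH hw b (fun _ => 1), FF_RH hw b (fun h =>
    (∑ e, aq (uq (fb y)) e * (grd qs qt h e : ℝ)) ^ 2)] at h
  unfold FF
  refine h.trans (le_of_eq (tsum_congr fun g => ?_))
  rw [← sum_cu, sum_io hw]

end Vale.Agent.P159.T1.H532.RR
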