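import Vale.Agent.P159.T1.H532.RLim
import Vale.Agent.P159.T1.H418.Rect
import Vale.Agent.P159.T1.S.H112.P3Defs

/-!
The rectangle with three sides at height zero and one wired side: the lower bound `RL`.
-/

set_option linter.all false
set_option autoImplicit false

open Filter Topology

namespace Vale.Agent.P159.T1.H532

/-- **The variance of the heights of the rectangle.** -/
theorem rl {b : ℝ} (hb : 0 < b) : S.H112.RL b := by
  intro W T φ hφ hc hs ε hε
  exact rlim hb hφ hc hs (H418.glb_rect hb hφ hc hs) hε

end Vale.Agent.P159.T1.H532
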