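import Vale.Agent.P159.T1.H532.RZr
import Vale.Agent.P159.T1.H910.CosCut

/-!
The quadratic form of the rectangle (three free sides, wired upper side) is at most the variance
of the heights.
-/

set_option linter.all false
set_option autoImplicit false

open MeasureTheory Filter Topology
open scoped BigOperators

namespace Vale.Agent.P159.T1.H532.RR

open Vale.Agent.P159 Vale.Agent.P159.H353 Vale.Agent.P159.R2.H254 Vale.Agent.P159.T1.H857
  Vale.Agent.P159.UJ Vale.Agent.P159.H950 Vale.Agent.P159.T1.H931 Vale.Agent.P159.T1.H934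
  Vale.Agent.P159.T1.H910
open Vale.Agent.P159.T1.H532 (tb ratio_Q)

variable {W K : ℕ}

/-- the graph of the faces is connected -/
theorem conn_q : Conn (qs (W := W) (K := K)) qt := by
  have key : ∀ (m : ℕ) (v : RA W K), v.1.1 = m →
      Relation.ReflTransGen (adjG (qs (W := W) (K := K)) qt) (some v) none := by
    intro m
    induction m with
    | zero =>
      intro v hv
      refine Relation.ReflTransGen.single ⟨(v, false), Or.inl ⟨rfl, ?_⟩⟩
      unfold qt
      simp only [Bool.false_eq_true, if_false]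
      rw [if_neg (by omega)]
    | succ m ih =>
      intro v hv
      refine Relation.ReflTransGen.head (b := some (dn v.1, v.2)) ⟨(v, false), Or.inl ⟨rfl, ?_⟩⟩
        (ih _ (by simp only [dn]; omega))
      unfold qt
      simp only [Bool.false_eq_true, if_false]
      rw [if_pos (by omega)]
  have hn : ∀ u : Option (RA W K), Relation.ReflTransGen (adjG (qs (W := W) (K := K)) qt) u none := by
    intro u
    cases u with
    | none => exact Relation.ReflTransGen.refl
    | some v => exact key _ v rfl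
  have hsym : ∀ a b, adjG (qs (W := W) (K := K)) qt a b → adjG (qs (W := W) (K := K)) qt b a := by
    rintro a b ⟨e, h | h⟩
    · exact ⟨e, Or.inr ⟨h.1, h.2⟩⟩
    · exact ⟨e, Or.inl ⟨h.1, h.2⟩⟩
  have hrev : ∀ a b, Relation.ReflTransGen (adjG (qs (W := W) (K := K)) qt) a b →
      Relation.ReflTransGen (adjG (qs (W := W) (K := K)) qt) b a := by
    intro a b h
    induction h with
    | refl => exact Relation.ReflTransGen.refl
    | tail _ hab ih => exact Relation.ReflTransGen.head (hsym _ _ hab) ih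
  intro u v
  exact (hn u).trans (hrev _ _ (hn v))

/-- the gradient in terms of the currents -/
theorem wI_cu (b : ℝ) (h : Option (RA W K) → ℤ) (e : RE W K) :
    wI b (cu h e) = wI b (grd qs qt h e) := by
  unfold cu
  show _ = wI b (h (qt e) - h (qs e))
  split_ifs
  · rw [show h (qs e) - h (qt e) = -(h (qt e) - h (qs e)) by ring, wI_neg]
  · rfl

open Classical in
/-- sums over the heights which vanish at `none` -/
theorem tsum_QH (f : (Option (RA W K) → ℤ) → ℝ) :
    ∑' h : RH W K, f h.1 = ∑' h : Option (RA W K) → ℤ, if ∀ v ∈ ({none} : Set (Option (RA W K))), h v = 0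
      then f h else 0 := by
  have h1 := tsum_subtype {h : Option (RA W K) → ℤ | h none = 0} f
  refine (show ∑' h : RH W K, f h.1 = ∑' x : {h : Option (RA W K) → ℤ | h none = 0}, f x.1 from rfl).trans
    (h1.trans (tsum_congr fun h => ?_))
  by_cases h2 : h none = 0
  · rw [Set.indicator_of_mem (show h ∈ {h : Option (RA W K) → ℤ | h none = 0} from h2), if_pos]
    intro v hv
    rw [Set.mem_singleton_iff.1 hv]
    exact h2
  · rw [Set.indicator_of_notMem (show h ∉ {h : Option (RA W K) → ℤ | h none = 0} from h2), if_neg]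
    intro h3
    exact h2 (h3 none rfl)

/-- weight of the heights -/
theorem prod_cu (J : RE W K → ℝ) (h : Option (RA W K) → ℤ) : ∏ e, wI (J e) (cu h e) =
    Vale.Agent.P159.T1.H934.W (grd qs qt) J h := by
  unfold Vale.Agent.P159.T1.H934.W
  exact Finset.prod_congr rfl fun e _ => wI_cu _ h e

theorem tsum_ZZ (J : RE W K → ℝ) (f : (Option (RA W K) → ℤ) → ℝ) :
    ∑' h : RH W K, (∏ e, wI (J e) (cu h.1 e)) * f h.1 = H910.ZZ qs qt J {none} f := by
  rw [tsum_QH (fun h => (∏ e, wI (J e) (cu h e)) * f h)]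
  unfold H910.ZZ
  refine tsum_congr fun h => ?_
  rw [prod_cu]
  by_cases h2 : ∀ v ∈ ({none} : Set (Option (RA W K))), h v = 0
  · rw [if_pos h2, if_pos h2]
  · rw [if_neg h2, if_neg h2]

/-- coefficients of the gradient -/
def aq (u : RE W K → ℝ) (e : RE W K) : ℝ := if e.2 then -u e else u e

theorem sum_cu (u : RE W K → ℝ) (h : Option (RA W K) → ℤ) :
    ∑ e, u e * (cu h e : ℝ) = ∑ e, aq u e * (grd qs qt h e : ℝ) := by
  refine Finset.sum_congr rfl fun e _ => ?_
  unfold cu aq
  show _ = _ * ((h (qt e) - h (qs e) : ℤ) : ℝ)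
  split_ifs
  · push_cast; ring
  · rfl

/-- charges of a field -/
noncomputable def rq (a : RE W K → ℝ) (v : Option (RA W K)) : ℝ :=
  ∑ e, ((if qt e = v then a e else 0) - (if qs e = v then a e else 0))

theorem li_rq (a : RE W K → ℝ) (h : Option (RA W K) → ℤ) :
    li (rq a) h = ∑ e, a e * (grd qs qt h e : ℝ) := by
  classical
  unfold li rq
  simp only [Finset.sum_mul]
  rw [Finset.sum_comm]
  refine Finset.sum_congr rfl fun e _ => ?_
  simp only [sub_mul, ite_mul, zero_mul]
  rw [Finset.sum_sub_distrib, Finset.sum_ite_eq Finset.univ (qt e) (fun v => a e * (h v : ℝ)),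
    Finset.sum_ite_eq Finset.univ (qs e) (fun v => a e * (h v : ℝ))]
  simp only [Finset.mem_univ, if_true]
  show a e * (h (qt e) : ℝ) - a e * (h (qs e) : ℝ) = a e * ((h (qt e) - h (qs e) : ℤ) : ℝ)
  push_cast
  ring

theorem summ_q {J : RE W K → ℝ} (hJ : ∀ e, 0 ≤ J e) (a : RE W K → ℝ)
    {f : (Option (RA W K) → ℤ) → ℝ} {C : ℝ} (hf : ∀ h, |f h| ≤ C * Real.exp |li (rq a) h|) :
    Summable fun h : RH W K => (∏ e, wI (J e) (cu h.1 e)) * f h.1 := by
  classical
  have h1 := (summable_ZZ (conn_q (W := W) (K := K)) (J := J) hJ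
    (X := {none}) ⟨none, rfl⟩ (rq a) hf).of_abs
  have h2 := h1.comp_injective (i := fun h : RH W K => h.1) Subtype.val_injective
  refine h2.congr fun h => ?_
  simp only [Function.comp]
  rw [if_pos (fun v hv => by rw [Set.mem_singleton_iff.1 hv]; exact h.2), prod_cu]

/-- **The quadratic form of the spins is at most the variance of the heights.** `R` is any region
whose twisted partition functions are those of the rectangle, up to a constant. -/
theorem Qform_le_ZZ {κ : Type} [Fintype κ] {b : ℝ} (hb : 0 ≤ b) {J : RE W K → ℝ}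
    (hJ : ∀ e, 0 ≤ J e) (χ : κ → Chr Ginf) (t : κ → ℝ) (u : RE W K → ℝ) {c0 : ℝ} (hc0 : 0 < c0)
    (hZ : ∀ s : ℝ, Zr muInf (fun _ : κ => b / 2) χ (s • t) = c0 * Iq J fun e => s * u e) :
    Qform muInf (fun _ : κ => b / 2) χ t * H910.ZZ qs qt J {none} (fun _ => 1) ≤
    H910.ZZ qs qt J {none} (fun h => (∑ e, aq u e * (grd qs qt h e : ℝ)) ^ 2) := by
  have hb2 : ∀ _e : κ, 0 ≤ b / 2 := fun _ => by linarith
  set Q := Qform muInf (fun _ : κ => b / 2) χ t with hQ
  set w : RH W K → ℝ := fun h => ∏ e, wI (J e) (cu h.1 e) with hw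
  have w0 : ∀ h, 0 ≤ w h := fun h => Finset.prod_nonneg fun e _ => wI_nonneg (hJ e) _
  set X : (Option (RA W K) → ℤ) → ℝ := fun h => ∑ e, aq u e * (grd qs qt h e : ℝ) with hX
  have hXl : ∀ h, X h = li (rq (aq u)) h := fun h => (li_rq _ h).symm
  have s1 : Summable fun h : RH W K => w h * 1 :=
    summ_q hJ (aq u) (f := fun _ => 1) (C := 1) fun h => by
      rw [abs_one, one_mul]
      exact Real.one_le_exp (abs_nonneg _)
  have s2 : Summable fun h : RH W K => w h * X h.1 ^ 2 :=
    summ_q hJ (aq u) (f := fun h => X h ^ 2) (C := 2) fun h => by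
      rw [hXl]
      exact sq_le' _ h
  have e0 : H910.ZZ qs qt J {none} (fun _ => 1) = ∑' h : RH W K, w h * 1 :=
    (tsum_ZZ J fun _ => 1).symm
  have e2 : H910.ZZ qs qt J {none} (fun h => X h ^ 2) = ∑' h : RH W K, w h * X h.1 ^ 2 :=
    (tsum_ZZ J fun h => X h ^ 2).symm
  set S0 := ∑' h : RH W K, w h * 1 with hS0
  set S2 := ∑' h : RH W K, w h * X h.1 ^ 2 with hS2
  rw [e0, e2]
  have i0 : Iq J (fun e => (0 : ℝ) * u e) = S0 := by
    have h := (Iq_heights hJ (fun e => (0 : ℝ) * u e)).tsum_eq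
    rw [← h]
    refine tsum_congr fun h => ?_
    simp only [zero_mul, Finset.sum_const_zero, Real.cos_zero, hw]
  have hz0 : Zr muInf (fun _ : κ => b / 2) χ 0 = c0 * S0 := by
    have h := hZ 0
    rw [zero_smul, i0] at h
    exact h
  have hS0p : 0 < S0 := by
    have h := Zr_pos muInf (fun _ : κ => b / 2) χ 0
    rw [hz0] at h
    exact (pos_iff_pos_of_mul_pos h).1 hc0
  have hlow : ∀ s : ℝ, S0 - s ^ 2 * S2 / 2 ≤ Iq J (fun e => s * u e) := by
    intro s
    have h := Iq_heights hJ (fun e => s * u e)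
    have h3 := (s1.hasSum).sub ((s2.hasSum).mul_left (s ^ 2 / 2))
    have h4 : S0 - s ^ 2 / 2 * S2 ≤ Iq J (fun e => s * u e) := by
      refine hasSum_le (fun g => ?_) h3 h
      have h5 : ∑ e, s * u e * (cu g.1 e : ℝ) = s * X g.1 := by
        rw [hX]
        simp only
        rw [← sum_cu, Finset.mul_sum]
        exact Finset.sum_congr rfl fun e _ => by ring
      rw [h5]
      have h6 := Real.one_sub_sq_div_two_le_cos (x := s * X g.1)
      have h7 : w g * (1 - (s * X g.1) ^ 2 / 2) ≤ w g * Real.cos (s * X g.1) :=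
        mul_le_mul_of_nonneg_left h6 (w0 g)
      calc w g * 1 - s ^ 2 / 2 * (w g * X g.1 ^ 2) = w g * (1 - (s * X g.1) ^ 2 / 2) := by ring
        _ ≤ _ := h7
    linarith
  obtain ⟨C, u0, hC, hu0, h⟩ := ratio_Q muInf (J := fun _ : κ => b / 2) χ hb2 t
  have key : ∀ s : ℝ, 0 < s → s ≤ u0 → Q * S0 - S2 ≤ 2 * C * S0 * s := by
    intro s hs hle
    have h1 := (abs_le.1 (h s hs hle)).2
    rw [hZ s, hz0, mul_div_mul_left _ _ hc0.ne', ← hQ] at h1
    have h4 : Iq J (fun e => s * u e) / S0 ≤ 1 - s ^ 2 * Q / 2 + C * s ^ 3 := by linarith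
    rw [div_le_iff₀ hS0p] at h4
    have h5 := hlow s
    have h6 : s ^ 2 * (Q * S0 - S2) ≤ s ^ 2 * (2 * C * S0 * s) := by nlinarith
    exact le_of_mul_le_mul_left h6 (by positivity)
  by_contra hcon
  push Not at hcon
  have hd : 0 < Q * S0 - S2 := by linarith
  obtain ⟨s, hs, hle, hlt⟩ : ∃ s : ℝ, 0 < s ∧ s ≤ u0 ∧ 2 * C * S0 * s < Q * S0 - S2 := by
    set d := Q * S0 - S2
    refine ⟨min u0 (d / (4 * C * S0 + 1)), by positivity, min_le_left _ _, ?_⟩
    calc 2 * C * S0 * min u0 (d / (4 * C * S0 + 1)) ≤ 2 * C * S0 * (d / (4 * C * S0 + 1)) :=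
          mul_le_mul_of_nonneg_left (min_le_right _ _) (by positivity)
      _ < d := by
        rw [← mul_div_assoc, div_lt_iff₀ (by positivity)]
        have : 0 ≤ C * S0 * d := by positivity
        nlinarith
  linarith [key s hs hle]

end Vale.Agent.P159.T1.H532.RR
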