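import Vale.Agent.P159.T1.H532.RDual
import Vale.Agent.P159.T1.H532.QZr

/-!
The twisted partition functions of the rectangle `[0, w] x [0, K)` of free sites with three free
sides and a wired upper side, as integrals over the free spins and as sums over heights.
-/

set_option linter.all false
set_option autoImplicit false

open MeasureTheory Filter Topology
open scoped BigOperators

namespace Vale.Agent.P159.T1.H532.RR

open Vale.Agent.P159 Vale.Agent.P159.H353 Vale.Agent.P159.R2.H254 Vale.Agent.P159.T1.H857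
  Vale.Agent.P159.UJ Vale.Agent.P159.H950 Vale.Agent.P159.T1.H931
open Vale.Agent.P159.T1.H532 (dir hv_dir tb cosT_zero' sinT_zero' sum_shift)

variable {W K : ℕ}

/-- sites as elements of `Option (RA W K)` -/
def toO (W K : ℕ) (v : ℤ × ℤ) : Option (RA W K) :=
  if h : 0 ≤ v.1 ∧ v.1 < W ∧ 0 ≤ v.2 ∧ v.2 < K then
    some (⟨v.1.toNat, by omega⟩, ⟨v.2.toNat, by omega⟩) else none

/-- embedding of the free sites -/
def emb (v : RA W K) : ℤ × ℤ := ((v.1.1 : ℤ), (v.2.1 : ℤ))

theorem emb_inj : Function.Injective (emb (W := W) (K := K)) := by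
  rintro ⟨⟨a, ha⟩, ⟨b, hb⟩⟩ ⟨⟨c, hc⟩, ⟨d, hd⟩⟩ h
  unfold emb at h
  simp only [Prod.mk.injEq, Nat.cast_inj] at h
  simp only [Prod.mk.injEq, Fin.mk.injEq]
  exact h

theorem toO_emb (v : RA W K) : toO W K (emb v) = some v := by
  obtain ⟨⟨a, ha⟩, ⟨b, hb⟩⟩ := v
  unfold toO emb
  rw [dif_pos (by simp only; omega)]
  simp

theorem toO_nat {i j : ℕ} (hi : i < W) (hj : j < K) :
    toO W K ((i : ℤ), (j : ℤ)) = some (⟨i, hi⟩, ⟨j, hj⟩) := by
  unfold toO
  rw [dif_pos (by simp only; omega)]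
  simp

theorem toO_none {v : ℤ × ℤ} (h : ¬ (0 ≤ v.1 ∧ v.1 < W ∧ 0 ≤ v.2 ∧ v.2 < K)) :
    toO W K v = none := by
  unfold toO
  exact dif_neg h

/-- the spins of the sites of the rectangle, `I` = the sites below the row `K` -/
theorem proj_toO {I : Set (ℤ × ℤ)} (x : Ginf) (v : ℤ × ℤ) (h1 : 0 ≤ v.1) (h2 : v.1 < W)
    (h3 : 0 ≤ v.2) (hI : v ∈ I ↔ v.2 < K) :
    proj I x v = exO (relabel (emb (W := W) (K := K)) x) (toO W K v) := by
  by_cases h : v ∈ I
  · have h4 := hI.1 h
    rw [proj_of_mem h]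
    unfold toO
    rw [dif_pos ⟨h1, h2, h3, h4⟩]
    show x v = x (emb _)
    congr 1
    unfold emb
    ext
    · simp only; omega
    · simp only; omega
  · have h4 : ¬ v.2 < K := fun h5 => h (hI.2 h5)
    rw [proj_of_notMem h, toO_none (fun h5 => h4 h5.2.2.2)]
    rfl

/-- energy of half a bond -/
noncomputable def gE (b : ℝ) (W K : ℕ) (Y : Fld) (θ : RA W K → T) (v : ℤ × ℤ) (d : Bool) : ℝ :=
  b / 2 * (cosT (exO θ (toO W K v) - exO θ (toO W K (v + dir d))) * Real.cos (Y v d) -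
    sinT (exO θ (toO W K v) - exO θ (toO W K (v + dir d))) * Real.sin (Y v d))

/-- couplings of the bonds -/
noncomputable def Jr (b : ℝ) (e : RE W K) : ℝ :=
  if e.2 then (if e.1.1.1 + 1 = W then 0 else if 0 < e.1.2.1 then b else b / 2)
  else (if e.1.1.1 = 0 ∨ e.1.1.1 + 1 = W then b / 2 else b)

/-- twist on the bonds of the rectangle -/
def uq (Y : Fld) (e : RE W K) : ℝ := Y (emb e.1) (!e.2)

theorem Jr_nonneg {b : ℝ} (hb : 0 ≤ b) (e : RE W K) : 0 ≤ Jr b e := by
  unfold Jr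
  split_ifs <;> linarith

theorem dO_q (θ : RA W K → T) (e : RE W K) : dO qp qq θ e =
    exO θ (toO W K (emb e.1)) - exO θ (toO W K (emb e.1 + dir (!e.2))) := by
  obtain ⟨v, β⟩ := e
  unfold dO
  rw [toO_emb]
  congr 2
  obtain ⟨⟨a, ha⟩, ⟨c, hc⟩⟩ := v
  cases β
  · unfold qq dir emb up
    simp only [Bool.false_eq_true, if_false, Bool.not_false, if_true, Prod.mk_add_mk, add_zero]
    split_ifs with h
    · have := toO_nat (W := W) (K := K) ha h
      push_cast at this
      exact this.symm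
    · rw [toO_none]
      simp only
      omega
  · unfold qq dir emb up
    simp only [Bool.false_eq_true, if_false, Bool.not_true, if_true, Prod.mk_add_mk, add_zero]
    split_ifs with h
    · have := toO_nat (W := W) (K := K) h hc
      push_cast at this
      exact this.symm
    · rw [toO_none]
      simp only
      omega

/-- the cells of the rectangle -/
noncomputable def Rg (w K : ℕ) : Finset (ℤ × ℤ) := Finset.Ico (0 : ℤ) w ×ˢ Finset.Ico (0 : ℤ) K

theorem mem_Rg {w K : ℕ} {c : ℤ × ℤ} : c ∈ Rg w K ↔ 0 ≤ c.1 ∧ c.1 < w ∧ 0 ≤ c.2 ∧ c.2 < K := by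
  unfold Rg
  rw [Finset.mem_product, Finset.mem_Ico, Finset.mem_Ico]
  tauto

theorem sum_Rg (w K : ℕ) (F : ℤ × ℤ → ℝ) :
    ∑ c ∈ Rg w K, F c = ∑ i ∈ Finset.range w, ∑ j ∈ Finset.range K, F ((i : ℤ), (j : ℤ)) := by
  unfold Rg
  rw [Finset.sum_product]
  have key : ∀ (n : ℕ) (G : ℤ → ℝ), ∑ i ∈ Finset.Ico (0 : ℤ) (n : ℤ), G i =
      ∑ i ∈ Finset.range n, G (i : ℤ) := by
    intro n G
    symm
    refine Finset.sum_nbij (fun i : ℕ => (i : ℤ)) ?_ ?_ ?_ ?_
    · intro i hi
      simp only [Finset.mem_range] at hi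
      simp only [Finset.mem_Ico]
      omega
    · intro i _ j _ h
      simp only at h
      exact_mod_cast h
    · intro i hi
      simp only [Finset.coe_Ico, Set.mem_Ico] at hi
      refine ⟨i.toNat, ?_, ?_⟩
      · simp only [Finset.coe_range, Set.mem_Iio]; omega
      · simp only; omega
    · intro i _; rfl
  rw [key]
  refine Finset.sum_congr rfl fun i _ => ?_
  rw [key]

/-- sum over the bonds -/
theorem sum_RE (F : RE W K → ℝ) : ∑ e, F e = ∑ v : RA W K, (F (v, true) + F (v, false)) := by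
  rw [Fintype.sum_prod_type (f := F)]
  exact Finset.sum_congr rfl fun x _ => Fintype.sum_bool _

theorem sum_RA (F : ℕ → ℕ → ℝ) : ∑ v : RA W K, F v.1.1 v.2.1 =
    ∑ i ∈ Finset.range W, ∑ j ∈ Finset.range K, F i j := by
  rw [Fintype.sum_prod_type (f := fun v : RA W K => F v.1.1 v.2.1)]
  rw [← Fin.sum_univ_eq_sum_range (fun i => ∑ j ∈ Finset.range K, F i j) W]
  refine Finset.sum_congr rfl fun i _ => ?_
  rw [← Fin.sum_univ_eq_sum_range (fun j => F i.1 j) K]

/-- the energy in terms of the bonds -/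
theorem energy_q {w : ℕ} (hw : 1 ≤ w) (hK : 1 ≤ K) (b : ℝ) (Y : Fld)
    (hY1 : ∀ i : ℕ, Y ((i : ℤ), (K : ℤ)) false = 0) (θ : RA (w + 1) K → T) :
    ∑ i ∈ Finset.range w, ∑ j ∈ Finset.range K,
      (gE b (w + 1) K Y θ ((i : ℤ), (j : ℤ)) false +
        gE b (w + 1) K Y θ ((i : ℤ), (j : ℤ) + 1) false +
        gE b (w + 1) K Y θ ((i : ℤ), (j : ℤ)) true +
        gE b (w + 1) K Y θ ((i : ℤ) + 1, (j : ℤ)) true) =
    w * (b / 2) + ∑ e : RE (w + 1) K, Jr b e * (cosT (dO qp qq θ e) * Real.cos (uq Y e) -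
      sinT (dO qp qq θ e) * Real.sin (uq Y e)) := by
  set gH : ℕ → ℕ → ℝ := fun i j => gE b (w + 1) K Y θ ((i : ℤ), (j : ℤ)) false with hgH
  set gV : ℕ → ℕ → ℝ := fun i j => gE b (w + 1) K Y θ ((i : ℤ), (j : ℤ)) true with hgV
  have hz1 : ∀ i : ℕ, gH i K = b / 2 := by
    intro i
    simp only [hgH]
    unfold gE
    rw [hY1, toO_none (v := ((i : ℤ), (K : ℤ))) (by simp), toO_none (by
      unfold dir; simp)]
    rw [sub_self, cosT_zero', sinT_zero', Real.cos_zero, Real.sin_zero]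
    ring
  have s1 : ∀ i : ℕ, ∑ j ∈ Finset.range K, gH i (j + 1) =
      ∑ j ∈ Finset.range K, gH i j - gH i 0 + b / 2 := by
    intro i
    have h := sum_shift K (fun j : ℕ => gH i j)
    simp only [hz1] at h
    exact h
  -- left side
  have hleft : ∑ i ∈ Finset.range w, ∑ j ∈ Finset.range K,
      (gE b (w + 1) K Y θ ((i : ℤ), (j : ℤ)) false +
        gE b (w + 1) K Y θ ((i : ℤ), (j : ℤ) + 1) false +
        gE b (w + 1) K Y θ ((i : ℤ), (j : ℤ)) true +
        gE b (w + 1) K Y θ ((i : ℤ) + 1, (j : ℤ)) true) =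
      2 * (∑ i ∈ Finset.range w, ∑ j ∈ Finset.range K, gH i j) -
        ∑ i ∈ Finset.range w, gH i 0 + w * (b / 2) +
      (∑ i ∈ Finset.range w, ∑ j ∈ Finset.range K, gV i j +
        ∑ i ∈ Finset.range w, ∑ j ∈ Finset.range K, gV (i + 1) j) := by
    have e1 : ∀ i j : ℕ, gE b (w + 1) K Y θ ((i : ℤ), (j : ℤ) + 1) false = gH i (j + 1) := by
      intro i j
      simp only [hgH]
      push_cast
      rfl
    have e2 : ∀ i j : ℕ, gE b (w + 1) K Y θ ((i : ℤ) + 1, (j : ℤ)) true = gV (i + 1) j := by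
      intro i j
      simp only [hgV]
      push_cast
      rfl
    simp only [e1, e2, Finset.sum_add_distrib]
    rw [Finset.sum_congr rfl fun i _ => s1 i]
    simp only [Finset.sum_add_distrib, Finset.sum_sub_distrib, Finset.sum_const, Finset.card_range,
      nsmul_eq_mul]
    ring
  -- the sum over the rows of vertical bonds
  have hver : (∑ i ∈ Finset.range w, ∑ j ∈ Finset.range K, gV i j +
        ∑ i ∈ Finset.range w, ∑ j ∈ Finset.range K, gV (i + 1) j) =
      ∑ i ∈ Finset.range (w + 1), ∑ j ∈ Finset.range K,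
        (if i = 0 ∨ i + 1 = w + 1 then 1 else 2) * gV i j := by
    set S : ℕ → ℝ := fun i => ∑ j ∈ Finset.range K, gV i j with hS
    have e1 : ∀ i, ∑ j ∈ Finset.range K, (if i = 0 ∨ i + 1 = w + 1 then (1 : ℝ) else 2) * gV i j =
        (if i = 0 ∨ i + 1 = w + 1 then 1 else 2) * S i := by
      intro i
      rw [Finset.mul_sum]
    rw [Finset.sum_congr rfl fun i _ => e1 i]
    obtain ⟨k, rfl⟩ : ∃ k, w = k + 1 := ⟨w - 1, by omega⟩
    rw [Finset.sum_range_succ (fun i => (if i = 0 ∨ i + 1 = k + 1 + 1 then (1 : ℝ) else 2) * S i),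
      Finset.sum_range_succ' (fun i => (if i = 0 ∨ i + 1 = k + 1 + 1 then (1 : ℝ) else 2) * S i)]
    have e2 : ∑ i ∈ Finset.range k, (if i + 1 = 0 ∨ i + 1 + 1 = k + 1 + 1 then (1 : ℝ) else 2) *
        S (i + 1) = ∑ i ∈ Finset.range k, 2 * S (i + 1) := by
      refine Finset.sum_congr rfl fun i hi => ?_
      rw [if_neg]
      rw [Finset.mem_range] at hi
      omega
    rw [e2, if_pos (Or.inl rfl), if_pos (Or.inr rfl), ← Finset.mul_sum]
    have e3 : ∑ i ∈ Finset.range (k + 1), ∑ j ∈ Finset.range K, gV i j =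
        ∑ i ∈ Finset.range k, S (i + 1) + S 0 := Finset.sum_range_succ' S k
    have e4 : ∑ i ∈ Finset.range (k + 1), ∑ j ∈ Finset.range K, gV (i + 1) j =
        ∑ i ∈ Finset.range k, S (i + 1) + S (k + 1) := Finset.sum_range_succ (fun i => S (i + 1)) k
    rw [e3, e4]
    ring
  have hhor : 2 * (∑ i ∈ Finset.range w, ∑ j ∈ Finset.range K, gH i j) -
        ∑ i ∈ Finset.range w, gH i 0 * (if 0 < K then 1 else 0) =
      ∑ i ∈ Finset.range (w + 1), ∑ j ∈ Finset.range K,
        (if i + 1 = w + 1 then 0 else if 0 < j then 2 else 1) * gH i j := by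
    rw [Finset.sum_range_succ]
    have e1 : ∑ j ∈ Finset.range K, (if w + 1 = w + 1 then (0 : ℝ) else if 0 < j then 2 else 1) *
        gH w j = 0 := by
      refine Finset.sum_eq_zero fun j _ => ?_
      rw [if_pos rfl, zero_mul]
    rw [e1, add_zero, Finset.mul_sum, ← Finset.sum_sub_distrib]
    refine Finset.sum_congr rfl fun i hi => ?_
    rw [Finset.mem_range] at hi
    rcases Nat.eq_zero_or_pos K with h | h
    · subst h; simp
    · obtain ⟨k, rfl⟩ : ∃ k, K = k + 1 := ⟨K - 1, by omega⟩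
      rw [if_pos h, mul_one, Finset.sum_range_succ', Finset.sum_range_succ']
      rw [if_neg (by omega), if_neg (by omega)]
      have e2 : ∑ j ∈ Finset.range k, (if i + 1 = w + 1 then (0 : ℝ) else if 0 < j + 1 then 2
          else 1) * gH i (j + 1) = ∑ j ∈ Finset.range k, 2 * gH i (j + 1) := by
        refine Finset.sum_congr rfl fun j _ => ?_
        rw [if_neg (by omega), if_pos (by omega)]
      rw [e2, ← Finset.mul_sum]
      ring
  -- right side
  have hG : ∀ (v : RA (w + 1) K) (β : Bool), b / 2 * (cosT (dO qp qq θ (v, β)) *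
      Real.cos (uq Y (v, β)) - sinT (dO qp qq θ (v, β)) * Real.sin (uq Y (v, β))) =
      gE b (w + 1) K Y θ ((v.1.1 : ℤ), (v.2.1 : ℤ)) (!β) := by
    intro v β
    rw [dO_q]
    rfl
  have hright : ∑ e : RE (w + 1) K, Jr b e * (cosT (dO qp qq θ e) * Real.cos (uq Y e) -
      sinT (dO qp qq θ e) * Real.sin (uq Y e)) =
      ∑ v : RA (w + 1) K, ((if v.1.1 + 1 = w + 1 then 0 else if 0 < v.2.1 then 2 else 1) *
        gH v.1.1 v.2.1 + (if v.1.1 = 0 ∨ v.1.1 + 1 = w + 1 then 1 else 2) * gV v.1.1 v.2.1) := by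
    rw [sum_RE]
    refine Finset.sum_congr rfl fun v _ => ?_
    have h1 := hG v true
    have h2 := hG v false
    simp only [Bool.not_true, Bool.not_false] at h1 h2
    congr 1
    · show Jr b (v, true) * _ = _ * gE b (w + 1) K Y θ ((v.1.1 : ℤ), (v.2.1 : ℤ)) false
      rw [← h1]
      unfold Jr
      simp only [if_true]
      split_ifs <;> ring
    · show Jr b (v, false) * _ = _ * gE b (w + 1) K Y θ ((v.1.1 : ℤ), (v.2.1 : ℤ)) true
      rw [← h2]
      unfold Jr
      simp only [Bool.false_eq_true, if_false]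
      split_ifs <;> ring
  have hr2 := sum_RA (W := w + 1) (K := K) (fun i j =>
    ((if i + 1 = w + 1 then 0 else if 0 < j then 2 else 1) * gH i j +
      (if i = 0 ∨ i + 1 = w + 1 then 1 else 2) * gV i j))
  rw [hright, hr2, hleft, hver]
  simp only [Finset.sum_add_distrib]
  rw [← hhor]
  simp only [if_pos (show 0 < K by omega), mul_one]
  ring

/-- the partition function as an integral over the free spins -/
noncomputable def Iq (J : RE W K → ℝ) (u : RE W K → ℝ) : ℝ :=
  ∫ θ : RA W K → T, Real.exp (∑ e : RE W K, J e * (cosT (dO qp qq θ e) * Real.cos (u e) -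
    sinT (dO qp qq θ e) * Real.sin (u e))) ∂torusHaar (RA W K)

/-- the twisted partition function of the rectangle -/
theorem Zr_rect {w : ℕ} (hw : 1 ≤ w) (hK : 1 ≤ K) (b : ℝ) (Y : Fld)
    (hY1 : ∀ i : ℕ, Y ((i : ℤ), (K : ℤ)) false = 0) {I : Set (ℤ × ℤ)}
    (hI : ∀ v : ℤ × ℤ, 0 ≤ v.1 → v.1 ≤ w → 0 ≤ v.2 → v.2 ≤ K → (v ∈ I ↔ v.2 < K)) :
    Zr muInf (fun _ : KR (Rg w K) => b / 2) (chiI (Rg w K) I) (tb (Rg w K) Y) =
      Real.exp (w * (b / 2)) * Iq (W := w + 1) (K := K) (Jr b) (uq Y) := by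
  have h1 : ∀ x : Ginf, ∑ e : KR (Rg w K), b / 2 *
      ((chiI (Rg w K) I e).c x * Real.cos (tb (Rg w K) Y e) -
        (chiI (Rg w K) I e).s x * Real.sin (tb (Rg w K) Y e)) =
      w * (b / 2) + ∑ e : RE (w + 1) K, Jr b e *
        (cosT (dO qp qq (relabel (emb (W := w + 1) (K := K)) x) e) *
        Real.cos (uq Y e) - sinT (dO qp qq (relabel (emb (W := w + 1) (K := K)) x) e) *
        Real.sin (uq Y e)) := by
    intro x
    rw [← energy_q hw hK b Y hY1]
    have h2 : ∀ e : KR (Rg w K), b / 2 *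
        ((chiI (Rg w K) I e).c x * Real.cos (tb (Rg w K) Y e) -
        (chiI (Rg w K) I e).s x * Real.sin (tb (Rg w K) Y e)) =
        gE b (w + 1) K Y (relabel (emb (W := w + 1) (K := K)) x) (hu e.1 e.2) e.2.1 := by
      intro e
      have he := mem_Rg.1 e.1.2
      have q1 : 0 ≤ (hu e.1 e.2).1 ∧ (hu e.1 e.2).1 ≤ w ∧ 0 ≤ (hu e.1 e.2).2 ∧
          (hu e.1 e.2).2 ≤ K := by
        unfold hu
        simp only
        split_ifs <;> omega
      have q2 : 0 ≤ (hv e.1 e.2).1 ∧ (hv e.1 e.2).1 ≤ w ∧ 0 ≤ (hv e.1 e.2).2 ∧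
          (hv e.1 e.2).2 ≤ K := by
        obtain ⟨c, ⟨t1, t2⟩⟩ := e
        unfold hv hu
        cases t1 <;> cases t2 <;> simp <;> simp only at he <;> omega
      show b / 2 * (cosT (proj I x (hu e.1 e.2) - proj I x (hv e.1 e.2)) *
        Real.cos (tb (Rg w K) Y e) - sinT (proj I x (hu e.1 e.2) -
        proj I x (hv e.1 e.2)) * Real.sin (tb (Rg w K) Y e)) = _
      rw [proj_toO (W := w + 1) (K := K) x _ q1.1 (by push_cast; omega) q1.2.2.1
        (hI _ q1.1 q1.2.1 q1.2.2.1 q1.2.2.2),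
        proj_toO (W := w + 1) (K := K) x _ q2.1 (by push_cast; omega) q2.2.2.1
        (hI _ q2.1 q2.2.1 q2.2.2.1 q2.2.2.2), hv_dir]
      rfl
    rw [Finset.sum_congr rfl fun e _ => h2 e,
      sum_KR (Rg w K) (fun c t => gE b (w + 1) K Y (relabel (emb (W := w + 1) (K := K)) x)
        (hu c t) t.1),
      sum_Rg]
    refine Finset.sum_congr rfl fun i _ => Finset.sum_congr rfl fun j _ => ?_
    simp only [hu, Bool.false_and, Bool.and_false, Bool.and_true, Bool.not_false, Bool.not_true,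
      Bool.true_and, if_true, Bool.false_eq_true, if_false, add_zero]
  unfold Zr
  simp only [h1]
  rw [integral_relabel (emb (W := w + 1) (K := K)) emb_inj muInf (torusHaar (RA (w + 1) K))
    (f := fun θ : RA (w + 1) K → T => Real.exp (w * (b / 2) + ∑ e : RE (w + 1) K, Jr b e *
      (cosT (dO qp qq θ e) * Real.cos (uq Y e) - sinT (dO qp qq θ e) * Real.sin (uq Y e))))]
  · unfold Iq
    rw [← integral_const_mul]
    congr 1
    ext θ
    rw [Real.exp_add]
  · refine Real.continuous_exp.comp (continuous_const.add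
      (continuous_finsetSum _ fun e _ => continuous_const.mul ?_))
    exact ((cont_cos.comp (dO_cont qp qq e)).mul continuous_const).sub
      ((cont_sin.comp (dO_cont qp qq e)).mul continuous_const)

/-- the integral is the complex one -/
theorem ZG_Iq (J : RE W K → ℝ) (u : RE W K → ℝ) :
    ZG (A := RA W K) qp qq J (fun e => (u e : ℂ)) 0 = (Iq J u : ℂ) := by
  unfold ZG Iq
  rw [← integral_complex_ofReal]
  congr 1
  ext θ
  have e1 : ∏ v : RA W K, (fourier ((0 : RA W K → ℤ) v) (θ v) : ℂ) = 1 :=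
    Finset.prod_eq_one fun v _ => by simp
  rw [e1, one_mul, ← Complex.exp_sum, Complex.ofReal_exp]
  congr 1
  push_cast
  refine Finset.sum_congr rfl fun e _ => ?_
  unfold cosC
  ring

/-- **Expansion in heights.** -/
theorem Iq_heights {J : RE W K → ℝ} (hJ : ∀ e, 0 ≤ J e) (u : RE W K → ℝ) :
    HasSum (fun h : RH W K => (∏ e, wI (J e) (cu h.1 e)) *
      Real.cos (∑ e, u e * (cu h.1 e : ℝ))) (Iq J u) := by
  have h := ZG_quad hJ (fun e => (u e : ℂ))
  rw [ZG_Iq] at h
  have h2 := Complex.hasSum_re h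
  rw [Complex.ofReal_re] at h2
  have e0 : (fun h : RH W K => (∏ e, wI (J e) (cu h.1 e)) *
      Real.cos (∑ e, u e * (cu h.1 e : ℝ))) = fun h : RH W K =>
      (((∏ e, wI (J e) (cu h.1 e) : ℝ) : ℂ) *
        Complex.exp (Complex.I * ∑ e, (u e : ℂ) * (cu h.1 e : ℂ))).re := by
    funext h
    rw [Complex.re_ofReal_mul]
    congr 1
    have e1 : Complex.I * ∑ e, (u e : ℂ) * (cu h.1 e : ℂ) =
        ((∑ e, u e * (cu h.1 e : ℝ) : ℝ) : ℂ) * Complex.I := by
      push_cast
      ring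
    rw [e1, Complex.exp_ofReal_mul_I_re]
  rw [e0]
  exact h2

end Vale.Agent.P159.T1.H532.RR
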