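import Vale.Agent.P159.T1.H532.QLim
import Vale.Agent.P159.T1.H910.Far
import Vale.Agent.P159.T1.H910.Sym
import Vale.Agent.P159.H170.Final

/-!
`StmtV` of the direct route, from the bound for the far sides of the quadrant box.
-/

set_option autoImplicit false

open MeasureTheory Filter Topology
open scoped BigOperators

namespace Vale.Agent.P159.T1.H532

open Vale.Agent.P159 Vale.Agent.P159.T1.D Vale.Agent.P159.T1.H910

theorem dr_gn_supp {φ : ℝ × ℝ → ℝ} {n : ℕ} (hn : 1 ≤ n) {a : ℕ}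
    (hp : ∀ z ∈ tsupport φ, 0 < z.1 ∧ 0 < z.2) (hs : ∀ z ∈ tsupport φ, z.1 ≤ a ∧ z.2 ≤ a)
    {f : Z2} (hf : gn φ n f ≠ 0) : 0 < f.1 ∧ f.1 ≤ a * n ∧ 0 < f.2 ∧ f.2 ≤ a * n := by
  have hn0 : (0 : ℝ) < n := by
    have : 0 < n := by omega
    exact_mod_cast this
  have h1 := hp _ (subset_tsupport φ hf)
  have h2 := hs _ (subset_tsupport φ hf)
  simp only at h1 h2
  rw [div_le_iff₀ hn0, div_le_iff₀ hn0] at h2
  have h3 : 0 < (f.1 : ℝ) := by
    have := mul_pos h1.1 hn0
    rwa [div_mul_cancel₀ _ hn0.ne'] at this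
  have h4 : 0 < (f.2 : ℝ) := by
    have := mul_pos h1.2 hn0
    rwa [div_mul_cancel₀ _ hn0.ne'] at this
  refine ⟨by exact_mod_cast h3, by exact_mod_cast h2.1, by exact_mod_cast h4,
    by exact_mod_cast h2.2⟩

/-- **`StmtV` from the bound for the far sides.** -/
theorem stmtV_of (hF : ∀ b : ℝ, 0 < b → FarBox b (b / 2)) : StmtV := by
  intro b hbc
  have hfin := H170.final.2.2.1.2.2.2 b hbc
  have hb : 0 < b := H170.bCrit_pos.trans_le hbc
  have hY : 0 < helicity b := by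
    have h1 : 2 / Real.pi ≤ helicity b := hfin.2.1.trans hfin.2.2.1
    exact lt_of_lt_of_le (by have := Real.pi_pos; positivity) h1
  obtain ⟨C0, κ, hC0, hκ, hbox⟩ := box_le (c := b / 2) (by positivity) (by linarith) (hF b hb)
  obtain ⟨C, hC, hC1, hC2⟩ : ∃ C : ℝ, 0 < C ∧ (4 : ℝ) ^ κ ≤ C ∧ C0 * 2 ^ κ ≤ helicity b * C := by
    refine ⟨max (4 ^ κ) (C0 * 2 ^ κ / helicity b), ?_, le_max_left _ _, ?_⟩
    · exact lt_of_lt_of_le (by positivity) (le_max_left _ _)
    · have h1 : C0 * 2 ^ κ = helicity b * (C0 * 2 ^ κ / helicity b) := by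
        field_simp
      calc C0 * 2 ^ κ = helicity b * (C0 * 2 ^ κ / helicity b) := h1
        _ ≤ _ := mul_le_mul_of_nonneg_left (le_max_right _ _) hY.le
  refine ⟨C, κ, hC, hκ, ?_⟩
  intro φ hφ hc hp a R ha haR hs ε hε
  have hφ1 : ContDiff ℝ 1 φ := hφ.of_le (by norm_num)
  have hDir : 0 ≤ D.Dir φ := by
    unfold D.Dir
    exact integral_nonneg fun z => by positivity
  have ha0 : (0 : ℝ) < a := by
    have : 0 < a := by omega
    exact_mod_cast this
  have hR0 : (0 : ℝ) < R := by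
    have : 0 < R := by omega
    exact_mod_cast this
  by_cases h4 : 4 * a ≤ R
  swap
  · -- trivial case
    refine ⟨0, fun n _ u x y z U hU g hg hg0 => ?_⟩
    have h5 : (1 : ℝ) / 4 ≤ (a : ℝ) / R := by
      rw [div_le_div_iff₀ (by norm_num) hR0]
      have : R ≤ 4 * a := by omega
      have h6 : (R : ℝ) ≤ 4 * a := by exact_mod_cast this
      linarith
    have h6 : (1 / 4 : ℝ) ^ κ ≤ ((a : ℝ) / R) ^ κ :=
      Real.rpow_le_rpow (by norm_num) h5 hκ.le
    have h7 : (4 : ℝ) ^ κ * (1 / 4 : ℝ) ^ κ = 1 := by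
      rw [← Real.mul_rpow (by norm_num) (by norm_num)]
      norm_num
    have h8 : 1 ≤ C * ((a : ℝ) / R) ^ κ := by
      rw [← h7]
      exact mul_le_mul hC1 h6 (by positivity) hC.le
    have h9 : helicity b * D.Dir φ * (1 - C * ((a : ℝ) / R) ^ κ) ≤ 0 :=
      mul_nonpos_of_nonneg_of_nonpos (by positivity) (by linarith)
    have h10 := Vr_nonneg hb.le U (dr g)
    linarith
  · have haR' : a < R := by omega
    obtain ⟨ε2, hε2, hε3⟩ : ∃ ε2 : ℝ, 0 < ε2 ∧ C0 * 2 ^ κ * ε2 ≤ ε / 2 := by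
      refine ⟨ε / 2 / (C0 * 2 ^ κ), by positivity, le_of_eq ?_⟩
      field_simp
    have hq := qlim hb hφ hc hp haR' hs (ε := ε / 2) (by positivity)
    have hE : ∀ᶠ n : ℕ in atTop, ∑ e ∈ SQ (n * R), dr (gn φ n) e ^ 2 ≤ D.Dir φ + ε2 := by
      have h := (nf_gn hφ1 hc).energy cast_atTop (S := fun N => SQ (N * R)) ?_
      · have e : ∫ z, gF φ true z ^ 2 + gF φ false z ^ 2 = D.Dir φ := by
          unfold D.Dir gF
          simp only [if_true, Bool.false_eq_true, if_false, neg_sq]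
        rw [e] at h
        exact h.eventually (eventually_le_nhds (by linarith))
      · filter_upwards [eventually_ge_atTop 1] with n hn e he
        rw [mem_SQ, mem_bxQ]
        have h5 : a * n + 1 < n * R := by
          have : 4 * a * n ≤ R * n := Nat.mul_le_mul_right n h4
          have : 1 ≤ a * n := Nat.mul_pos (by omega) (by omega)
          nlinarith
        have h6 : ((a : ℤ) * n) + 1 < ((n * R : ℕ) : ℤ) := by exact_mod_cast h5
        have h7 : gn φ n (D.lf e) ≠ 0 ∨ gn φ n (D.rt e) ≠ 0 := by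
          by_contra h8
          push Not at h8
          exact he (by unfold dr; rw [h8.1, h8.2, sub_zero])
        rcases e with ⟨p, d⟩
        show 0 ≤ p.1 ∧ p.1 < ((n * R : ℕ) : ℤ) ∧ 0 ≤ p.2 ∧ p.2 < ((n * R : ℕ) : ℤ)
        rcases h7 with h7 | h7
        · have h8 := dr_gn_supp hn hp hs h7
          cases d <;> simp only [D.lf, if_true, Bool.false_eq_true, if_false] at h8 <;> omega
        · have h8 := dr_gn_supp hn hp hs h7
          cases d <;> simp only [D.rt, if_true, Bool.false_eq_true, if_false] at h8 <;> omega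
    obtain ⟨n0, hn0⟩ := eventually_atTop.1 (hq.and (hE.and (eventually_ge_atTop 2)))
    refine ⟨n0, fun n hn u x y z U hU g hg hg0 => ?_⟩
    obtain ⟨g1, g2, g3⟩ := hn0 n hn
    have hnp : (0 : ℝ) < n := by
      have : 0 < n := by omega
      exact_mod_cast this
    have h1an : 1 ≤ a * n := Nat.mul_pos (by omega) (by omega)
    have hV : Vr b (bxQ (n * R)) (dr (gn φ n)) ≤ Vr b U (dr g) := by
      refine Vr_box_le hb.le hp u x y z (fun f h1 h2 h3 h4 => hU f h1 ?_ h3 ?_) hg hg0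
      · push_cast at h2; exact h2
      · push_cast at h4; exact h4
    have hB := hbox (a * n + 1) (n * R) (gn φ n) (by omega) (by nlinarith) (by
      intro f hf
      by_contra h
      apply hf
      have h8 := dr_gn_supp (by omega) hp hs h
      rw [mem_bxQ]
      push_cast
      omega)
    have hFp : 0 < FF (JQ b (b / 2)) (SQ (n * R)) (bxQ (n * R)) fun _ => 1 :=
      FF_pos (JQ_nonneg hb.le (by linarith)) SQ_side (le_refl _)
    have g1' : helicity b * D.Dir φ - ε / 2 ≤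
        (FF (JQ b (b / 2)) (SQ (n * R)) (bxQ (n * R)) fun h => (prS (SQ (n * R)) (dr (gn φ n)) h) ^ 2) /
          (FF (JQ b (b / 2)) (SQ (n * R)) (bxQ (n * R)) fun _ => 1) := by
      rw [le_div_iff₀ hFp]
      exact g1
    -- the error
    have h5 : (((a * n + 1 : ℕ) : ℝ)) / ((n * R : ℕ) : ℝ) ≤ 2 * ((a : ℝ) / R) := by
      rw [div_le_iff₀ (by push_cast; positivity)]
      have : ((a * n + 1 : ℕ) : ℝ) ≤ 2 * (a * n) := by
        have h9 : (1 : ℝ) ≤ a * n := by exact_mod_cast h1an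
        push_cast
        linarith
      refine this.trans (le_of_eq ?_)
      push_cast
      field_simp
    have h6 : ((((a * n + 1 : ℕ) : ℝ)) / ((n * R : ℕ) : ℝ)) ^ κ ≤ 2 ^ κ * ((a : ℝ) / R) ^ κ := by
      rw [← Real.mul_rpow (by norm_num) (by positivity)]
      exact Real.rpow_le_rpow (by positivity) h5 hκ.le
    have h7 : ((a : ℝ) / R) ^ κ ≤ 1 := by
      refine Real.rpow_le_one (by positivity) ?_ hκ.le
      rw [div_le_one hR0]
      exact_mod_cast haR
    have h8 : C0 * (∑ e ∈ SQ (n * R), dr (gn φ n) e ^ 2) *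
        ((((a * n + 1 : ℕ) : ℝ)) / ((n * R : ℕ) : ℝ)) ^ κ ≤
        C0 * (D.Dir φ + ε2) * (2 ^ κ * ((a : ℝ) / R) ^ κ) := by
      refine mul_le_mul (mul_le_mul_of_nonneg_left g2 hC0.le) h6 (by positivity) (by positivity)
    have h9 : C0 * (D.Dir φ + ε2) * (2 ^ κ * ((a : ℝ) / R) ^ κ) ≤
        helicity b * D.Dir φ * (C * ((a : ℝ) / R) ^ κ) + ε / 2 := by
      have t1 : C0 * 2 ^ κ * (D.Dir φ * ((a : ℝ) / R) ^ κ) ≤
          helicity b * C * (D.Dir φ * ((a : ℝ) / R) ^ κ) :=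
        mul_le_mul_of_nonneg_right hC2 (by positivity)
      have t2 : C0 * 2 ^ κ * ε2 * ((a : ℝ) / R) ^ κ ≤ C0 * 2 ^ κ * ε2 * 1 :=
        mul_le_mul_of_nonneg_left h7 (by positivity)
      calc C0 * (D.Dir φ + ε2) * (2 ^ κ * ((a : ℝ) / R) ^ κ) =
          C0 * 2 ^ κ * (D.Dir φ * ((a : ℝ) / R) ^ κ) + C0 * 2 ^ κ * ε2 * ((a : ℝ) / R) ^ κ := by
            ring
        _ ≤ helicity b * C * (D.Dir φ * ((a : ℝ) / R) ^ κ) + ε / 2 := by linarith
        _ = _ := by ring
    have h10 : helicity b * D.Dir φ * (1 - C * ((a : ℝ) / R) ^ κ) =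
        helicity b * D.Dir φ - helicity b * D.Dir φ * (C * ((a : ℝ) / R) ^ κ) := by ring
    rw [h10]
    linarith

end Vale.Agent.P159.T1.H532
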